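import Crest.Agent.RC.Phi

/-!
# Row 153 (S0218), computability part: approximations of `log 2` and `exp (-3c)`
-/

set_option autoImplicit false

namespace Crest.Agent.RC

open Finset Filter Topology

private theorem lam_cast (N : ℕ) : ((lam N : ℚ) : ℝ) =
    ∑ n ∈ range N, (1 / 2 : ℝ) ^ (n + 1) / ((n : ℝ) + 1) + (1 / 2) ^ N := by
  unfold lam
  push_cast
  rfl

private theorem log_half : Real.log (1 - 1 / 2) = -Real.log 2 := by
  rw [show (1 - 1 / 2 : ℝ) = 2⁻¹ by norm_num, Real.log_inv]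

/-- `log 2 = -log (1 - 1/2) = Σ (1/2)^(n+1)/(n+1)`, tail `≤ (1/2)^N`
(`Real.hasSum_pow_div_log_of_abs_lt_one`, `Real.abs_log_sub_add_sum_range_le`). -/
theorem log_two_le_lam (N : ℕ) : Real.log 2 ≤ ((lam N : ℚ) : ℝ) := by
  have h := Real.abs_log_sub_add_sum_range_le (x := 1 / 2) (by rw [abs_of_pos] <;> norm_num) N
  have h2 : |(1 / 2 : ℝ)| ^ (N + 1) / (1 - |(1 / 2 : ℝ)|) = (1 / 2) ^ N := by
    rw [abs_of_pos (by norm_num), pow_succ]
    norm_num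
  rw [h2, log_half] at h
  have h3 := (abs_le.1 h).1
  rw [lam_cast]
  linarith

theorem lam_tendsto : Tendsto (fun N : ℕ => ((lam N : ℚ) : ℝ)) atTop (𝓝 (Real.log 2)) := by
  have h1 := (Real.hasSum_pow_div_log_of_abs_lt_one (x := 1 / 2)
    (by rw [abs_of_pos] <;> norm_num)).tendsto_sum_nat
  rw [log_half, neg_neg] at h1
  have h2 : Tendsto (fun N : ℕ => (1 / 2 : ℝ) ^ N) atTop (𝓝 0) :=
    tendsto_pow_atTop_nhds_zero_of_lt_one (by norm_num) (by norm_num)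
  have h3 := h1.add h2
  rw [add_zero] at h3
  simpa only [lam_cast] using h3

private theorem elow_cast (a ρ N : ℕ) : ((elow a ρ N : ℚ) : ℝ) =
    (1 - (3 * ((a : ℝ) / 2 ^ ρ)) / ((3 * a + N + 1 : ℕ) : ℝ)) ^ (3 * a + N + 1) := by
  unfold elow
  push_cast
  congr 2
  field_simp

private theorem x_le (a ρ N : ℕ) : 3 * ((a : ℝ) / 2 ^ ρ) ≤ ((3 * a + N + 1 : ℕ) : ℝ) := by
  have h1 : (a : ℝ) / 2 ^ ρ ≤ a := by
    refine div_le_self (Nat.cast_nonneg a) ?_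
    exact one_le_pow₀ (by norm_num)
  push_cast
  have h2 : (0 : ℝ) ≤ N := Nat.cast_nonneg N
  linarith

/-- `(1 - x/M)^M ≤ exp (-x)` for `0 ≤ x ≤ M` (`Real.one_sub_div_pow_le_exp_neg`), here
`x = 3 a / 2^ρ`, `M = 3a + N + 1`. -/
theorem elow_le (a ρ N : ℕ) : ((elow a ρ N : ℚ) : ℝ) ≤ Real.exp (-(3 * ((a : ℝ) / 2 ^ ρ))) := by
  rw [elow_cast]
  exact Real.one_sub_div_pow_le_exp_neg (x_le a ρ N)

theorem elow_nonneg (a ρ N : ℕ) : 0 ≤ ((elow a ρ N : ℚ) : ℝ) := by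
  rw [elow_cast]
  refine pow_nonneg ?_ _
  have h := x_le a ρ N
  have h2 : (0 : ℝ) < ((3 * a + N + 1 : ℕ) : ℝ) := by positivity
  rw [sub_nonneg, div_le_one h2]
  exact h

/-- `Real.tendsto_one_add_div_pow_exp` -/
theorem elow_tendsto (a ρ : ℕ) : Tendsto (fun N : ℕ => ((elow a ρ N : ℚ) : ℝ)) atTop
    (𝓝 (Real.exp (-(3 * ((a : ℝ) / 2 ^ ρ))))) := by
  have h := Real.tendsto_one_add_div_pow_exp (-(3 * ((a : ℝ) / 2 ^ ρ)))
  have h2 : Tendsto (fun N : ℕ => 3 * a + N + 1) atTop atTop :=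
    tendsto_atTop_mono (fun N => by simp only [id]; omega) tendsto_id
  have h3 := h.comp h2
  refine h3.congr fun N => ?_
  rw [elow_cast]
  simp only [Function.comp]
  congr 1
  ring

end Crest.Agent.RC
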