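import Crest.Agent.RC.Bounds
import Crest.Agent.RC.Num

/-!
# Row 153 (S0218), computability part: rational approximation of the data
-/

set_option autoImplicit false

namespace Crest.Agent.RC

open Finset Filter Topology

private theorem floor_add_one_div_tendsto {a : ℝ} (ha : 0 ≤ a) :
    Tendsto (fun N : ℕ => ((⌊a * (N : ℝ)⌋₊ : ℝ) + 1) / (N : ℝ)) atTop (𝓝 a) := by
  have h1 : Tendsto (fun N : ℕ => (⌊a * (N : ℝ)⌋₊ : ℝ) / (N : ℝ)) atTop (𝓝 a) :=
    (tendsto_nat_floor_mul_div_atTop ha).comp tendsto_natCast_atTop_atTop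
  have h2 : Tendsto (fun N : ℕ => (1 : ℝ) / (N : ℝ)) atTop (𝓝 0) :=
    tendsto_one_div_atTop_nhds_zero_nat
  have h3 := h1.add h2
  rw [add_zero] at h3
  refine h3.congr fun N => ?_
  rw [add_div]

private theorem getD_map_range (f : ℕ → ℕ) {n i : ℕ} (hi : i < n) :
    ((List.range n).map f).getD i 0 = f i := by
  simp [List.getD, hi]

/-- The approximating data. -/
private noncomputable def dN (K R : ℕ) (c q : ℕ → ℝ) (j k0 N0 N : ℕ) : DT :=
  ((j, K - 1, R), (k0, N0, N), ((List.range (R + 1)).map fun J => ⌊c J * (N : ℝ)⌋₊,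
    (List.range (K ^ (R + 1))).map fun i => ⌊q i * (N : ℝ)⌋₊, N))

private theorem dN_g {K R : ℕ} {c q : ℕ → ℝ} {j k0 N0 N J : ℕ} (hJ : J ≤ R) :
    (dN K R c q j k0 N0 N).g J = ⌊c J * (N : ℝ)⌋₊ + 1 := by
  unfold DT.g dN
  simp only
  rw [getD_map_range _ (by omega)]

private theorem dN_G {K R : ℕ} {c q : ℕ → ℝ} {j k0 N0 N : ℕ} :
    (dN K R c q j k0 N0 N).G = ∑ J ∈ range (R + 1), (⌊c J * (N : ℝ)⌋₊ + 1) := by
  unfold DT.G
  refine Finset.sum_congr rfl fun J hJ => ?_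
  have hJ' : J < R + 1 := Finset.mem_range.mp hJ
  exact dN_g (by omega)

private theorem dN_u {K R : ℕ} {c q : ℕ → ℝ} {j k0 N0 N i : ℕ} (hi : i < K ^ (R + 1))
    (hq : q i ≤ 1) :
    (dN K R c q j k0 N0 N).u i = ⌊q i * (N : ℝ)⌋₊ + 1 := by
  have h1 : ⌊q i * (N : ℝ)⌋₊ ≤ N := by
    have : ⌊q i * (N : ℝ)⌋₊ ≤ ⌊(N : ℝ)⌋₊ := by
      refine Nat.floor_le_floor ?_
      have hN : (0 : ℝ) ≤ N := Nat.cast_nonneg N
      nlinarith
    rwa [Nat.floor_natCast] at this
  unfold DT.u dN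
  simp only
  rw [getD_map_range _ hi, Nat.mod_eq_of_lt (by omega)]

/-- Every admissible data is a limit of coded rational data: for `N` put
`gl J = ⌊N c J⌋` (so `g J = ⌊N c J⌋ + 1`), `U' = N`, `ul i = min ⌊N q i⌋ N`, `N1 = N`. -/
theorem exists_DT_seq {K R : ℕ} {c q : ℕ → ℝ} (h : Adm K R c q) (j k0 N0 : ℕ) :
    ∃ d : ℕ → DT, (∀ N, (d N).j = j ∧ (d N).K = K ∧ (d N).R = R ∧ (d N).k0 = k0 ∧ (d N).N0 = N0 ∧
      (d N).N1 = N) ∧
      (∀ J, J ≤ R → Tendsto (fun N => (d N).cR J) atTop (𝓝 (c J))) ∧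
      (∀ i, i < K ^ (R + 1) → Tendsto (fun N => (d N).qR i) atTop (𝓝 (q i))) := by
  refine ⟨fun N => dN K R c q j k0 N0 N, ?_, ?_, ?_⟩
  · intro N
    refine ⟨rfl, ?_, rfl, rfl, rfl, rfl⟩
    have hK := h.K_pos
    show K - 1 + 1 = K
    omega
  · intro J hJ
    have hG : Tendsto (fun N : ℕ => ((dN K R c q j k0 N0 N).G : ℝ) / (N : ℝ)) atTop (𝓝 1) := by
      have h1 : Tendsto (fun N : ℕ => ∑ J ∈ range (R + 1), ((⌊c J * (N : ℝ)⌋₊ : ℝ) + 1) / (N : ℝ))
          atTop (𝓝 (∑ J ∈ range (R + 1), c J)) := by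
        refine tendsto_finsetSum _ fun J hJ => ?_
        have hJ' : J < R + 1 := Finset.mem_range.mp hJ
        exact floor_add_one_div_tendsto (h.c_nonneg J (by omega))
      rw [h.c_sum] at h1
      refine h1.congr fun N => ?_
      rw [dN_G, Nat.cast_sum, Finset.sum_div]
      refine Finset.sum_congr rfl fun J _ => ?_
      push_cast
      rfl
    have hg := floor_add_one_div_tendsto (h.c_nonneg J hJ)
    have h2 := hg.div hG one_ne_zero
    rw [div_one] at h2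
    refine h2.congr' ?_
    filter_upwards [eventually_gt_atTop 0] with N hN
    have hN' : (N : ℝ) ≠ 0 := by
      have : (0 : ℝ) < N := by exact_mod_cast hN
      exact this.ne'
    unfold DT.cR
    rw [dN_g hJ]
    simp only [Pi.div_apply]
    rw [div_div_div_cancel_right₀ hN']
    push_cast
    rfl
  · intro i hi
    have h1 := floor_add_one_div_tendsto (h.q_nonneg i hi)
    have h2 : Tendsto (fun N : ℕ => ((N : ℝ) + 2) / (N : ℝ)) atTop (𝓝 1) := by
      have h3 : Tendsto (fun N : ℕ => (1 : ℝ) + 2 / (N : ℝ)) atTop (𝓝 (1 + 0)) :=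
        tendsto_const_nhds.add (tendsto_const_div_atTop_nhds_zero_nat 2)
      rw [add_zero] at h3
      refine h3.congr' ?_
      filter_upwards [eventually_gt_atTop 0] with N hN
      have hN' : (N : ℝ) ≠ 0 := by
        have : (0 : ℝ) < N := by exact_mod_cast hN
        exact this.ne'
      rw [add_div, div_self hN']
    have h4 := h1.div h2 one_ne_zero
    rw [div_one] at h4
    refine h4.congr' ?_
    filter_upwards [eventually_gt_atTop 0] with N hN
    have hN' : (N : ℝ) ≠ 0 := by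
      have : (0 : ℝ) < N := by exact_mod_cast hN
      exact this.ne'
    unfold DT.qR
    rw [dN_u hi (h.q_le i hi)]
    simp only [Pi.div_apply]
    rw [div_div_div_cancel_right₀ hN']
    have hU : ((dN K R c q j k0 N0 N).U : ℝ) = (N : ℝ) + 2 := by
      have : (dN K R c q j k0 N0 N).U = N + 2 := rfl
      rw [this]
      push_cast
      rfl
    rw [hU]
    push_cast
    rfl

/-- Continuity of `PhiR` along these sequences. -/
theorem exists_PhiQ_neg {a ρ j K R : ℕ} {c q : ℕ → ℝ} (h : Adm K R c q) {k0 N0 : ℕ}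
    (hneg : PhiR ((a : ℝ) / 2 ^ ρ) j K R c q (Real.log 2) (Real.exp (-(3 * ((a : ℝ) / 2 ^ ρ)))) k0 N0 < 0) :
    ∃ d : DT, PhiQ a ρ d < 0 := by
  obtain ⟨d, hd, hc, hq⟩ := exists_DT_seq h j k0 N0
  have hlim : Tendsto (fun N => ((PhiQ a ρ (d N) : ℚ) : ℝ)) atTop
      (𝓝 (PhiR ((a : ℝ) / 2 ^ ρ) j K R c q (Real.log 2)
        (Real.exp (-(3 * ((a : ℝ) / 2 ^ ρ)))) k0 N0)) := by
    have heq : ∀ N, ((PhiQ a ρ (d N) : ℚ) : ℝ) = PhiR ((a : ℝ) / 2 ^ ρ) j K R (d N).cR (d N).qR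
        (lam N : ℚ) (elow a ρ N : ℚ) k0 N0 := by
      intro N
      obtain ⟨h1, h2, h3, h4, h5, h6⟩ := hd N
      rw [PhiQ_eq, h1, h2, h3, h4, h5, h6]
    simp only [heq]
    unfold PhiR
    refine Tendsto.add (Tendsto.sub (lam_tendsto.mul_const _)
      ((elow_tendsto a ρ).mul (tendsto_finsetSum _ fun k _ => ?_)))
      (Tendsto.const_mul _ (Tendsto.add (tendsto_finsetSum _ fun n _ => ?_) tendsto_const_nhds))
    · refine Tendsto.const_mul _ (tendsto_finsetSum _ fun n _ => ?_)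
      exact (siteV_tendsto h.K_pos hc hq _ k n).div_const _
    · exact (edgeV_tendsto h.K_pos hc hq _ n).div_const _
  obtain ⟨N, hN⟩ := (hlim.eventually_lt_const hneg).exists
  refine ⟨d N, ?_⟩
  exact_mod_cast hN

theorem DT.adm (d : DT) : Adm d.K d.R d.cR d.qR := by
  have hG : (0 : ℝ) < (d.G : ℝ) := by exact_mod_cast d.G_pos
  have hU : (0 : ℝ) < (d.U : ℝ) := by
    have : 0 < d.U := lt_trans (d.u_pos 0) (d.u_lt 0)
    exact_mod_cast this
  refine ⟨Nat.succ_pos _, ?_, ?_, ?_, ?_⟩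
  · intro J _
    unfold DT.cR
    positivity
  · unfold DT.cR
    rw [← Finset.sum_div, ← Nat.cast_sum]
    exact div_self hG.ne'
  · intro i _
    unfold DT.qR
    positivity
  · intro i _
    unfold DT.qR
    rw [div_le_one hU]
    exact_mod_cast (d.u_lt i).le

end Crest.Agent.RC
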