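import Crest.Agent.RC.Prim

/-!
# Row 153 (S0218), computability part: from two computable stage predicates to a computable real
-/

set_option autoImplicit false

namespace Crest.Agent.RC

/-- If the rationals `a / 2^r` strictly below / above `α ≥ 0` are recognised by computable stage
predicates (sound for the weak inequality), then `α` is a computable real. -/
theorem exists_computable_of_stages {σ τ : Type} [Primcodable σ] [Primcodable τ] [Inhabited σ]
    (α : ℝ)
    (h0 : 0 ≤ α) (lo : ℕ → ℕ → σ → Bool) (hi : ℕ → ℕ → τ → Bool)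
    (hlo : Computable fun x : (ℕ × ℕ) × σ => lo x.1.1 x.1.2 x.2)
    (hhi : Computable fun x : (ℕ × ℕ) × τ => hi x.1.1 x.1.2 x.2)
    (lo_sound : ∀ (a r : ℕ) (s : σ), lo a r s = true → (a : ℝ) / 2 ^ r ≤ α)
    (lo_complete : ∀ (a r : ℕ), (a : ℝ) / 2 ^ r < α → ∃ s, lo a r s = true)
    (hi_sound : ∀ (a r : ℕ) (s : τ), hi (a + 1) r s = true → α ≤ ((a + 1 : ℕ) : ℝ) / 2 ^ r)
    (hi_complete : ∀ (a r : ℕ), α < ((a + 1 : ℕ) : ℝ) / 2 ^ r → ∃ s, hi (a + 1) r s = true) :
    ∃ f : ℕ → ℕ, Computable f ∧ ∀ r : ℕ, |(f r : ℝ) / 2 ^ r - α| ≤ 1 / 2 ^ r := by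
  classical
  -- search for `(a, s, t)` with `a = 0` or `lo (a-1) r s`, and `hi (a+1) r t`
  let test : ℕ → ℕ × σ × τ → Bool := fun r x =>
    (decide (x.1 = 0) || lo (x.1 - 1) r x.2.1) && hi (x.1 + 1) r x.2.2
  have htest : Computable₂ test := by
    have p1 : Primrec fun x : ℕ × (ℕ × σ × τ) => (((x.2.1 - 1, x.1), x.2.2.1) : (ℕ × ℕ) × σ) := by
      prim
    have p2 : Primrec fun x : ℕ × (ℕ × σ × τ) => (((x.2.1 + 1, x.1), x.2.2.2) : (ℕ × ℕ) × τ) := by
      prim
    have p3 : PrimrecPred fun x : ℕ × (ℕ × σ × τ) => x.2.1 = 0 := by prim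
    have h1 := hlo.comp p1.to_comp
    have h2 := hhi.comp p2.to_comp
    have h3 := p3.decide.to_comp
    have h4 := Primrec.or.to_comp.comp h3 h1
    exact Primrec.and.to_comp.comp h4 h2
  let F : ℕ → ℕ → Option ℕ := fun r n =>
    (Encodable.decode n : Option (ℕ × σ × τ)).bind (fun x => if test r x = true then some x.1 else none)
  have hF : Computable₂ F := by
    refine Computable.option_bind (Computable.decode.comp Computable.snd) ?_
    have p1 : Computable fun x : (ℕ × ℕ) × (ℕ × σ × τ) => test x.1.1 x.2 := by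
      have e1 : Primrec fun x : (ℕ × ℕ) × (ℕ × σ × τ) => x.1.1 := by prim
      have e2 : Primrec fun x : (ℕ × ℕ) × (ℕ × σ × τ) => x.2 := by prim
      exact htest.comp e1.to_comp e2.to_comp
    have p2 : Primrec fun x : (ℕ × ℕ) × (ℕ × σ × τ) => x.2.1 := by prim
    refine (Computable.cond p1 (Computable.option_some.comp p2.to_comp)
      (Computable.const none)).of_eq ?_
    rintro ⟨⟨r, n⟩, x⟩
    by_cases h : test r x = true <;> simp [h]
  have hdom : ∀ r, (Nat.rfindOpt (F r)).Dom := by
    intro r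
    rw [Nat.rfindOpt_dom]
    have h2 : (0 : ℝ) < 2 ^ r := by positivity
    -- `a = ⌊α 2^r⌋`
    set a : ℕ := ⌊α * 2 ^ r + 1 / 2⌋₊ with ha
    have hpos : 0 ≤ α * 2 ^ r + 1 / 2 := by positivity
    have ha1 : (a : ℝ) ≤ α * 2 ^ r + 1 / 2 := Nat.floor_le hpos
    have ha2 : α * 2 ^ r + 1 / 2 < a + 1 := Nat.lt_floor_add_one _
    have hhi' : α < ((a + 1 : ℕ) : ℝ) / 2 ^ r := by
      rw [lt_div_iff₀ h2]
      push_cast
      linarith
    obtain ⟨t, ht⟩ := hi_complete a r hhi'
    have hlo' : a = 0 ∨ (((a - 1 : ℕ) : ℝ) / 2 ^ r < α) := by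
      rcases Nat.eq_zero_or_pos a with h | h
      · exact Or.inl h
      · right
        rw [div_lt_iff₀ h2, Nat.cast_sub h]
        push_cast
        linarith
    rcases hlo' with h | h
    · refine ⟨Encodable.encode (a, (default : σ), t), a, ?_⟩
      have : test r (a, default, t) = true := by
        simp only [test, h, decide_true, Bool.true_or, Bool.true_and]
        rw [h] at ht
        exact ht
      simp [F, this]
    · obtain ⟨s, hs⟩ := lo_complete (a - 1) r h
      refine ⟨Encodable.encode (a, s, t), a, ?_⟩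
      have : test r (a, s, t) = true := by
        simp only [test, hs, ht, Bool.or_true, Bool.and_true]
      simp [F, this]
  refine ⟨fun r => (Nat.rfindOpt (F r)).get (hdom r), ?_, ?_⟩
  · exact (Partrec.rfindOpt hF).of_eq_tot (fun b => Part.get_mem _)
  · intro r
    obtain ⟨n, hn⟩ := Nat.rfindOpt_spec (Part.get_mem (hdom r))
    simp only [F] at hn
    rw [Option.mem_def, Option.bind_eq_some_iff] at hn
    obtain ⟨⟨a, s, t⟩, _, h2⟩ := hn
    split_ifs at h2 with h3
    have h4 : a = (Nat.rfindOpt (F r)).get (hdom r) := Option.some.inj h2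
    show |(((Nat.rfindOpt (F r)).get (hdom r) : ℕ) : ℝ) / 2 ^ r - α| ≤ 1 / 2 ^ r
    rw [← h4]
    simp only [test, Bool.and_eq_true, Bool.or_eq_true, decide_eq_true_eq] at h3
    have hp : (0 : ℝ) < 2 ^ r := by positivity
    have hhi' := hi_sound a r t h3.2
    have hlo' : ((a : ℝ) - 1) / 2 ^ r ≤ α := by
      rcases h3.1 with h | h
      · rw [h]
        have : (((0 : ℕ) : ℝ) - 1) / 2 ^ r ≤ 0 :=
          div_nonpos_of_nonpos_of_nonneg (by norm_num) hp.le
        linarith
      · have := lo_sound _ _ _ h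
        rcases Nat.eq_zero_or_pos a with h5 | h5
        · rw [h5]
          have : (((0 : ℕ) : ℝ) - 1) / 2 ^ r ≤ 0 :=
            div_nonpos_of_nonpos_of_nonneg (by norm_num) hp.le
          linarith
        · rw [Nat.cast_sub h5] at this
          simpa using this
    push_cast at hhi'
    rw [abs_le]
    rw [sub_div] at hlo'
    rw [add_div] at hhi'
    constructor <;> linarith

end Crest.Agent.RC
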