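import Crest.Agent.RC.Codes

/-!
# Row 153 (S0218), computability part: digits
-/

set_option autoImplicit false

namespace Crest.Agent.RC

open Finset

theorem dig_lt {b : ℕ} (hb : 0 < b) (i x : ℕ) : dig b i x < b := Nat.mod_lt _ hb

theorem finFunctionFinEquiv_symm_val {k b : ℕ} (x : Fin (b ^ k)) (i : Fin k) :
    ((finFunctionFinEquiv.symm x i : Fin b) : ℕ) = dig b i x := by
  simp [finFunctionFinEquiv, dig]

/-- code of a digit sequence -/
def ofD {k b : ℕ} (f : Fin k → Fin b) : ℕ := (finFunctionFinEquiv f : Fin (b ^ k))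

theorem ofD_lt {k b : ℕ} (f : Fin k → Fin b) : ofD f < b ^ k := (finFunctionFinEquiv f).isLt

theorem dig_ofD {k b : ℕ} (f : Fin k → Fin b) (i : Fin k) : dig b i (ofD f) = f i := by
  unfold ofD
  rw [← finFunctionFinEquiv_symm_val, Equiv.symm_apply_apply]

theorem ofD_injective {k b : ℕ} : Function.Injective (ofD : (Fin k → Fin b) → ℕ) := by
  intro f g h
  exact finFunctionFinEquiv.injective (Fin.ext h)

theorem exists_ofD {k b x : ℕ} (hx : x < b ^ k) : ∃ f : Fin k → Fin b, ofD f = x :=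
  ⟨finFunctionFinEquiv.symm ⟨x, hx⟩, by unfold ofD; rw [Equiv.apply_symm_apply]⟩

theorem ofD_eq_sum {k b : ℕ} (f : Fin k → Fin b) : ofD f = ∑ i : Fin k, (f i : ℕ) * b ^ (i : ℕ) := by
  unfold ofD
  simp [finFunctionFinEquiv]

/-- A number below `b^k` is determined by its digits. -/
theorem ext_dig {k b x y : ℕ} (hx : x < b ^ k) (hy : y < b ^ k)
    (h : ∀ i < k, dig b i x = dig b i y) : x = y := by
  obtain ⟨f, rfl⟩ := exists_ofD hx
  obtain ⟨g, rfl⟩ := exists_ofD hy
  congr 1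
  funext i
  have := h i i.isLt
  rw [dig_ofD, dig_ofD] at this
  exact Fin.ext this

theorem sum_range_ofD {M : Type*} [AddCommMonoid M] {k b : ℕ} (F : ℕ → M) :
    ∑ x ∈ range (b ^ k), F x = ∑ f : Fin k → Fin b, F (ofD f) := by
  rw [Finset.sum_range]
  exact (Equiv.sum_comp finFunctionFinEquiv (fun x : Fin (b ^ k) => F x)).symm

theorem sum_dig {k b x : ℕ} (hx : x < b ^ k) : ∑ i ∈ range k, dig b i x * b ^ i = x := by
  obtain ⟨f, rfl⟩ := exists_ofD hx
  rw [Finset.sum_range]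
  simp only [dig_ofD]
  exact (ofD_eq_sum f).symm

end Crest.Agent.RC
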