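import Crest.Agent.RC.Phi
import Crest.Agent.RC.Digits

/-!
# Row 153 (S0218), computability part: bounds, dependence and continuity
-/

set_option autoImplicit false

namespace Crest.Agent.RC

open Finset Filter Topology

/-- Admissible real data. -/
structure Adm (K R : ℕ) (c q : ℕ → ℝ) : Prop where
  K_pos : 0 < K
  c_nonneg : ∀ J, J ≤ R → 0 ≤ c J
  c_sum : ∑ J ∈ range (R + 1), c J = 1
  q_nonneg : ∀ i, i < K ^ (R + 1) → 0 ≤ q i
  q_le : ∀ i, i < K ^ (R + 1) → q i ≤ 1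

theorem cellIdx_lt {K : ℕ} (hK : 0 < K) (R b ℓ p : ℕ) : cellIdx K R b ℓ p < K ^ (R + 1) := by
  unfold cellIdx
  generalize R + 1 = m
  induction m with
  | zero => simp
  | succ m ih =>
    rw [Finset.sum_range_succ, pow_succ]
    have h1 : dig K ℓ (dig b m p) + 1 ≤ K := dig_lt hK _ _
    calc (∑ i ∈ range m, dig K ℓ (dig b i p) * K ^ i) + dig K ℓ (dig b m p) * K ^ m
        < K ^ m + dig K ℓ (dig b m p) * K ^ m := by omega
      _ = (dig K ℓ (dig b m p) + 1) * K ^ m := by ring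
      _ ≤ K * K ^ m := Nat.mul_le_mul_right _ h1
      _ = K ^ m * K := Nat.mul_comm _ _

theorem qb_bounds {K R : ℕ} {c q : ℕ → ℝ} (h : Adm K R c q) (b l p e : ℕ) :
    0 ≤ qb q (cellIdx K R b l p) e ∧ qb q (cellIdx K R b l p) e ≤ 1 := by
  have h0 := h.q_nonneg _ (cellIdx_lt h.K_pos R b l p)
  have h1 := h.q_le _ (cellIdx_lt h.K_pos R b l p)
  unfold qb
  split_ifs
  · exact ⟨h0, h1⟩
  · exact ⟨by linarith, by linarith⟩

theorem fac_bounds {K R : ℕ} {c q : ℕ → ℝ} (h : Adm K R c q) {t : ℝ} (ht : 0 < t) (ht1 : t ≤ 1)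
    (k s p e j : ℕ) : t ≤ fac K R q t k s p e j ∧ fac K R q t k s p e j ≤ 1 := by
  unfold fac
  obtain ⟨a0, a1⟩ := qb_bounds h (K ^ (2 * k)) (2 * j) p (dig 2 0 (dig 8 j s))
  obtain ⟨b0, b1⟩ := qb_bounds h (K ^ (2 * k)) (2 * j + 1) p (dig 2 1 (dig 8 j s))
  set x := qb q (cellIdx K R (K ^ (2 * k)) (2 * j) p) (dig 2 0 (dig 8 j s))
  set y := qb q (cellIdx K R (K ^ (2 * k)) (2 * j + 1) p) (dig 2 1 (dig 8 j s))
  have hxy0 : 0 ≤ x * y := mul_nonneg a0 b0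
  have hxy1 : x * y ≤ 1 := mul_le_one₀ a1 b0 b1
  have h1t : 0 ≤ 1 - t := by linarith
  have e1 : ∀ w : ℝ, (w = 0 ∨ w = 1) → 0 ≤ (1 - t) * w * x * y ∧ (1 - t) * w * x * y ≤ 1 - t := by
    intro w hw
    rcases hw with rfl | rfl
    · simp [h1t]
    · rw [mul_one, mul_assoc]
      exact ⟨mul_nonneg h1t hxy0, mul_le_of_le_one_right h1t hxy1⟩
  have e2 := e1 (if dig 2 2 (dig 8 j s) = e then 1 else 0) (by split_ifs <;> simp)
  exact ⟨by linarith [e2.2], by linarith [e2.1]⟩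

theorem siteProd_bounds {K R : ℕ} {c q : ℕ → ℝ} (h : Adm K R c q) {t : ℝ} (ht : 0 < t)
    (ht1 : t ≤ 1) (k s p e : ℕ) :
    t ^ k ≤ ∏ j ∈ range k, fac K R q t k s p e j ∧ ∏ j ∈ range k, fac K R q t k s p e j ≤ 1 := by
  constructor
  · calc t ^ k = ∏ _j ∈ range k, t := by simp
      _ ≤ _ := Finset.prod_le_prod (fun _ _ => ht.le) (fun j _ => (fac_bounds h ht ht1 k s p e j).1)
  · exact Finset.prod_le_one (fun j _ => ht.le.trans (fac_bounds h ht ht1 k s p e j).1)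
      (fun j _ => (fac_bounds h ht ht1 k s p e j).2)

theorem Ysite_nonneg {K R : ℕ} {c q : ℕ → ℝ} (h : Adm K R c q) {t : ℝ} (ht : 0 < t) (ht1 : t ≤ 1)
    (k s p : ℕ) : 0 ≤ Ysite K R q t k s p := by
  unfold Ysite
  rw [sum_range_succ, sum_range_one]
  have h0 := siteProd_bounds h ht ht1 k s p 0
  have h1 := siteProd_bounds h ht ht1 k s p 1
  have hk0 : 0 ≤ t ^ k := by positivity
  have hk1 : t ^ k ≤ 1 := pow_le_one₀ ht.le ht1
  have : t ^ k * (∏ j ∈ range k, fac K R q t k s p 0 j + ∏ j ∈ range k, fac K R q t k s p 1 j)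
      ≤ 1 * 2 := mul_le_mul hk1 (by linarith [h0.2, h1.2]) (by linarith [h0.1, h1.1]) zero_le_one
  nlinarith

/-- each factor `fac` is at least `t` -/
theorem Ysite_le {K R : ℕ} {c q : ℕ → ℝ} (h : Adm K R c q) {t : ℝ} (ht : 0 < t) (ht1 : t ≤ 1)
    (k s p : ℕ) : Ysite K R q t k s p ≤ 1 - t ^ (2 * k) := by
  unfold Ysite
  rw [sum_range_succ, sum_range_one]
  have h0 := siteProd_bounds h ht ht1 k s p 0
  have h1 := siteProd_bounds h ht ht1 k s p 1
  have hk0 : 0 ≤ t ^ k := by positivity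
  have : t ^ k * (2 * t ^ k) ≤ t ^ k * (∏ j ∈ range k, fac K R q t k s p 0 j +
      ∏ j ∈ range k, fac K R q t k s p 1 j) :=
    mul_le_mul_of_nonneg_left (by linarith [h0.1, h1.1]) hk0
  have e : t ^ (2 * k) = t ^ k * t ^ k := by rw [← pow_add]; congr 1; ring
  rw [e]
  nlinarith

theorem edgeProd_bounds {K R : ℕ} {c q : ℕ → ℝ} (h : Adm K R c q) (s p : ℕ) :
    0 ≤ ∏ i ∈ range 3, qb q (cellIdx K R (K ^ 3) i p) (dig 2 i s) ∧
      ∏ i ∈ range 3, qb q (cellIdx K R (K ^ 3) i p) (dig 2 i s) ≤ 1 :=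
  ⟨Finset.prod_nonneg fun i _ => (qb_bounds h _ i p _).1,
    Finset.prod_le_one (fun i _ => (qb_bounds h _ i p _).1) (fun i _ => (qb_bounds h _ i p _).2)⟩

theorem Yedge_nonneg {K R : ℕ} {c q : ℕ → ℝ} (h : Adm K R c q) {t : ℝ} (ht : 0 < t) (ht1 : t ≤ 1)
    (s p : ℕ) : 0 ≤ Yedge K R q t s p := by
  unfold Yedge
  obtain ⟨h0, h1⟩ := edgeProd_bounds h s p
  set P := ∏ i ∈ range 3, qb q (cellIdx K R (K ^ 3) i p) (dig 2 i s)
  have h2 : 0 ≤ t * ((1 - t) * P) := mul_nonneg ht.le (mul_nonneg (by linarith) h0)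
  nlinarith

theorem Yedge_le {K R : ℕ} {c q : ℕ → ℝ} (h : Adm K R c q) {t : ℝ} (ht : 0 < t) (ht1 : t ≤ 1)
    (s p : ℕ) : Yedge K R q t s p ≤ 1 - t ^ 2 := by
  unfold Yedge
  obtain ⟨h0, h1⟩ := edgeProd_bounds h s p
  set P := ∏ i ∈ range 3, qb q (cellIdx K R (K ^ 3) i p) (dig 2 i s)
  have h2 : 0 ≤ t * ((1 - t) * (1 - P)) :=
    mul_nonneg ht.le (mul_nonneg (by linarith) (by linarith))
  nlinarith

theorem FR_bounds {b R : ℕ} (hb : 0 < b) {c Y : ℕ → ℝ} {M : ℝ} (hM : 0 ≤ M)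
    (hc : ∀ J, J ≤ R → 0 ≤ c J) (hc1 : ∑ J ∈ range (R + 1), c J = 1)
    (hY : ∀ p, 0 ≤ Y p) (hY1 : ∀ p, Y p ≤ M) (k : ℕ) :
    ∀ S : List (ℕ × ℕ), 0 < S.length →
      0 ≤ FR b R c Y k S ∧ FR b R c Y k S ≤ M ^ (S.length + k) := by
  induction k with
  | zero =>
    intro S _
    simp only [FR, Nat.add_zero]
    induction S with
    | nil => simp
    | cons p S ih =>
      have ih' : 0 ≤ (S.map fun p => Y p.1).prod ∧ (S.map fun p => Y p.1).prod ≤ M ^ S.length := by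
        rcases Nat.eq_zero_or_pos S.length with h | h
        · have : S = [] := List.length_eq_zero_iff.mp h
          subst this
          simp
        · exact ih h
      simp only [List.map_cons, List.prod_cons, List.length_cons, pow_succ]
      refine ⟨mul_nonneg (hY _) ih'.1, ?_⟩
      rw [mul_comm]
      exact mul_le_mul ih'.2 (hY1 _) (hY _) (by positivity)
  | succ k ih =>
    intro S hS
    have hlen : ∀ a J w, (S ++ [nxt b S a J w]).length = S.length + 1 := by intros; simp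
    have hS' : (0 : ℝ) < (S.length : ℝ) := by exact_mod_cast hS
    have hbp : (0 : ℝ) < ((b ^ (R + 1) : ℕ) : ℝ) := by
      have : 0 < b ^ (R + 1) := by positivity
      exact_mod_cast this
    have hw : ∀ a J, 0 ≤ (((b ^ (R + 1) : ℕ) : ℝ)⁻¹ *
        ∑ w ∈ range (b ^ (R + 1)), FR b R c Y k (S ++ [nxt b S a J w])) ∧
        (((b ^ (R + 1) : ℕ) : ℝ)⁻¹ *
        ∑ w ∈ range (b ^ (R + 1)), FR b R c Y k (S ++ [nxt b S a J w])) ≤
          M ^ (S.length + (k + 1)) := by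
      intro a J
      have e : ∀ w, 0 ≤ FR b R c Y k (S ++ [nxt b S a J w]) ∧
          FR b R c Y k (S ++ [nxt b S a J w]) ≤ M ^ (S.length + (k + 1)) := by
        intro w
        have := ih (S ++ [nxt b S a J w]) (by rw [hlen]; omega)
        rw [hlen] at this
        have e2 : S.length + 1 + k = S.length + (k + 1) := by omega
        rw [e2] at this
        exact this
      refine ⟨mul_nonneg (inv_nonneg.mpr hbp.le) (Finset.sum_nonneg fun w _ => (e w).1), ?_⟩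
      rw [inv_mul_le_iff₀ hbp]
      calc _ ≤ ∑ _w ∈ range (b ^ (R + 1)), M ^ (S.length + (k + 1)) :=
            Finset.sum_le_sum fun w _ => (e w).2
        _ = _ := by rw [Finset.sum_const, card_range, nsmul_eq_mul]
    have hJ : ∀ a, 0 ≤ (∑ J ∈ range (R + 1), c J * (((b ^ (R + 1) : ℕ) : ℝ)⁻¹ *
        ∑ w ∈ range (b ^ (R + 1)), FR b R c Y k (S ++ [nxt b S a J w]))) ∧
        (∑ J ∈ range (R + 1), c J * (((b ^ (R + 1) : ℕ) : ℝ)⁻¹ *
        ∑ w ∈ range (b ^ (R + 1)), FR b R c Y k (S ++ [nxt b S a J w]))) ≤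
          M ^ (S.length + (k + 1)) := by
      intro a
      have hc' : ∀ J ∈ range (R + 1), 0 ≤ c J := fun J hJ =>
        hc J (Nat.lt_succ_iff.mp (Finset.mem_range.mp hJ))
      refine ⟨Finset.sum_nonneg fun J hJ => mul_nonneg (hc' J hJ) (hw a J).1, ?_⟩
      calc _ ≤ ∑ J ∈ range (R + 1), c J * M ^ (S.length + (k + 1)) :=
            Finset.sum_le_sum fun J hJ => mul_le_mul_of_nonneg_left (hw a J).2 (hc' J hJ)
        _ = _ := by rw [← Finset.sum_mul, hc1, one_mul]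
    simp only [FR]
    refine ⟨mul_nonneg (inv_nonneg.mpr hS'.le) (Finset.sum_nonneg fun a _ => (hJ a).1), ?_⟩
    rw [inv_mul_le_iff₀ hS']
    calc _ ≤ ∑ _a ∈ range S.length, M ^ (S.length + (k + 1)) :=
          Finset.sum_le_sum fun a _ => (hJ a).2
      _ = _ := by rw [Finset.sum_const, card_range, nsmul_eq_mul]

/-- induction on `n` through `FR` -/
theorem Ecode_bounds {b R : ℕ} (hb : 0 < b) {c Y : ℕ → ℝ} {M : ℝ} (hM : 0 ≤ M)
    (hc : ∀ J, J ≤ R → 0 ≤ c J) (hc1 : ∑ J ∈ range (R + 1), c J = 1)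
    (hY : ∀ p, 0 ≤ Y p) (hY1 : ∀ p, Y p ≤ M) (n : ℕ) :
    0 ≤ Ecode b R c Y n ∧ Ecode b R c Y n ≤ M ^ (n + 1) := by
  have hbp : (0 : ℝ) < ((b ^ (R + 1) : ℕ) : ℝ) := by
    have : 0 < b ^ (R + 1) := by positivity
    exact_mod_cast this
  have e : ∀ w, 0 ≤ FR b R c Y n [(w, 0)] ∧ FR b R c Y n [(w, 0)] ≤ M ^ (n + 1) := by
    intro w
    have := FR_bounds hb hM hc hc1 hY hY1 n [(w, 0)] (by simp)
    simp only [List.length_singleton] at this
    rwa [Nat.add_comm 1 n] at this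
  unfold Ecode
  refine ⟨mul_nonneg (inv_nonneg.mpr hbp.le) (Finset.sum_nonneg fun w _ => (e w).1), ?_⟩
  rw [inv_mul_le_iff₀ hbp]
  calc _ ≤ ∑ _w ∈ range (b ^ (R + 1)), M ^ (n + 1) := Finset.sum_le_sum fun w _ => (e w).2
    _ = _ := by rw [Finset.sum_const, card_range, nsmul_eq_mul]

theorem siteV_bounds {K R : ℕ} {c q : ℕ → ℝ} (h : Adm K R c q) {t : ℝ} (ht : 0 < t) (ht1 : t ≤ 1)
    (k n : ℕ) : 0 ≤ siteV K R c q t k n ∧ siteV K R c q t k n ≤ (1 - t ^ (2 * k)) ^ (n + 1) := by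
  have hM : 0 ≤ 1 - t ^ (2 * k) := by
    have := pow_le_one₀ ht.le ht1 (n := 2 * k)
    linarith
  have hb : 0 < K ^ (2 * k) := pow_pos h.K_pos _
  have e : ∀ s, 0 ≤ Ecode (K ^ (2 * k)) R c (Ysite K R q t k s) n ∧
      Ecode (K ^ (2 * k)) R c (Ysite K R q t k s) n ≤ (1 - t ^ (2 * k)) ^ (n + 1) := fun s =>
    Ecode_bounds hb hM h.c_nonneg h.c_sum (fun p => Ysite_nonneg h ht ht1 k s p)
      (fun p => Ysite_le h ht ht1 k s p) n
  have h8 : (0 : ℝ) < 8 ^ k := by positivity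
  unfold siteV
  refine ⟨mul_nonneg (inv_nonneg.mpr h8.le) (Finset.sum_nonneg fun s _ => (e s).1), ?_⟩
  rw [inv_mul_le_iff₀ h8]
  calc _ ≤ ∑ _s ∈ range (8 ^ k), (1 - t ^ (2 * k)) ^ (n + 1) :=
        Finset.sum_le_sum fun s _ => (e s).2
    _ = _ := by rw [Finset.sum_const, card_range, nsmul_eq_mul]; push_cast; ring

theorem edgeV_bounds {K R : ℕ} {c q : ℕ → ℝ} (h : Adm K R c q) {t : ℝ} (ht : 0 < t) (ht1 : t ≤ 1)
    (n : ℕ) : 0 ≤ edgeV K R c q t n ∧ edgeV K R c q t n ≤ (1 - t ^ 2) ^ (n + 1) := by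
  have hM : 0 ≤ 1 - t ^ 2 := by
    have := pow_le_one₀ ht.le ht1 (n := 2)
    linarith
  have hb : 0 < K ^ 3 := pow_pos h.K_pos _
  have e : ∀ s, 0 ≤ Ecode (K ^ 3) R c (Yedge K R q t s) n ∧
      Ecode (K ^ 3) R c (Yedge K R q t s) n ≤ (1 - t ^ 2) ^ (n + 1) := fun s =>
    Ecode_bounds hb hM h.c_nonneg h.c_sum (fun p => Yedge_nonneg h ht ht1 s p)
      (fun p => Yedge_le h ht ht1 s p) n
  have h8 : (0 : ℝ) < 8 := by norm_num
  unfold edgeV
  refine ⟨mul_nonneg (inv_nonneg.mpr h8.le) (Finset.sum_nonneg fun s _ => (e s).1), ?_⟩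
  rw [inv_mul_le_iff₀ h8]
  calc _ ≤ ∑ _s ∈ range 8, (1 - t ^ 2) ^ (n + 1) :=
        Finset.sum_le_sum fun s _ => (e s).2
    _ = _ := by rw [Finset.sum_const, card_range, nsmul_eq_mul]; push_cast; ring

theorem FR_tendsto {ι : Type*} {l : Filter ι} {b R : ℕ} {c Y : ℕ → ℝ} {cN YN : ι → ℕ → ℝ}
    (hc : ∀ J, J ≤ R → Tendsto (fun i => cN i J) l (𝓝 (c J)))
    (hY : ∀ p, Tendsto (fun i => YN i p) l (𝓝 (Y p))) (k : ℕ) :
    ∀ S : List (ℕ × ℕ),
      Tendsto (fun i => FR b R (cN i) (YN i) k S) l (𝓝 (FR b R c Y k S)) := by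
  induction k with
  | zero =>
    intro S
    simp only [FR]
    induction S with
    | nil => simpa using tendsto_const_nhds
    | cons p S ih =>
      simp only [List.map_cons, List.prod_cons]
      exact (hY _).mul ih
  | succ k ih =>
    intro S
    simp only [FR]
    refine Tendsto.const_mul _ (tendsto_finset_sum _ fun a _ => tendsto_finset_sum _ fun J hJ => ?_)
    exact (hc J (Nat.lt_succ_iff.mp (Finset.mem_range.mp hJ))).mul
      (Tendsto.const_mul _ (tendsto_finset_sum _ fun w _ => ih _))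

theorem Ecode_tendsto {ι : Type*} {l : Filter ι} {b R : ℕ} {c Y : ℕ → ℝ} {cN YN : ι → ℕ → ℝ}
    (hc : ∀ J, J ≤ R → Tendsto (fun i => cN i J) l (𝓝 (c J)))
    (hY : ∀ p, Tendsto (fun i => YN i p) l (𝓝 (Y p))) (n : ℕ) :
    Tendsto (fun i => Ecode b R (cN i) (YN i) n) l (𝓝 (Ecode b R c Y n)) := by
  unfold Ecode
  exact Tendsto.const_mul _ (tendsto_finset_sum _ fun w _ => FR_tendsto hc hY n _)

theorem qb_tendsto {ι : Type*} {l : Filter ι} {K R : ℕ} (hK : 0 < K) {q : ℕ → ℝ}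
    {qN : ι → ℕ → ℝ} (hq : ∀ a, a < K ^ (R + 1) → Tendsto (fun i => qN i a) l (𝓝 (q a)))
    (b ℓ p e : ℕ) :
    Tendsto (fun i => qb (qN i) (cellIdx K R b ℓ p) e) l (𝓝 (qb q (cellIdx K R b ℓ p) e)) := by
  have h := hq _ (cellIdx_lt hK R b ℓ p)
  unfold qb
  by_cases he : e = 1
  · simp only [he, if_true]
    exact h
  · simp only [he, if_false]
    exact h.const_sub 1

/-- continuity (uses `cellIdx_lt`: only the cells `< K^(R+1)` and levels `≤ R` matter) -/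
theorem siteV_tendsto {ι : Type*} {l : Filter ι} {K R : ℕ} (hK : 0 < K) {c q : ℕ → ℝ}
    {cN qN : ι → ℕ → ℝ} (hc : ∀ J, J ≤ R → Tendsto (fun i => cN i J) l (𝓝 (c J)))
    (hq : ∀ a, a < K ^ (R + 1) → Tendsto (fun i => qN i a) l (𝓝 (q a))) (t : ℝ) (k n : ℕ) :
    Tendsto (fun i => siteV K R (cN i) (qN i) t k n) l (𝓝 (siteV K R c q t k n)) := by
  unfold siteV
  refine Tendsto.const_mul _ (tendsto_finset_sum _ fun s _ => Ecode_tendsto hc (fun p => ?_) n)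
  unfold Ysite
  refine Tendsto.const_sub _ (Tendsto.const_mul _ (tendsto_finset_sum _ fun e _ =>
    tendsto_finset_prod _ fun j _ => ?_))
  unfold fac
  exact Tendsto.const_sub _ ((Tendsto.const_mul _ (qb_tendsto hK hq _ _ _ _)).mul
    (qb_tendsto hK hq _ _ _ _))

theorem edgeV_tendsto {ι : Type*} {l : Filter ι} {K R : ℕ} (hK : 0 < K) {c q : ℕ → ℝ}
    {cN qN : ι → ℕ → ℝ} (hc : ∀ J, J ≤ R → Tendsto (fun i => cN i J) l (𝓝 (c J)))
    (hq : ∀ a, a < K ^ (R + 1) → Tendsto (fun i => qN i a) l (𝓝 (q a))) (t : ℝ) (n : ℕ) :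
    Tendsto (fun i => edgeV K R (cN i) (qN i) t n) l (𝓝 (edgeV K R c q t n)) := by
  unfold edgeV
  refine Tendsto.const_mul _ (tendsto_finset_sum _ fun s _ => Ecode_tendsto hc (fun p => ?_) n)
  unfold Yedge
  refine Tendsto.const_sub _ (Tendsto.const_mul _ (Tendsto.const_sub _ (Tendsto.const_mul _
    (tendsto_finset_prod _ fun j _ => ?_))))
  exact qb_tendsto hK hq _ _ _ _

/-- dependence only on the relevant entries (special case of the continuity along a constant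
sequence in a Hausdorff space, `l = ⊤` on `Unit`, or directly) -/
theorem siteV_congr {K R : ℕ} (hK : 0 < K) {c q c' q' : ℕ → ℝ} (hc : ∀ J, J ≤ R → c' J = c J)
    (hq : ∀ a, a < K ^ (R + 1) → q' a = q a) (t : ℝ) (k n : ℕ) :
    siteV K R c' q' t k n = siteV K R c q t k n := by
  have h := siteV_tendsto (ι := ℕ) (l := atTop) hK (c := c) (q := q) (cN := fun _ => c')
    (qN := fun _ => q') (fun J hJ => by rw [hc J hJ]; exact tendsto_const_nhds)
    (fun a ha => by rw [hq a ha]; exact tendsto_const_nhds) t k n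
  exact tendsto_nhds_unique tendsto_const_nhds h

theorem edgeV_congr {K R : ℕ} (hK : 0 < K) {c q c' q' : ℕ → ℝ} (hc : ∀ J, J ≤ R → c' J = c J)
    (hq : ∀ a, a < K ^ (R + 1) → q' a = q a) (t : ℝ) (n : ℕ) :
    edgeV K R c' q' t n = edgeV K R c q t n := by
  have h := edgeV_tendsto (ι := ℕ) (l := atTop) hK (c := c) (q := q) (cN := fun _ => c')
    (qN := fun _ => q') (fun J hJ => by rw [hc J hJ]; exact tendsto_const_nhds)
    (fun a ha => by rw [hq a ha]; exact tendsto_const_nhds) t n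
  exact tendsto_nhds_unique tendsto_const_nhds h

end Crest.Agent.RC
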