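import Crest.Agent.RC.Prim

/-!
# Row 153 (S0218), computability part: replica averages on codes

Paths of a trial are natural numbers `< b^(R+1)` (digit number `j` in base `b` = value of level
`j`).  A state is the list of `(path, level of attachment)` of the replicas present so far.
-/

set_option autoImplicit false

namespace Crest.Agent.RC

open Finset

/-- Digit number `i` of `x` in base `b`. -/
def dig (b i x : ℕ) : ℕ := x / b ^ i % b

/-- Keep the digits `≤ J` of `p`, take the digits `> J` of `w`. -/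
def comb (b J p w : ℕ) : ℕ := p % b ^ (J + 1) + w / b ^ (J + 1) * b ^ (J + 1)

/-- Attach a new replica at replica `a`, level `max J (level of a)`, with fresh path `w`. -/
def nxt (b : ℕ) (S : List (ℕ × ℕ)) (a J w : ℕ) : ℕ × ℕ :=
  (comb b (max J (S.getD a (0, 0)).2) (S.getD a (0, 0)).1 w, max J (S.getD a (0, 0)).2)

/-- Expectation of `∏ Y(path)` after `k` more replicas. -/
noncomputable def FR (b R : ℕ) (c Y : ℕ → ℝ) : ℕ → List (ℕ × ℕ) → ℝ
  | 0, S => (S.map fun p => Y p.1).prod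
  | k + 1, S => (S.length : ℝ)⁻¹ * ∑ a ∈ range S.length, ∑ J ∈ range (R + 1), c J *
      (((b ^ (R + 1) : ℕ) : ℝ)⁻¹ * ∑ w ∈ range (b ^ (R + 1)), FR b R c Y k (S ++ [nxt b S a J w]))

/-- `E[∏_{l ≤ n} Y(path_l)]` for `n + 1` replicas. -/
noncomputable def Ecode (b R : ℕ) (c Y : ℕ → ℝ) (n : ℕ) : ℝ :=
  ((b ^ (R + 1) : ℕ) : ℝ)⁻¹ * ∑ w ∈ range (b ^ (R + 1)), FR b R c Y n [(w, 0)]

/-- The same with natural weights and no normalisation. -/
def FN (b R : ℕ) (g y : ℕ → ℕ) : ℕ → List (ℕ × ℕ) → ℕ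
  | 0, S => (S.map fun p => y p.1).prod
  | k + 1, S => ∑ a ∈ range S.length, ∑ J ∈ range (R + 1), g J *
      ∑ w ∈ range (b ^ (R + 1)), FN b R g y k (S ++ [nxt b S a J w])

/-- Unnormalised `E[∏_{l ≤ n} y(path_l)]`. -/
def EN (b R : ℕ) (g y : ℕ → ℕ) (n : ℕ) : ℕ := ∑ w ∈ range (b ^ (R + 1)), FN b R g y n [(w, 0)]

theorem FR_eq_FN (b R : ℕ) (hb : 0 < b) (g y : ℕ → ℕ) (G d : ℕ) (hG : 0 < G) (hd : 0 < d)
    (k : ℕ) : ∀ S : List (ℕ × ℕ), 0 < S.length →
    FR b R (fun J => (g J : ℝ) / G) (fun p => (y p : ℝ) / d) k S =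
      (FN b R g y k S : ℝ) /
        (((S.length.ascFactorial k) * G ^ k * (b ^ (R + 1)) ^ k * d ^ (S.length + k) : ℕ) : ℝ) := by
  have hGR : (G : ℝ) ≠ 0 := by exact_mod_cast hG.ne'
  have hdR : (d : ℝ) ≠ 0 := by exact_mod_cast hd.ne'
  have hbR : (b : ℝ) ≠ 0 := by exact_mod_cast hb.ne'
  induction k with
  | zero =>
    intro S _
    have h : ∀ S : List (ℕ × ℕ), (S.map fun p => (y p.1 : ℝ) / d).prod =
        ((S.map fun p => y p.1).prod : ℝ) / (d : ℝ) ^ S.length := by
      intro S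
      induction S with
      | nil => simp
      | cons p S ih =>
        simp only [List.map_cons, List.prod_cons, ih, List.length_cons, pow_succ]
        push_cast
        field_simp
    simp only [FR, FN, h S]
    simp
  | succ k ih =>
    intro S hS
    have hS' : (S.length : ℝ) ≠ 0 := by exact_mod_cast hS.ne'
    have hlen : ∀ a J w, (S ++ [nxt b S a J w]).length = S.length + 1 := by intros; simp
    simp only [FR, FN]
    have h1 : ∀ a J w, FR b R (fun J => (g J : ℝ) / G) (fun p => (y p : ℝ) / d) k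
        (S ++ [nxt b S a J w]) = (FN b R g y k (S ++ [nxt b S a J w]) : ℝ) *
        ((((S.length + 1).ascFactorial k) * G ^ k * (b ^ (R + 1)) ^ k *
          d ^ (S.length + 1 + k) : ℕ) : ℝ)⁻¹ := by
      intro a J w
      rw [ih _ (by rw [hlen]; omega), hlen, div_eq_mul_inv]
    simp only [h1]
    have hpos : (0 : ℝ) < ((((S.length + 1).ascFactorial k) * G ^ k * (b ^ (R + 1)) ^ k *
          d ^ (S.length + 1 + k) : ℕ) : ℝ) := by
      have : 0 < (S.length + 1).ascFactorial k := Nat.ascFactorial_pos _ _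
      positivity
    set X : ℝ := ((((S.length + 1).ascFactorial k) * G ^ k * (b ^ (R + 1)) ^ k *
          d ^ (S.length + 1 + k) : ℕ) : ℝ) with hX
    have hden : (((S.length.ascFactorial (k + 1)) * G ^ (k + 1) * (b ^ (R + 1)) ^ (k + 1) *
        d ^ (S.length + (k + 1)) : ℕ) : ℝ) = S.length * G * (b ^ (R + 1) : ℕ) * X := by
      rw [hX]
      have e1 : S.length.ascFactorial (k + 1) = S.length * (S.length + 1).ascFactorial k := by
        rw [Nat.ascFactorial_succ, ← Nat.succ_ascFactorial]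
      have e2 : S.length + (k + 1) = S.length + 1 + k := by omega
      rw [e1, e2, pow_succ, pow_succ (b ^ (R + 1))]
      push_cast
      ring
    rw [hden]
    push_cast
    simp only [← Finset.sum_mul, div_mul_eq_mul_div, mul_div_assoc]
    have hX0 : X ≠ 0 := hpos.ne'
    have hbR' : ((b : ℝ) ^ (R + 1)) ≠ 0 := pow_ne_zero _ hbR
    have h2 : ∀ a J, (g J : ℝ) * (((b : ℝ) ^ (R + 1))⁻¹ *
        ((∑ w ∈ range (b ^ (R + 1)), (FN b R g y k (S ++ [nxt b S a J w]) : ℝ)) * (X⁻¹ / G))) =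
        ((g J : ℝ) * ∑ w ∈ range (b ^ (R + 1)), (FN b R g y k (S ++ [nxt b S a J w]) : ℝ)) *
          (((b : ℝ) ^ (R + 1))⁻¹ * X⁻¹ * (G : ℝ)⁻¹) := by
      intro a J
      rw [div_eq_mul_inv]
      ring
    simp only [h2]
    simp only [← Finset.sum_mul]
    simp only [div_eq_mul_inv, mul_inv]
    ring

theorem Ecode_eq_EN (b R : ℕ) (hb : 0 < b) (g y : ℕ → ℕ) (G d : ℕ) (hG : 0 < G) (hd : 0 < d)
    (n : ℕ) :
    Ecode b R (fun J => (g J : ℝ) / G) (fun p => (y p : ℝ) / d) n =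
      (EN b R g y n : ℝ) /
        ((n.factorial * G ^ n * (b ^ (R + 1)) ^ (n + 1) * d ^ (n + 1) : ℕ) : ℝ) := by
  unfold Ecode EN
  have hbR : (b : ℝ) ≠ 0 := by exact_mod_cast hb.ne'
  have h1 : ∀ w, FR b R (fun J => (g J : ℝ) / G) (fun p => (y p : ℝ) / d) n [(w, 0)] =
      (FN b R g y n [(w, 0)] : ℝ) *
        ((n.factorial * G ^ n * (b ^ (R + 1)) ^ n * d ^ (n + 1) : ℕ) : ℝ)⁻¹ := by
    intro w
    rw [FR_eq_FN b R hb g y G d hG hd n _ (by simp), div_eq_mul_inv]
    simp only [List.length_singleton, Nat.one_ascFactorial]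
    congr 4
    ring
  simp only [h1]
  rw [← Finset.sum_mul, pow_succ (b ^ (R + 1))]
  push_cast
  have hbR' : ((b : ℝ) ^ (R + 1)) ≠ 0 := pow_ne_zero _ hbR
  rw [div_eq_mul_inv]
  simp only [mul_inv]
  ring

section prim
variable {α : Type*} [Primcodable α]

theorem primrec_dig {b i x : α → ℕ} (hb : Primrec b) (hi : Primrec i) (hx : Primrec x) :
    Primrec fun a => dig (b a) (i a) (x a) := by
  unfold dig
  prim

theorem primrec_comb {b J p w : α → ℕ} (hb : Primrec b) (hJ : Primrec J) (hp : Primrec p)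
    (hw : Primrec w) : Primrec fun a => comb (b a) (J a) (p a) (w a) := by
  unfold comb
  prim

theorem primrec_nxt {b : α → ℕ} {S : α → List (ℕ × ℕ)} {t J w : α → ℕ} (hb : Primrec b)
    (hS : Primrec S) (ht : Primrec t) (hJ : Primrec J) (hw : Primrec w) :
    Primrec fun a => nxt (b a) (S a) (t a) (J a) (w a) := by
  unfold nxt
  have h1 : Primrec fun a => max (J a) ((S a).getD (t a) (0, 0)).2 := by prim
  have h2 : Primrec fun a => ((S a).getD (t a) (0, 0)).1 := by prim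
  exact P.pair (primrec_comb hb h1 h2 hw) h1

/-- Successors of a weighted state. -/
def nextN (b R : ℕ) (g : ℕ → ℕ) (s : ℕ × List (ℕ × ℕ)) : List (ℕ × List (ℕ × ℕ)) :=
  (List.range s.2.length).flatMap fun a => (List.range (R + 1)).flatMap fun J =>
    (List.range (b ^ (R + 1))).map fun w => (s.1 * g J, s.2 ++ [nxt b s.2 a J w])

theorem treeSum_nextN (b R : ℕ) (g y : ℕ → ℕ) (k : ℕ) : ∀ (m : ℕ) (S : List (ℕ × ℕ)),
    treeSum (nextN b R g) (fun s => s.1 * (s.2.map fun p => y p.1).prod) k (m, S) =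
      m * FN b R g y k S := by
  induction k with
  | zero => intro m S; rfl
  | succ k ih =>
    intro m S
    have hr : ∀ (N : ℕ) (f : ℕ → ℕ), ((List.range N).map f).sum = ∑ i ∈ range N, f i := by
      intro N f
      rfl
    simp only [treeSum, nextN, List.map_flatMap, List.map_map, FN]
    simp only [List.flatMap, List.sum_flatten, List.map_map, Function.comp_def, ih, hr]
    simp only [Finset.mul_sum]
    refine sum_congr rfl fun a _ => sum_congr rfl fun J _ => sum_congr rfl fun w _ => ?_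
    ring

theorem primrec_nextN {b R : α → ℕ} {g : α → ℕ → ℕ} (hb : Primrec b) (hR : Primrec R)
    (hg : Primrec fun x : α × ℕ => g x.1 x.2) :
    Primrec fun x : α × (ℕ × List (ℕ × ℕ)) => nextN (b x.1) (R x.1) (g x.1) x.2 := by
  unfold nextN
  refine P.flatMap' ?_ (P.flatMap' ?_ (P.map' ?_ ?_))
  · prim
  · have p : Primrec fun x : (α × ℕ × List (ℕ × ℕ)) × ℕ => x.1.1 := by prim
    have h1 := hR.comp p
    prim
  · have p : Primrec fun x : ((α × ℕ × List (ℕ × ℕ)) × ℕ) × ℕ => x.1.1.1 := by prim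
    have h1 := hR.comp p
    have h2 := hb.comp p
    prim
  · have p : Primrec fun x : (((α × ℕ × List (ℕ × ℕ)) × ℕ) × ℕ) × ℕ => x.1.1.1.1 := by prim
    have q1 : Primrec fun x : (((α × ℕ × List (ℕ × ℕ)) × ℕ) × ℕ) × ℕ => x.1.1.1.2.2 := by prim
    have q2 : Primrec fun x : (((α × ℕ × List (ℕ × ℕ)) × ℕ) × ℕ) × ℕ => x.1.1.2 := by prim
    have q3 : Primrec fun x : (((α × ℕ × List (ℕ × ℕ)) × ℕ) × ℕ) × ℕ => x.1.2 := by prim
    have q4 : Primrec fun x : (((α × ℕ × List (ℕ × ℕ)) × ℕ) × ℕ) × ℕ => x.2 := by prim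
    have q5 : Primrec fun x : (((α × ℕ × List (ℕ × ℕ)) × ℕ) × ℕ) × ℕ => x.1.1.1.2.1 := by prim
    have h1 := hb.comp p
    have h2 := P.app2 hg p q3
    have h3 := primrec_nxt h1 q1 q2 q3 q4
    exact P.pair (P.mul q5 h2) (P.append q1 (P.cons h3 (Primrec.const [])))

theorem primrec_FN {b R : α → ℕ} {g y : α → ℕ → ℕ} (hb : Primrec b) (hR : Primrec R)
    (hg : Primrec fun x : α × ℕ => g x.1 x.2) (hy : Primrec fun x : α × ℕ => y x.1 x.2)
    {k : α → ℕ} {S : α → List (ℕ × ℕ)} (hk : Primrec k) (hS : Primrec S) :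
    Primrec fun a => FN (b a) (R a) (g a) (y a) (k a) (S a) := by
  have h : Primrec fun a => treeSum (nextN (b a) (R a) (g a))
      (fun s : ℕ × List (ℕ × ℕ) => s.1 * (s.2.map fun p => y a p.1).prod) (k a)
      ((1, S a) : ℕ × List (ℕ × ℕ)) := by
    refine primrec_treeSum (next := fun a => nextN (b a) (R a) (g a))
      (leaf := fun a s => s.1 * (s.2.map fun p => y a p.1).prod)
      (primrec_nextN hb hR hg) ?_ hk (P.pair (Primrec.const 1) hS)
    have h1 : Primrec fun x : (α × ℕ × List (ℕ × ℕ)) × (ℕ × ℕ) => y x.1.1 x.2.1 :=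
      P.app2 hy (by prim) (by prim)
    exact P.mul (by prim) (P.listProd (P.map' (by prim) h1))
  refine h.of_eq fun a => ?_
  rw [treeSum_nextN, one_mul]

theorem primrec_EN {b R : α → ℕ} {g y : α → ℕ → ℕ} (hb : Primrec b) (hR : Primrec R)
    (hg : Primrec fun x : α × ℕ => g x.1 x.2) (hy : Primrec fun x : α × ℕ => y x.1 x.2)
    {n : α → ℕ} (hn : Primrec n) :
    Primrec fun a => EN (b a) (R a) (g a) (y a) (n a) := by
  unfold EN
  refine P.sum (by prim) ?_
  have h1 : Primrec fun x : α × ℕ => b x.1 := hb.comp (by prim)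
  have h2 : Primrec fun x : α × ℕ => R x.1 := hR.comp (by prim)
  have h3 : Primrec fun x : α × ℕ => n x.1 := hn.comp (by prim)
  have h4 : Primrec fun x : (α × ℕ) × ℕ => g x.1.1 x.2 := P.app2 hg (by prim) (by prim)
  have h5 : Primrec fun x : (α × ℕ) × ℕ => y x.1.1 x.2 := P.app2 hy (by prim) (by prim)
  exact primrec_FN (b := fun x : α × ℕ => b x.1) (R := fun x => R x.1)
    (g := fun x => g x.1) (y := fun x => y x.1) (k := fun x => n x.1) (S := fun x => [(x.2, 0)])
    h1 h2 h4 h5 h3 (by prim)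

end prim

end Crest.Agent.RC
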