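import Crest.Agent.RC.Digits
import Crest.Agent.MP.UFresh

/-!
# Row 153 (S0218), computability part: replica expectations with `Z = 1` on codes
-/

set_option autoImplicit false
set_option linter.unusedSectionVars false

namespace Crest.Agent.RC

open Finset Crest.Agent.MP

/-- code of the levels `0..R` of a path, `e : V ≃ Fin b` -/
def pcode {V : Type*} {b : ℕ} (e : V ≃ Fin b) (R : ℕ) (u : ℕ → V) : ℕ :=
  ofD (k := R + 1) (fun j => e (u j))

section digits

theorem comb_mod {b : ℕ} (J p w : ℕ) :
    comb b J p w % b ^ (J + 1) = p % b ^ (J + 1) := by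
  unfold comb
  rw [Nat.add_mul_mod_self_right, Nat.mod_mod]

theorem comb_div {b : ℕ} (hb : 0 < b) (J p w : ℕ) :
    comb b J p w / b ^ (J + 1) = w / b ^ (J + 1) := by
  unfold comb
  have h : 0 < b ^ (J + 1) := Nat.pow_pos hb
  rw [Nat.add_mul_div_right _ _ h, Nat.div_eq_of_lt (Nat.mod_lt _ h), zero_add]

theorem dig_mod {b : ℕ} (i J x : ℕ) (h : i ≤ J) : dig b i (x % b ^ (J + 1)) = dig b i x := by
  unfold dig
  have e : b ^ (J + 1) = b ^ i * (b * b ^ (J - i)) := by
    rw [← pow_succ', ← pow_add]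
    congr 1
    omega
  rw [e, Nat.mod_mul_right_div_self, Nat.mod_mul_right_mod]

theorem dig_div {b : ℕ} (i J x : ℕ) (h : J < i) :
    dig b i x = dig b (i - (J + 1)) (x / b ^ (J + 1)) := by
  unfold dig
  rw [Nat.div_div_eq_div_mul, ← pow_add]
  congr 3
  omega

theorem dig_comb {b : ℕ} (hb : 0 < b) (J p w i : ℕ) :
    dig b i (comb b J p w) = if i ≤ J then dig b i p else dig b i w := by
  split_ifs with h
  · rw [← dig_mod i J _ h, comb_mod, dig_mod i J _ h]
  · rw [dig_div i J _ (by omega), comb_div hb, ← dig_div i J _ (by omega)]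

theorem comb_lt {b k : ℕ} (hb : 0 < b) (J p w : ℕ) (hJ : J < k) (hw : w < b ^ k) :
    comb b J p w < b ^ k := by
  unfold comb
  have h : 0 < b ^ (J + 1) := Nat.pow_pos hb
  have e : b ^ k = b ^ (k - (J + 1)) * b ^ (J + 1) := by
    rw [← pow_add]
    congr 1
    omega
  have h1 : w / b ^ (J + 1) < b ^ (k - (J + 1)) := by
    rw [Nat.div_lt_iff_lt_mul h, ← e]
    exact hw
  have h2 : p % b ^ (J + 1) < b ^ (J + 1) := Nat.mod_lt _ h
  calc p % b ^ (J + 1) + w / b ^ (J + 1) * b ^ (J + 1)
      < b ^ (J + 1) + w / b ^ (J + 1) * b ^ (J + 1) := by omega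
    _ = (w / b ^ (J + 1) + 1) * b ^ (J + 1) := by ring
    _ ≤ b ^ (k - (J + 1)) * b ^ (J + 1) := Nat.mul_le_mul_right _ h1
    _ = b ^ k := e.symm

end digits

section
variable {V : Type*} [Fintype V] [Nonempty V]

/-- the levels `≤ j` of `u`, the levels `j+1..R` of `g` -/
def merge {R : ℕ} (j : ℕ) (u : ℕ → V) (g : Fin (R + 1) → V) (i : ℕ) : V :=
  if i ≤ j then u i else if h : i < R + 1 then g ⟨i, h⟩ else u i

/-- resampling one coordinate of a uniform vector -/
theorem unif_update {ι : Type*} [Fintype ι] [DecidableEq ι] (i : ι) :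
    Unif (fun p : (ι → V) × V => Function.update p.1 i p.2) := by
  have hb : Function.Bijective
      (fun p : (ι → V) × V => ((Function.update p.1 i p.2, p.1 i) : (ι → V) × V)) := by
    have hinv : Function.Involutive
        (fun p : (ι → V) × V => ((Function.update p.1 i p.2, p.1 i) : (ι → V) × V)) := by
      rintro ⟨g, v⟩
      simp
    exact hinv.bijective
  intro f
  have h1 := Unif.of_bijective hb (fun p => f p.1)
  have h2 := (Unif.fst (V := ι → V) (W := V)) f
  simp only at h1
  rw [h1, h2]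

theorem avg_update {ι : Type*} [Fintype ι] [DecidableEq ι] (i : ι) (Ψ : (ι → V) → ℝ) :
    avg (fun v : V => avg (fun g : ι → V => Ψ (Function.update g i v))) = avg Ψ := by
  have h1 := unif_update (V := V) i Ψ
  rw [← h1, MP.avg_prod]
  exact MP.avg_comm _

theorem K_one_eq (x : ℕ → ℝ) (R : ℕ) (Φ : (ℕ → V) → ℝ) (k : ℕ) : ∀ (j : ℕ) (u : ℕ → V),
    j + k = R → K x k j (fun _ => 1) Φ u =
      avg (fun g : Fin (R + 1) → V => Φ (merge j u g)) := by
  induction k with
  | zero =>
    intro j u hj
    have h : ∀ g : Fin (R + 1) → V, merge j u g = u := by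
      intro g
      funext i
      unfold merge
      split_ifs with h1 h2
      · rfl
      · omega
      · rfl
    simp only [h, MP.avg_const]
    rfl
  | succ k ih =>
    intro j u hj
    simp only [K, w_one, one_mul]
    have hj' : j + 1 < R + 1 := by omega
    have h : ∀ (v : V) (g : Fin (R + 1) → V),
        merge (j + 1) (Function.update u (j + 1) v) g =
          merge j u (Function.update g ⟨j + 1, hj'⟩ v) := by
      intro v g
      funext i
      unfold merge
      by_cases h1 : i ≤ j
      · rw [if_pos (by omega), if_pos h1, Function.update_of_ne (by omega)]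
      · rw [if_neg h1]
        by_cases h2 : i = j + 1
        · subst h2
          rw [if_pos le_rfl, dif_pos hj', Function.update_self, Function.update_self]
        · rw [if_neg (by omega)]
          by_cases h3 : i < R + 1
          · rw [dif_pos h3, dif_pos h3, Function.update_of_ne (by
              intro h4
              exact h2 (by simpa using congrArg Fin.val h4))]
          · rw [dif_neg h3, dif_neg h3, Function.update_of_ne h2]
    have h2 : ∀ v, K x k (j + 1) (fun _ => 1) Φ (Function.update u (j + 1) v) =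
        avg (fun g : Fin (R + 1) → V => Φ (merge j u (Function.update g ⟨j + 1, hj'⟩ v))) := by
      intro v
      rw [ih (j + 1) _ (by omega)]
      simp only [h]
    simp only [h2]
    have h5 := avg_update (ι := Fin (R + 1)) (V := V) ⟨j + 1, hj'⟩ (fun g => Φ (merge j u g))
    rw [← h5]

variable {b : ℕ}

theorem pos_of_equiv (e : V ≃ Fin b) : 0 < b := by
  have h : Fintype.card V = b := by rw [Fintype.card_congr e, Fintype.card_fin]
  have := Fintype.card_pos (α := V)
  omega

/-- uniform average over codes -/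
theorem avg_code (e : V ≃ Fin b) (R : ℕ) (F : ℕ → ℝ) :
    avg (fun g : Fin (R + 1) → V => F (ofD (fun i => e (g i)))) =
      ((b ^ (R + 1) : ℕ) : ℝ)⁻¹ * ∑ w ∈ range (b ^ (R + 1)), F w := by
  rw [sum_range_ofD]
  unfold avg
  have h1 : Fintype.card (Fin (R + 1) → V) = b ^ (R + 1) := by
    rw [Fintype.card_fun, Fintype.card_fin, Fintype.card_congr e, Fintype.card_fin]
  rw [h1]
  congr 1
  exact Equiv.sum_comp (Equiv.piCongrRight (fun _ : Fin (R + 1) => e))
    (fun f : Fin (R + 1) → Fin b => F (ofD f))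

theorem pcode_merge (e : V ≃ Fin b) (R j : ℕ) (hj : j ≤ R) (u : ℕ → V) (g : Fin (R + 1) → V) :
    pcode e R (merge j u g) = comb b j (pcode e R u) (ofD (fun i => e (g i))) := by
  have hb := pos_of_equiv e
  refine ext_dig (k := R + 1) (ofD_lt _) (comb_lt hb _ _ _ (by omega) (ofD_lt _)) ?_
  intro i hi
  rw [dig_comb hb]
  have h1 : dig b i (pcode e R (merge j u g)) = (e (merge j u g i) : ℕ) :=
    dig_ofD (k := R + 1) (fun j' => e (merge j u g j')) ⟨i, hi⟩
  have h2 : dig b i (pcode e R u) = (e (u i) : ℕ) :=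
    dig_ofD (k := R + 1) (fun j' => e (u j')) ⟨i, hi⟩
  have h3 : dig b i (ofD (fun i => e (g i))) = (e (g ⟨i, hi⟩) : ℕ) :=
    dig_ofD (k := R + 1) (fun j' => e (g j')) ⟨i, hi⟩
  rw [h1, h2, h3]
  unfold merge
  split_ifs <;> rfl

/-- the resampling kernel with `Z = 1` on codes -/
theorem K_code (e : V ≃ Fin b) (x : ℕ → ℝ) (R J : ℕ) (hJ : J ≤ R) (G : ℕ → ℝ) (u : ℕ → V) :
    K x (R - J) J (fun _ => 1) (fun u => G (pcode e R u)) u =
      ((b ^ (R + 1) : ℕ) : ℝ)⁻¹ * ∑ w ∈ range (b ^ (R + 1)), G (comb b J (pcode e R u) w) := by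
  rw [K_one_eq x R _ (R - J) J u (by omega)]
  simp only [pcode_merge e R J hJ]
  exact avg_code e R (fun w => G (comb b J (pcode e R u) w))

/-- the state of the replicas `0..n` -/
def state (e : V ≃ Fin b) (R n : ℕ) (h : ℕ → ℕ × ℕ) (s : ℕ → ℕ → V) : List (ℕ × ℕ) :=
  (List.range (n + 1)).map (fun a => (pcode e R (s a), (h a).2))

theorem state_length (e : V ≃ Fin b) (R n : ℕ) (h : ℕ → ℕ × ℕ) (s : ℕ → ℕ → V) :
    (state e R n h s).length = n + 1 := by
  unfold state
  simp

theorem state_getD (e : V ≃ Fin b) (R n : ℕ) (h : ℕ → ℕ × ℕ) (s : ℕ → ℕ → V) (a : ℕ)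
    (ha : a < n + 1) : (state e R n h s).getD a (0, 0) = (pcode e R (s a), (h a).2) := by
  unfold state
  rw [List.getD_eq_getElem _ _ (by simpa using ha)]
  simp

theorem state_succ (e : V ≃ Fin b) (R n : ℕ) (h : ℕ → ℕ × ℕ) (s : ℕ → ℕ → V) (p : ℕ × ℕ)
    (u : ℕ → V) :
    state e R (n + 1) (Function.update h (n + 1) p) (Function.update s (n + 1) u) =
      state e R n h s ++ [(pcode e R u, p.2)] := by
  unfold state
  rw [List.range_succ (n := n + 1), List.map_append]
  congr 1
  · refine List.map_congr_left fun a ha => ?_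
    have ha' : a < n + 1 := List.mem_range.1 ha
    rw [Function.update_of_ne (by omega), Function.update_of_ne (by omega)]
  · simp

/-- one step of the forward recursion -/
theorem PE_succ_eq (x : ℕ → ℝ) (R n : ℕ) (Ψ : (ℕ → ℕ × ℕ) → (ℕ → ℕ → V) → ℝ) (b0 : ℕ → V) :
    PE x R (n + 1) (fun h => Eh x R (fun _ => 1) (n + 1) h (Ψ h) b0) =
      PE x R n (fun h => Eh x R (fun _ => 1) n h (fun s =>
        ((n : ℝ) + 1)⁻¹ * ∑ a ∈ range (n + 1), ∑ J ∈ range (R + 1), c x J *
          K x (R - max J (h a).2) (max J (h a).2) (fun _ => 1)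
            (fun u => Ψ (Function.update h (n + 1) (a, max J (h a).2))
              (Function.update s (n + 1) u)) (s a)) b0) := by
  simp only [PE]
  congr 1
  funext h
  rw [Eh_const_mul, Eh_sum]
  congr 1
  refine sum_congr rfl fun a ha => ?_
  rw [Eh_sum]
  refine sum_congr rfl fun J hJ => ?_
  rw [Eh_const_mul]
  congr 1
  simp only [Eh, Function.update_self]
  exact Eh_congr_h x R _ n b0 _ _ h (fun l hl => by rw [Function.update_of_ne (by omega)])

theorem fwd (e : V ≃ Fin b) (R : ℕ) (x : ℕ → ℝ) (Y : ℕ → ℝ) (b0 : ℕ → V) (k : ℕ) : ∀ n : ℕ,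
    PE x R (n + k) (fun h => Eh x R (fun _ => 1) (n + k) h
      (fun s => ∏ a ∈ range (n + k + 1), Y (pcode e R (s a))) b0) =
    PE x R n (fun h => Eh x R (fun _ => 1) n h
      (fun s => FR b R (fun J => x (J + 1) - x J) Y k (state e R n h s)) b0) := by
  induction k with
  | zero =>
    intro n
    have h : ∀ (h : ℕ → ℕ × ℕ) (s : ℕ → ℕ → V),
        FR b R (fun J => x (J + 1) - x J) Y 0 (state e R n h s) =
          ∏ a ∈ range (n + 1), Y (pcode e R (s a)) := by
      intro h s
      simp only [FR]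
      unfold state
      rw [List.map_map]
      rfl
    simp only [h, Nat.add_zero]
  | succ k ih =>
    intro n
    have h1 : n + (k + 1) = (n + 1) + k := by omega
    rw [h1, ih (n + 1), PE_succ_eq x R n
      (fun h s => FR b R (fun J => x (J + 1) - x J) Y k (state e R (n + 1) h s)) b0]
    refine PE_congr x R n _ _ fun h hv => ?_
    congr 1
    funext s
    simp only [FR, state_length]
    push_cast
    congr 1
    refine sum_congr rfl fun a ha => sum_congr rfl fun J hJ => ?_
    have ha' := mem_range.1 ha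
    have hJ' := mem_range.1 hJ
    have hle : max J (h a).2 ≤ R := max_le (by omega) (hv.le (l := a) (by omega))
    simp only [state_succ, nxt, state_getD e R n h s a ha']
    rw [K_code e x R (max J (h a).2) hle (fun p => FR b R (fun J => x (J + 1) - x J) Y k
      (state e R n h s ++ [(p, max J (h a).2)])) (s a)]
    push_cast
    rfl

end

/-- The replica expectation (`Z = 1`, level weights `c J = x (J+1) - x J`) of `∏ Y(code path)` averaged
over the level `0` is `Ecode`.
Proof: forward recursion.  For a functional `Ψ h s` put `Ê n Ψ = PE n (h ↦ Eh n h (Ψ h))`; then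
`Ê (n+1) Ψ = Ê n (step Ψ)`, `step Ψ h s = (n+1)⁻¹ Σ_{a ≤ n} Σ_J c J K_{>J'} (u ↦ Ψ (update h) (update s (n+1) u)) (s a)`,
`J' = max J (h a).2`; `K` with `Z = 1` is the average over the fresh coordinates `> J'`, i.e. over
`w < b^(R+1)` with the new path code `comb b J' (code (s a)) w`. -/
theorem E_eq_Ecode {V : Type*} [Fintype V] [Nonempty V] {b : ℕ} (e : V ≃ Fin b) (R : ℕ)
    (x : ℕ → ℝ) (Y : ℕ → ℝ) (n : ℕ) :
    avg (fun v0 : V => E x R (fun _ => 1) n
      (fun s => ∏ a ∈ range (n + 1), Y (pcode e R (s a))) (fun _ => v0)) =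
    Ecode b R (fun J => x (J + 1) - x J) Y n := by
  have h1 : ∀ v0 : V, E x R (fun _ => 1) n
      (fun s => ∏ a ∈ range (n + 1), Y (pcode e R (s a))) (fun _ => v0) =
      avg (fun g : Fin (R + 1) → V => FR b R (fun J => x (J + 1) - x J) Y n
        [(pcode e R (merge 0 (fun _ => v0) g), 0)]) := by
    intro v0
    have h2 := fwd e R x Y (fun _ => v0) n 0
    rw [Nat.zero_add] at h2
    unfold E
    rw [h2]
    simp only [PE, Eh]
    rw [K_one_eq x R _ R 0 _ (by omega)]
    congr 1
  simp only [h1]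
  have h3 : ∀ (v0 : V) (g : Fin (R + 1) → V), pcode e R (merge 0 (fun _ => v0) g) =
      ofD (fun i => e (Function.update g 0 v0 i)) := by
    intro v0 g
    unfold pcode
    congr 1
    funext i
    congr 1
    unfold merge
    by_cases hi : i = 0
    · subst hi
      simp
    · rw [Function.update_of_ne hi, if_neg (by
        intro h4
        exact hi (Fin.ext (by simpa using h4))), dif_pos i.2]
  simp only [h3]
  rw [avg_update (0 : Fin (R + 1)) (fun g : Fin (R + 1) → V =>
    FR b R (fun J => x (J + 1) - x J) Y n [(ofD (fun i => e (g i)), 0)])]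
  exact avg_code e R (fun w => FR b R (fun J => x (J + 1) - x J) Y n [(w, 0)])

end Crest.Agent.RC
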