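import Crest.Agent.RC.SatCount

/-!
# Row 153 (S0218), computability part: the lower stage predicate
-/

set_option autoImplicit false

namespace Crest.Agent.RC

open Finset Crest.ProbabilityR.RandomSAT

/-- `(Σ_{m<M} satProb 3 n m) - (a/2^r) n`, `n = s.1 + 3`, `M = s.2`. -/
def exc (a r : ℕ) (s : ℕ × ℕ) : ℚ :=
  (∑ m ∈ range s.2, (cntS (s.1 + 3) m : ℚ) / (nCl (s.1 + 3) : ℚ) ^ m) -
    cQ a r * ((s.1 + 3 : ℕ) : ℚ)

/-- Stage predicate for `a / 2^r < α`. -/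
def loT (C a r : ℕ) (s : ℕ × ℕ) : Bool :=
  !decide (exc a r s ≤ 0) && !decide (exc a r s * exc a r s ≤ ((C ^ 2 * (s.1 + 3) : ℕ) : ℚ))

theorem loT_iff (C a r : ℕ) (s : ℕ × ℕ) : loT C a r s = true ↔
    (a : ℝ) / 2 ^ r + C / Real.sqrt ((s.1 + 3 : ℕ) : ℝ) <
      (∑ m ∈ range s.2, satProb 3 (s.1 + 3) m) / ((s.1 + 3 : ℕ) : ℝ) := by
  set n : ℕ := s.1 + 3 with hn
  have hnpos : (0 : ℝ) < (n : ℝ) := by rw [hn]; positivity
  have hsq : 0 < Real.sqrt (n : ℝ) := Real.sqrt_pos.2 hnpos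
  have hss : Real.sqrt (n : ℝ) * Real.sqrt (n : ℝ) = n := Real.mul_self_sqrt hnpos.le
  set X : ℝ := (∑ m ∈ range s.2, satProb 3 n m) - (a : ℝ) / 2 ^ r * n with hX
  have hexc : ((exc a r s : ℚ) : ℝ) = X := by
    unfold exc cQ
    rw [hX]
    have h1 : ∀ m, satProb 3 (s.1 + 3) m = (cntS (s.1 + 3) m : ℝ) / (nCl (s.1 + 3) : ℝ) ^ m :=
      fun m => satProb_eq_cnt _ m
    rw [hn]
    simp only [h1]
    push_cast
    rfl
  have e1 : loT C a r s = true ↔ 0 < X ∧ (C : ℝ) ^ 2 * n < X * X := by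
    unfold loT
    rw [Bool.and_eq_true, Bool.not_eq_true', Bool.not_eq_true', decide_eq_false_iff_not,
      decide_eq_false_iff_not, not_le, not_le, ← hexc]
    constructor
    · rintro ⟨h1, h2⟩
      refine ⟨by exact_mod_cast h1, ?_⟩
      have : ((((C ^ 2 * (s.1 + 3) : ℕ) : ℚ) : ℚ) : ℝ) < ((exc a r s * exc a r s : ℚ) : ℝ) := by
        exact_mod_cast h2
      push_cast at this
      rw [hn]
      push_cast
      exact this
    · rintro ⟨h1, h2⟩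
      refine ⟨by exact_mod_cast h1, ?_⟩
      have : ((((C ^ 2 * (s.1 + 3) : ℕ) : ℚ) : ℚ) : ℝ) < ((exc a r s * exc a r s : ℚ) : ℝ) := by
        rw [hn] at h2
        push_cast at h2 ⊢
        exact h2
      exact_mod_cast this
  have e2 : ((a : ℝ) / 2 ^ r + C / Real.sqrt (n : ℝ) <
      (∑ m ∈ range s.2, satProb 3 n m) / (n : ℝ)) ↔ (C : ℝ) * Real.sqrt n < X := by
    rw [lt_div_iff₀ hnpos, hX, add_mul]
    have : (C : ℝ) / Real.sqrt n * n = C * Real.sqrt n := by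
      rw [div_mul_eq_mul_div, div_eq_iff hsq.ne', mul_assoc, hss]
    rw [this]
    constructor <;> intro h <;> linarith
  rw [e1, e2]
  have hC : (0 : ℝ) ≤ C := Nat.cast_nonneg C
  have hCs : 0 ≤ (C : ℝ) * Real.sqrt n := by positivity
  constructor
  · rintro ⟨h1, h2⟩
    by_contra hle
    push Not at hle
    have : X * X ≤ ((C : ℝ) * Real.sqrt n) * ((C : ℝ) * Real.sqrt n) :=
      mul_self_le_mul_self h1.le hle
    have e : ((C : ℝ) * Real.sqrt n) * ((C : ℝ) * Real.sqrt n) = (C : ℝ) ^ 2 * n := by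
      calc _ = (C : ℝ) ^ 2 * (Real.sqrt n * Real.sqrt n) := by ring
        _ = _ := by rw [hss]
    linarith
  · intro h
    have h1 : 0 < X := lt_of_le_of_lt hCs h
    refine ⟨h1, ?_⟩
    have : ((C : ℝ) * Real.sqrt n) * ((C : ℝ) * Real.sqrt n) < X * X :=
      mul_self_lt_mul_self hCs h
    have e : ((C : ℝ) * Real.sqrt n) * ((C : ℝ) * Real.sqrt n) = (C : ℝ) ^ 2 * n := by
      calc _ = (C : ℝ) ^ 2 * (Real.sqrt n * Real.sqrt n) := by ring
        _ = _ := by rw [hss]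
    linarith

theorem computable_exc : Computable fun x : (ℕ × ℕ) × (ℕ × ℕ) => exc x.1.1 x.1.2 x.2 := by
  have p1 : Primrec fun x : (ℕ × ℕ) × (ℕ × ℕ) => x.1 := by prim
  have hc := computable_cQ.comp p1.to_comp
  have p2 : Primrec fun x : (ℕ × ℕ) × (ℕ × ℕ) => x.2.1 + 3 := by prim
  have p3 : Primrec fun x : (ℕ × ℕ) × (ℕ × ℕ) => x.2.2 := by prim
  have p4 : Primrec fun x : ((ℕ × ℕ) × (ℕ × ℕ)) × ℕ => ((x.1.2.1 + 3, x.2) : ℕ × ℕ) := by prim
  have h1 := C.nat (primrec_cntS.comp p4)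
  have p5 : Primrec fun x : ((ℕ × ℕ) × (ℕ × ℕ)) × ℕ => x.1.2.1 + 3 := by prim
  have p6 : Primrec fun x : ((ℕ × ℕ) × (ℕ × ℕ)) × ℕ => x.2 := by prim
  have h2 := C.pow (C.nat (primrec_nCl.comp p5)) p6
  have h3 := C.sum (g := fun (x : (ℕ × ℕ) × (ℕ × ℕ)) m =>
    (cntS (x.2.1 + 3) m : ℚ) / (nCl (x.2.1 + 3) : ℚ) ^ m) p3 (C.div h1 h2)
  have h4 := C.sub h3 (C.mul hc (C.nat p2))
  exact h4

theorem computable_loT (C₀ : ℕ) :
    Computable fun x : (ℕ × ℕ) × (ℕ × ℕ) => loT C₀ x.1.1 x.1.2 x.2 := by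
  have he := computable_exc
  have p2 : Primrec fun x : (ℕ × ℕ) × (ℕ × ℕ) => C₀ ^ 2 * (x.2.1 + 3) := by prim
  have h0 : Computable fun _ : (ℕ × ℕ) × (ℕ × ℕ) => (0 : ℚ) := Computable.const 0
  have h1 := Crest.Agent.CompRat.computable_le.comp he h0
  have h2 := Crest.Agent.CompRat.computable_le.comp (C.mul he he) (C.nat p2)
  have h3 := Primrec.not.to_comp.comp h1
  have h4 := Primrec.not.to_comp.comp h2
  have h5 := Primrec.and.to_comp.comp h3 h4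
  exact h5

end Crest.Agent.RC
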