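import Crest.Agent.RC.Site
import Crest.Agent.Lib.CompRat

/-!
# Row 153 (S0218), computability part: the truncated functional on rational data
-/

set_option autoImplicit false

namespace Crest.Agent.RC

open Finset Crest.Agent.CompRat

/-- Truncated functional (real data). `L2` stands for `log 2`, `e3` for `exp (-3 c)`,
`t = (1/2)^(j+1)`. -/
noncomputable def PhiR (cc : ℝ) (j K R : ℕ) (c q : ℕ → ℝ) (L2 e3 : ℝ) (k0 N0 : ℕ) : ℝ :=
  L2 * (1 + cc * (j + 1)) -
    e3 * (∑ k ∈ range k0, (3 * cc) ^ k / (k.factorial : ℝ) *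
      ∑ n ∈ range N0, siteV K R c q (1 / ((2 ^ (j + 1) : ℕ) : ℝ)) k n / (n + 1)) +
    2 * cc * ((∑ n ∈ range N0, edgeV K R c q (1 / ((2 ^ (j + 1) : ℕ) : ℝ)) n / (n + 1)) +
      (1 - (1 / ((2 ^ (j + 1) : ℕ) : ℝ)) ^ 2) ^ N0 * ((2 ^ (j + 1) : ℕ) : ℝ) ^ 2)

/-- Rational data: `((j, K', R), (k0, N0, N1), (gl, ul, U'))`. -/
abbrev DT : Type := (ℕ × ℕ × ℕ) × (ℕ × ℕ × ℕ) × (List ℕ × List ℕ × ℕ)

namespace DT

def j (d : DT) : ℕ := d.1.1
def K (d : DT) : ℕ := d.1.2.1 + 1
def R (d : DT) : ℕ := d.1.2.2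
def k0 (d : DT) : ℕ := d.2.1.1
def N0 (d : DT) : ℕ := d.2.1.2.1
def N1 (d : DT) : ℕ := d.2.1.2.2
def g (d : DT) (J : ℕ) : ℕ := d.2.2.1.getD J 0 + 1
def U (d : DT) : ℕ := d.2.2.2.2 + 2
def u (d : DT) (i : ℕ) : ℕ := d.2.2.2.1.getD i 0 % (d.2.2.2.2 + 1) + 1
def G (d : DT) : ℕ := ∑ J ∈ range (d.R + 1), d.g J
def T (d : DT) : ℕ := 2 ^ (d.j + 1)

theorem G_pos (d : DT) : 0 < d.G := by
  unfold G
  exact Finset.sum_pos (fun J _ => Nat.succ_pos _) ⟨0, by simp⟩

theorem u_pos (d : DT) (i : ℕ) : 0 < d.u i := Nat.succ_pos _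

theorem u_lt (d : DT) (i : ℕ) : d.u i < d.U := by
  unfold u U
  have := Nat.mod_lt (d.2.2.2.1.getD i 0) (Nat.succ_pos d.2.2.2.2)
  simp only [Nat.succ_eq_add_one] at this
  omega

/-- The weights of the levels. -/
noncomputable def cR (d : DT) (J : ℕ) : ℝ := (d.g J : ℝ) / d.G

/-- The spin probabilities. -/
noncomputable def qR (d : DT) (i : ℕ) : ℝ := (d.u i : ℝ) / d.U

end DT

/-- Upper approximations of `log 2`. -/
def lam (N : ℕ) : ℚ := ∑ n ∈ range N, (1 / 2 : ℚ) ^ (n + 1) / ((n + 1 : ℕ) : ℚ) + (1 / 2) ^ N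

/-- Lower approximations of `exp (-3 a / 2^ρ)`. -/
def elow (a ρ N : ℕ) : ℚ :=
  (1 - ((3 * a : ℕ) : ℚ) / ((2 ^ ρ * (3 * a + N + 1) : ℕ) : ℚ)) ^ (3 * a + N + 1)

def siteQ (d : DT) (k n : ℕ) : ℚ :=
  (siteN d.K d.R d.U d.g d.u d.T k n : ℚ) /
    ((8 ^ k * (n.factorial * d.G ^ n * ((d.K ^ (2 * k)) ^ (d.R + 1)) ^ (n + 1) *
          (dsite d.U d.T k) ^ (n + 1)) : ℕ) : ℚ)

def edgeQ (d : DT) (n : ℕ) : ℚ :=
  (edgeN d.K d.R d.U d.g d.u d.T n : ℚ) /
    ((8 * (n.factorial * d.G ^ n * ((d.K ^ 3) ^ (d.R + 1)) ^ (n + 1) *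
          (dedge d.U d.T) ^ (n + 1)) : ℕ) : ℚ)

/-- The density. -/
def cQ (a ρ : ℕ) : ℚ := (a : ℚ) / ((2 ^ ρ : ℕ) : ℚ)

/-- The truncated functional on rational data. -/
def PhiQ (a ρ : ℕ) (d : DT) : ℚ :=
  lam d.N1 * (1 + cQ a ρ * ((d.j + 1 : ℕ) : ℚ)) -
    elow a ρ d.N1 * (∑ k ∈ range d.k0, (3 * cQ a ρ) ^ k / (k.factorial : ℚ) *
      ∑ n ∈ range d.N0, siteQ d k n / ((n + 1 : ℕ) : ℚ)) +
    2 * cQ a ρ * ((∑ n ∈ range d.N0, edgeQ d n / ((n + 1 : ℕ) : ℚ)) +
      (1 - (1 / (d.T : ℚ)) ^ 2) ^ d.N0 * (d.T : ℚ) ^ 2)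

theorem siteQ_eq (d : DT) (k n : ℕ) :
    ((siteQ d k n : ℚ) : ℝ) = siteV d.K d.R d.cR d.qR (1 / ((2 ^ (d.j + 1) : ℕ) : ℝ)) k n := by
  have h := siteV_eq (K := d.K) (R := d.R) (U := d.U) (G := d.G) (T := d.T) (g := d.g) (u := d.u)
    (Nat.succ_pos _) (Nat.succ_pos _) (by unfold DT.T; positivity) d.G_pos
    (fun i => (d.u_lt i).le) k n
  unfold siteQ
  rw [Rat.cast_div, Rat.cast_natCast, Rat.cast_natCast]
  exact h.symm

theorem edgeQ_eq (d : DT) (n : ℕ) :
    ((edgeQ d n : ℚ) : ℝ) = edgeV d.K d.R d.cR d.qR (1 / ((2 ^ (d.j + 1) : ℕ) : ℝ)) n := by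
  have h := edgeV_eq (K := d.K) (R := d.R) (U := d.U) (G := d.G) (T := d.T) (g := d.g) (u := d.u)
    (Nat.succ_pos _) (Nat.succ_pos _) (by unfold DT.T; positivity) d.G_pos
    (fun i => (d.u_lt i).le) n
  unfold edgeQ
  rw [Rat.cast_div, Rat.cast_natCast, Rat.cast_natCast]
  exact h.symm

theorem PhiQ_eq (a ρ : ℕ) (d : DT) :
    ((PhiQ a ρ d : ℚ) : ℝ) = PhiR ((a : ℝ) / 2 ^ ρ) d.j d.K d.R d.cR d.qR (lam d.N1 : ℚ)
      (elow a ρ d.N1 : ℚ) d.k0 d.N0 := by
  have hc : ((cQ a ρ : ℚ) : ℝ) = (a : ℝ) / 2 ^ ρ := by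
    unfold cQ; push_cast; rfl
  unfold PhiQ PhiR
  push_cast
  simp only [siteQ_eq, edgeQ_eq, hc]
  unfold DT.T
  push_cast
  rfl

/-! ### Computability -/

section comp
variable {α : Type*} [Primcodable α]

theorem C.add {f g : α → ℚ} (hf : Computable f) (hg : Computable g) :
    Computable fun x => f x + g x := computable_add.comp hf hg
theorem C.sub {f g : α → ℚ} (hf : Computable f) (hg : Computable g) :
    Computable fun x => f x - g x := computable_sub.comp hf hg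
theorem C.mul {f g : α → ℚ} (hf : Computable f) (hg : Computable g) :
    Computable fun x => f x * g x := computable_mul.comp hf hg
theorem C.div {f g : α → ℚ} (hf : Computable f) (hg : Computable g) :
    Computable fun x => f x / g x := computable_div.comp hf hg
theorem C.pow {f : α → ℚ} {g : α → ℕ} (hf : Computable f) (hg : Primrec g) :
    Computable fun x => f x ^ g x := computable_pow.comp hf hg.to_comp
theorem C.nat {f : α → ℕ} (hf : Primrec f) : Computable fun x => (f x : ℚ) :=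
  computable_natCast.comp hf.to_comp
theorem C.sum {f : α → ℕ} {g : α → ℕ → ℚ} (hf : Primrec f)
    (hg : Computable fun x : α × ℕ => g x.1 x.2) :
    Computable fun a => ∑ i ∈ range (f a), g a i := computable_sum hg hf.to_comp

end comp

/-- `cmp`: structural proof of computability of rational valued functions. -/
macro "cmp" : tactic => `(tactic|
  repeat' (first
    | with_reducible assumption
    | with_reducible exact Computable.const _
    | with_reducible refine C.add ?_ ?_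
    | with_reducible refine C.sub ?_ ?_
    | with_reducible refine C.mul ?_ ?_
    | with_reducible refine C.div ?_ ?_
    | with_reducible refine C.pow ?_ ?_
    | with_reducible refine C.nat ?_
    | with_reducible refine C.sum ?_ ?_))

theorem primrec_factorial : Primrec Nat.factorial := by
  have h : Primrec (fun n : ℕ => ∏ i ∈ range n, (i + 1)) := by prim
  exact h.of_eq fun n => Finset.prod_range_add_one_eq_factorial n

theorem computable_lam : Computable lam := by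
  unfold lam
  cmp <;> prim

theorem computable_elow : Computable fun x : (ℕ × ℕ) × ℕ => elow x.1.1 x.1.2 x.2 := by
  unfold elow
  cmp <;> prim

theorem computable_cQ : Computable fun x : ℕ × ℕ => cQ x.1 x.2 := by
  unfold cQ
  cmp <;> prim

section fields
theorem DT.primrec_j : Primrec DT.j := by unfold DT.j; prim
theorem DT.primrec_K : Primrec DT.K := by unfold DT.K; prim
theorem DT.primrec_R : Primrec DT.R := by unfold DT.R; prim
theorem DT.primrec_k0 : Primrec DT.k0 := by unfold DT.k0; prim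
theorem DT.primrec_N0 : Primrec DT.N0 := by unfold DT.N0; prim
theorem DT.primrec_N1 : Primrec DT.N1 := by unfold DT.N1; prim
theorem DT.primrec_U : Primrec DT.U := by unfold DT.U; prim
theorem DT.primrec_T : Primrec DT.T := by
  unfold DT.T
  exact P.pow (Primrec.const 2) (P.add DT.primrec_j (Primrec.const 1))
theorem DT.primrec_g : Primrec fun x : DT × ℕ => x.1.g x.2 := by unfold DT.g; prim
theorem DT.primrec_u : Primrec fun x : DT × ℕ => x.1.u x.2 := by unfold DT.u; prim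
theorem DT.primrec_G : Primrec DT.G := by
  unfold DT.G
  exact P.sum (P.add DT.primrec_R (Primrec.const 1)) DT.primrec_g
end fields

theorem computable_siteQ : Computable fun x : DT × ℕ × ℕ => siteQ x.1 x.2.1 x.2.2 := by
  unfold siteQ
  have h0 : Primrec fun x : DT × ℕ × ℕ => x.1 := by prim
  have hk : Primrec fun x : DT × ℕ × ℕ => x.2.1 := by prim
  have hn : Primrec fun x : DT × ℕ × ℕ => x.2.2 := by prim
  have hK := DT.primrec_K.comp h0
  have hR := DT.primrec_R.comp h0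
  have hU := DT.primrec_U.comp h0
  have hT := DT.primrec_T.comp h0
  have hG := DT.primrec_G.comp h0
  have hg : Primrec fun x : (DT × ℕ × ℕ) × ℕ => x.1.1.g x.2 :=
    P.app2 DT.primrec_g (by prim) (by prim)
  have hu : Primrec fun x : (DT × ℕ × ℕ) × ℕ => x.1.1.u x.2 :=
    P.app2 DT.primrec_u (by prim) (by prim)
  have h1 := primrec_siteN (g := fun x : DT × ℕ × ℕ => x.1.g) (u := fun x => x.1.u)
    hK hR hU hg hu hT hk hn
  have h2 := primrec_dsite hU hT hk
  have hf := primrec_factorial.comp hn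
  refine C.div (C.nat h1) (C.nat ?_)
  exact P.mul (P.pow (Primrec.const 8) hk) (P.mul (P.mul (P.mul hf (P.pow hG hn))
    (P.pow (P.pow (P.pow hK (P.mul (Primrec.const 2) hk)) (P.add hR (Primrec.const 1)))
      (P.add hn (Primrec.const 1)))) (P.pow h2 (P.add hn (Primrec.const 1))))

theorem computable_edgeQ : Computable fun x : DT × ℕ => edgeQ x.1 x.2 := by
  unfold edgeQ
  have h0 : Primrec fun x : DT × ℕ => x.1 := by prim
  have hn : Primrec fun x : DT × ℕ => x.2 := by prim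
  have hK := DT.primrec_K.comp h0
  have hR := DT.primrec_R.comp h0
  have hU := DT.primrec_U.comp h0
  have hT := DT.primrec_T.comp h0
  have hG := DT.primrec_G.comp h0
  have hg : Primrec fun x : (DT × ℕ) × ℕ => x.1.1.g x.2 :=
    P.app2 DT.primrec_g (by prim) (by prim)
  have hu : Primrec fun x : (DT × ℕ) × ℕ => x.1.1.u x.2 :=
    P.app2 DT.primrec_u (by prim) (by prim)
  have h1 := primrec_edgeN (g := fun x : DT × ℕ => x.1.g) (u := fun x => x.1.u)
    hK hR hU hg hu hT hn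
  have h2 := primrec_dedge hU hT
  have hf := primrec_factorial.comp hn
  refine C.div (C.nat h1) (C.nat ?_)
  exact P.mul (Primrec.const 8) (P.mul (P.mul (P.mul hf (P.pow hG hn))
    (P.pow (P.pow (P.pow hK (Primrec.const 3)) (P.add hR (Primrec.const 1)))
      (P.add hn (Primrec.const 1)))) (P.pow h2 (P.add hn (Primrec.const 1))))

theorem computable_PhiQ_site : Computable fun x : (ℕ × ℕ) × DT =>
    ∑ k ∈ range x.2.k0, (3 * cQ x.1.1 x.1.2) ^ k / (k.factorial : ℚ) *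
      ∑ n ∈ range x.2.N0, siteQ x.2 k n / ((n + 1 : ℕ) : ℚ) := by
  have hd : Primrec fun x : (ℕ × ℕ) × DT => x.2 := by prim
  have hk0 := DT.primrec_k0.comp hd
  have hN0 := DT.primrec_N0.comp hd
  have h0 : Primrec fun x : ((ℕ × ℕ) × DT) × ℕ => x.1 := by prim
  have h00 : Primrec fun x : ((ℕ × ℕ) × DT) × ℕ => x.1.1 := by prim
  have h1 : Primrec fun x : ((ℕ × ℕ) × DT) × ℕ => x.2 := by prim
  have hc' := computable_cQ.comp h00.to_comp
  have hf := primrec_factorial.comp h1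
  have e1 := C.div (C.pow (C.mul (Computable.const 3) hc') h1) (C.nat hf)
  have h : Primrec fun x : (((ℕ × ℕ) × DT) × ℕ) × ℕ => (x.1.1.2, x.1.2, x.2) := by prim
  have e2 := computable_siteQ.comp h.to_comp
  have e3' : Primrec fun x : (((ℕ × ℕ) × DT) × ℕ) × ℕ => x.2 + 1 := by prim
  have e3 := C.nat e3'
  have e4 := hN0.comp h0
  have e5 := C.div e2 e3
  have e6 := C.sum (g := fun (x : ((ℕ × ℕ) × DT) × ℕ) n =>
    siteQ x.1.2 x.2 n / ((n + 1 : ℕ) : ℚ)) e4 e5
  have e7 := C.mul e1 e6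
  exact C.sum (g := fun (x : (ℕ × ℕ) × DT) k => (3 * cQ x.1.1 x.1.2) ^ k / (k.factorial : ℚ) *
      ∑ n ∈ range x.2.N0, siteQ x.2 k n / ((n + 1 : ℕ) : ℚ)) hk0 e7

theorem computable_PhiQ_edge : Computable fun x : (ℕ × ℕ) × DT =>
    ∑ n ∈ range x.2.N0, edgeQ x.2 n / ((n + 1 : ℕ) : ℚ) := by
  have hd : Primrec fun x : (ℕ × ℕ) × DT => x.2 := by prim
  have hN0 := DT.primrec_N0.comp hd
  have h : Primrec fun x : ((ℕ × ℕ) × DT) × ℕ => (x.1.2, x.2) := by prim
  have e2 := computable_edgeQ.comp h.to_comp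
  have e3' : Primrec fun x : ((ℕ × ℕ) × DT) × ℕ => x.2 + 1 := by prim
  have e3 := C.nat e3'
  have e5 := C.div e2 e3
  exact C.sum (g := fun (x : (ℕ × ℕ) × DT) n => edgeQ x.2 n / ((n + 1 : ℕ) : ℚ)) hN0 e5

theorem computable_PhiQ : Computable fun x : (ℕ × ℕ) × DT => PhiQ x.1.1 x.1.2 x.2 := by
  have hd : Primrec fun x : (ℕ × ℕ) × DT => x.2 := by prim
  have h : Primrec fun x : (ℕ × ℕ) × DT => x.1 := by prim
  have hj := DT.primrec_j.comp hd
  have hN1 := DT.primrec_N1.comp hd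
  have hN0 := DT.primrec_N0.comp hd
  have hT := DT.primrec_T.comp hd
  have hc := computable_cQ.comp h.to_comp
  have hl := computable_lam.comp hN1.to_comp
  have he := computable_elow.comp (h.pair hN1).to_comp
  have c : ∀ q : ℚ, Computable fun _ : (ℕ × ℕ) × DT => q := fun q => Computable.const q
  have t1 := C.mul hl (C.add (c 1) (C.mul hc (C.nat (P.add hj (Primrec.const 1)))))
  have t2 := C.mul he computable_PhiQ_site
  have t3 := C.mul (C.pow (C.sub (c 1) (C.pow (C.div (c 1) (C.nat hT)) (Primrec.const 2))) hN0)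
        (C.pow (C.nat hT) (Primrec.const 2))
  have t4 := C.mul (C.mul (c 2) hc) (C.add computable_PhiQ_edge t3)
  have t5 := C.add (C.sub t1 t2) t4
  exact t5

end Crest.Agent.RC
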