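import Mathlib

/-!
# Row 153 (S0218), computability part: a small library of primitive recursive functions

`prim` proves goals `Primrec (fun x => …)` built from the operations below (and hypotheses
in the context, tried by `assumption`).
-/

set_option autoImplicit false

namespace Crest.Agent.RC

open Finset

section
variable {α β γ σ : Type*} [Primcodable α] [Primcodable β] [Primcodable γ] [Primcodable σ]

theorem P.id' : Primrec fun x : α => x := Primrec.id
theorem P.add {f g : α → ℕ} (hf : Primrec f) (hg : Primrec g) : Primrec fun x => f x + g x :=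
  Primrec.nat_add.comp hf hg
theorem P.mul {f g : α → ℕ} (hf : Primrec f) (hg : Primrec g) : Primrec fun x => f x * g x :=
  Primrec.nat_mul.comp hf hg
theorem P.sub {f g : α → ℕ} (hf : Primrec f) (hg : Primrec g) : Primrec fun x => f x - g x :=
  Primrec.nat_sub.comp hf hg
theorem P.div {f g : α → ℕ} (hf : Primrec f) (hg : Primrec g) : Primrec fun x => f x / g x :=
  Primrec.nat_div.comp hf hg
theorem P.mod {f g : α → ℕ} (hf : Primrec f) (hg : Primrec g) : Primrec fun x => f x % g x :=
  Primrec.nat_mod.comp hf hg
theorem P.max {f g : α → ℕ} (hf : Primrec f) (hg : Primrec g) : Primrec fun x => max (f x) (g x) :=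
  Primrec.nat_max.comp hf hg

theorem primrec_pow : Primrec₂ (fun a b : ℕ => a ^ b) := by
  have h : Primrec (fun p : ℕ × ℕ => Nat.rec (motive := fun _ => ℕ) 1 (fun _ ih => ih * p.1) p.2) :=
    Primrec.nat_rec' (f := fun p : ℕ × ℕ => p.2) (g := fun _ => (1 : ℕ))
      (h := fun a p => p.2 * a.1) Primrec.snd (Primrec.const 1)
      (Primrec.nat_mul.comp (Primrec.snd.comp Primrec.snd) (Primrec.fst.comp Primrec.fst))
  refine h.of_eq ?_
  rintro ⟨a, b⟩
  simp only
  induction b with
  | zero => simp
  | succ n ih => rw [pow_succ, ← ih]

theorem P.pow {f g : α → ℕ} (hf : Primrec f) (hg : Primrec g) : Primrec fun x => f x ^ g x :=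
  primrec_pow.comp hf hg

theorem P.pair {f : α → β} {g : α → γ} (hf : Primrec f) (hg : Primrec g) :
    Primrec fun x => (f x, g x) := Primrec.pair hf hg
theorem P.fst {f : α → β × γ} (hf : Primrec f) : Primrec fun x => (f x).1 := Primrec.fst.comp hf
theorem P.snd {f : α → β × γ} (hf : Primrec f) : Primrec fun x => (f x).2 := Primrec.snd.comp hf

theorem P.app {g : β → σ} (hg : Primrec g) {a : α → β} (ha : Primrec a) :
    Primrec fun z => g (a z) := hg.comp ha

theorem P.app2 {g : β → γ → σ} (hg : Primrec fun x : β × γ => g x.1 x.2) {a : α → β} {b : α → γ}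
    (ha : Primrec a) (hb : Primrec b) : Primrec fun z => g (a z) (b z) :=
  hg.comp (Primrec.pair ha hb)

theorem P.sum {f : α → ℕ} {g : α → ℕ → ℕ} (hf : Primrec f)
    (hg : Primrec fun x : α × ℕ => g x.1 x.2) :
    Primrec fun a => ∑ i ∈ range (f a), g a i := by
  have h : Primrec (fun a : α => Nat.rec (motive := fun _ => ℕ) 0 (fun i ih => ih + g a i) (f a)) :=
    Primrec.nat_rec' (f := f) (g := fun _ => (0 : ℕ))
      (h := fun a p => p.2 + g a p.1) hf (Primrec.const 0)
      (Primrec.nat_add.comp (Primrec.snd.comp Primrec.snd)
        (hg.comp (Primrec.pair Primrec.fst (Primrec.fst.comp Primrec.snd))))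
  refine h.of_eq ?_
  intro a
  induction f a with
  | zero => simp
  | succ n ih => rw [sum_range_succ, ← ih]

theorem P.prod {f : α → ℕ} {g : α → ℕ → ℕ} (hf : Primrec f)
    (hg : Primrec fun x : α × ℕ => g x.1 x.2) :
    Primrec fun a => ∏ i ∈ range (f a), g a i := by
  have h : Primrec (fun a : α => Nat.rec (motive := fun _ => ℕ) 1 (fun i ih => ih * g a i) (f a)) :=
    Primrec.nat_rec' (f := f) (g := fun _ => (1 : ℕ))
      (h := fun a p => p.2 * g a p.1) hf (Primrec.const 1)
      (Primrec.nat_mul.comp (Primrec.snd.comp Primrec.snd)
        (hg.comp (Primrec.pair Primrec.fst (Primrec.fst.comp Primrec.snd))))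
  refine h.of_eq ?_
  intro a
  induction f a with
  | zero => simp
  | succ n ih => rw [prod_range_succ, ← ih]

theorem P.listSum {f : α → List ℕ} (hf : Primrec f) : Primrec fun a => (f a).sum := by
  have h : Primrec (fun a : α => (f a).foldr (fun b s => b + s) 0) :=
    Primrec.list_foldr (f := f) (g := fun _ => (0 : ℕ)) (h := fun _ p => p.1 + p.2) hf
      (Primrec.const 0) (Primrec.nat_add.comp (Primrec.fst.comp Primrec.snd)
        (Primrec.snd.comp Primrec.snd))
  exact h.of_eq fun a => (List.sum_eq_foldr).symm

theorem P.listProd {f : α → List ℕ} (hf : Primrec f) : Primrec fun a => (f a).prod := by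
  have h : Primrec (fun a : α => (f a).foldr (fun b s => b * s) 1) :=
    Primrec.list_foldr (f := f) (g := fun _ => (1 : ℕ)) (h := fun _ p => p.1 * p.2) hf
      (Primrec.const 1) (Primrec.nat_mul.comp (Primrec.fst.comp Primrec.snd)
        (Primrec.snd.comp Primrec.snd))
  exact h.of_eq fun a => (List.prod_eq_foldr).symm

theorem P.map {f : α → List β} {g : α → β → γ} (hf : Primrec f)
    (hg : Primrec fun x : α × β => g x.1 x.2) :
    Primrec fun a => (f a).map (g a) := Primrec.list_map hf hg

theorem P.map' {f : α → List β} {g : α → β → γ} (hf : Primrec f)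
    (hg : Primrec fun x : α × β => g x.1 x.2) :
    Primrec fun a => (f a).map (fun b => g a b) := Primrec.list_map hf hg

theorem P.flatMap {f : α → List β} {g : α → β → List γ} (hf : Primrec f)
    (hg : Primrec fun x : α × β => g x.1 x.2) :
    Primrec fun a => (f a).flatMap (g a) := Primrec.list_flatMap hf hg

theorem P.flatMap' {f : α → List β} {g : α → β → List γ} (hf : Primrec f)
    (hg : Primrec fun x : α × β => g x.1 x.2) :
    Primrec fun a => (f a).flatMap (fun b => g a b) := Primrec.list_flatMap hf hg

theorem P.range {f : α → ℕ} (hf : Primrec f) : Primrec fun a => List.range (f a) :=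
  Primrec.list_range.comp hf

theorem P.getD {f : α → List β} {g : α → ℕ} (d : β) (hf : Primrec f) (hg : Primrec g) :
    Primrec fun a => (f a).getD (g a) d := (Primrec.list_getD d).comp hf hg

theorem P.length {f : α → List β} (hf : Primrec f) : Primrec fun a => (f a).length :=
  Primrec.list_length.comp hf

theorem P.append {f g : α → List β} (hf : Primrec f) (hg : Primrec g) :
    Primrec fun a => f a ++ g a := Primrec.list_append.comp hf hg

theorem P.cons {f : α → β} {g : α → List β} (hf : Primrec f) (hg : Primrec g) :
    Primrec fun a => f a :: g a := Primrec.list_cons.comp hf hg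

theorem P.ite {c : α → Prop} [DecidablePred c] {f g : α → σ} (hc : PrimrecPred c) (hf : Primrec f)
    (hg : Primrec g) : Primrec fun a => if c a then f a else g a := Primrec.ite hc hf hg

theorem P.eq {f g : α → ℕ} (hf : Primrec f) (hg : Primrec g) : PrimrecPred fun a => f a = g a :=
  Primrec.eq.comp hf hg
theorem P.lt {f g : α → ℕ} (hf : Primrec f) (hg : Primrec g) : PrimrecPred fun a => f a < g a :=
  Primrec.nat_lt.comp hf hg
theorem P.le {f g : α → ℕ} (hf : Primrec f) (hg : Primrec g) : PrimrecPred fun a => f a ≤ g a :=
  Primrec.nat_le.comp hf hg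

theorem P.and {p q : α → Prop} (hp : PrimrecPred p) (hq : PrimrecPred q) :
    PrimrecPred fun a => p a ∧ q a := hp.and hq
theorem P.or {p q : α → Prop} (hp : PrimrecPred p) (hq : PrimrecPred q) :
    PrimrecPred fun a => p a ∨ q a := hp.or hq
theorem P.not {p : α → Prop} (hp : PrimrecPred p) : PrimrecPred fun a => ¬ p a := hp.not

end

/-- `prim`: structural proof of primitive recursiveness. -/
macro "prim" : tactic => `(tactic|
  repeat' (first
    | with_reducible assumption
    | with_reducible exact P.id'
    | with_reducible exact Primrec.fst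
    | with_reducible exact Primrec.snd
    | with_reducible exact Primrec.const _
    | with_reducible refine P.add ?_ ?_
    | with_reducible refine P.mul ?_ ?_
    | with_reducible refine P.sub ?_ ?_
    | with_reducible refine P.div ?_ ?_
    | with_reducible refine P.mod ?_ ?_
    | with_reducible refine P.pow ?_ ?_
    | with_reducible refine P.max ?_ ?_
    | with_reducible refine P.sum ?_ ?_
    | with_reducible refine P.prod ?_ ?_
    | with_reducible refine P.listSum ?_
    | with_reducible refine P.listProd ?_
    | with_reducible refine P.range ?_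
    | with_reducible refine P.getD _ ?_ ?_
    | with_reducible refine P.length ?_
    | with_reducible refine P.append ?_ ?_
    | with_reducible refine P.cons ?_ ?_
    | with_reducible refine P.ite ?_ ?_ ?_
    | with_reducible refine P.and ?_ ?_
    | with_reducible refine P.or ?_ ?_
    | with_reducible refine P.not ?_
    | with_reducible refine P.eq ?_ ?_
    | with_reducible refine P.lt ?_ ?_
    | with_reducible refine P.le ?_ ?_
    | with_reducible refine P.map' ?_ ?_
    | with_reducible refine P.flatMap' ?_ ?_
    | with_reducible refine P.fst ?_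
    | with_reducible refine P.snd ?_
    | with_reducible refine P.pair ?_ ?_))

example : Primrec (fun x : ℕ × List ℕ => ∑ i ∈ range x.1, (x.2.getD i 0) * (i + x.2.length) ^ 2) := by
  prim

/-! ### Sums over the leaves of a tree of states -/

section tree
variable {σ : Type*}

/-- Sum of `leaf` over all states reachable in `k` steps. -/
def treeSum (next : σ → List σ) (leaf : σ → ℕ) : ℕ → σ → ℕ
  | 0, s => leaf s
  | k + 1, s => ((next s).map (treeSum next leaf k)).sum

theorem treeSum_eq (next : σ → List σ) (leaf : σ → ℕ) (k : ℕ) : ∀ l : List σ,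
    (((fun l : List σ => l.flatMap next)^[k] l).map leaf).sum =
      (l.map (treeSum next leaf k)).sum := by
  induction k with
  | zero =>
    intro l
    rfl
  | succ k ih =>
    intro l
    rw [Function.iterate_succ_apply, ih]
    induction l with
    | nil => simp
    | cons s l ihl =>
      simp only [List.flatMap_cons, List.map_append, List.sum_append, List.map_cons, List.sum_cons,
        ihl, treeSum]

theorem primrec_treeSum {α : Type*} [Primcodable α] [Primcodable σ] {next : α → σ → List σ}
    {leaf : α → σ → ℕ} (hn : Primrec fun x : α × σ => next x.1 x.2)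
    (hl : Primrec fun x : α × σ => leaf x.1 x.2) {k : α → ℕ} {s : α → σ} (hk : Primrec k)
    (hs : Primrec s) : Primrec fun a => treeSum (next a) (leaf a) (k a) (s a) := by
  have h1 : Primrec fun a => (fun l : List σ => l.flatMap (next a))^[k a] [s a] := by
    refine Primrec.nat_iterate (f := k) (g := fun a => [s a])
      (h := fun a l => l.flatMap (next a)) hk ?_ ?_
    · exact P.cons hs (Primrec.const [])
    · refine P.flatMap (f := fun x : α × List σ => x.2) (g := fun x b => next x.1 b)
        Primrec.snd ?_
      exact hn.comp (P.pair (P.fst Primrec.fst) Primrec.snd)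
  have h2 : Primrec fun a =>
      (((fun l : List σ => l.flatMap (next a))^[k a] [s a]).map (leaf a)).sum :=
    P.listSum (P.map h1 hl)
  refine h2.of_eq fun a => ?_
  rw [treeSum_eq]
  simp

end tree

end Crest.Agent.RC
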