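import Crest.Agent.RC.Digits
import Crest.Agent.RC.Phi
import Crest.Agent.RS.SatProb

/-!
# Row 153 (S0218), computability part: `satProb 3 n m` is a computable rational
-/

set_option autoImplicit false

namespace Crest.Agent.RC

open Finset Crest.ProbabilityR.RandomSAT Crest.Agent.RS

/-- literal `i` of the clause code `y`: `2 * variable + sign` -/
def litc (n i y : ℕ) : ℕ := dig (2 * n) i y

/-- the three variables are distinct -/
def validc (n y : ℕ) : Prop :=
  litc n 0 y / 2 ≠ litc n 1 y / 2 ∧ litc n 0 y / 2 ≠ litc n 2 y / 2 ∧ litc n 1 y / 2 ≠ litc n 2 y / 2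

instance (n y : ℕ) : Decidable (validc n y) := by unfold validc; infer_instance

/-- the assignment coded by `s` satisfies the clause coded by `y` -/
def satc (n y s : ℕ) : Prop :=
  dig 2 (litc n 0 y / 2) s = litc n 0 y % 2 ∨ dig 2 (litc n 1 y / 2) s = litc n 1 y % 2 ∨
    dig 2 (litc n 2 y / 2) s = litc n 2 y % 2

instance (n y s : ℕ) : Decidable (satc n y s) := by unfold satc; infer_instance

/-- list of all clause codes -/
def clauseCodes (n : ℕ) : List ℕ := (List.range ((2 * n) ^ 3)).filter (fun y => validc n y)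

/-- states: lists of surviving assignments -/
def nextS (n : ℕ) (S : List ℕ) : List (List ℕ) :=
  (clauseCodes n).map fun y => S.filter (fun s => satc n y s)

def leafS (S : List ℕ) : ℕ := if S.length = 0 then 0 else 1

/-- number of satisfiable `m`-tuples of clauses -/
def cntS (n m : ℕ) : ℕ := treeSum (nextS n) leafS m (List.range (2 ^ n))

/-- number of clauses -/
def nCl (n : ℕ) : ℕ := (clauseCodes n).length

/-- code of a clause -/
def codeC {n : ℕ} (c : Clause 3 n) : ℕ :=
  ofD (b := 2 * n) (fun i : Fin 3 => ⟨2 * (c.1.1 i : ℕ) + (if c.2 i then 1 else 0), by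
    have := (c.1.1 i).isLt
    split_ifs <;> omega⟩)

theorem litc_codeC {n : ℕ} (c : Clause 3 n) (i : Fin 3) :
    litc n i (codeC c) = 2 * (c.1.1 i : ℕ) + (if c.2 i then 1 else 0) := by
  unfold litc codeC
  rw [dig_ofD]

theorem litc_codeC_div {n : ℕ} (c : Clause 3 n) (i : Fin 3) :
    litc n i (codeC c) / 2 = (c.1.1 i : ℕ) := by
  rw [litc_codeC]
  split_ifs <;> omega

theorem litc_codeC_mod {n : ℕ} (c : Clause 3 n) (i : Fin 3) :
    litc n i (codeC c) % 2 = if c.2 i then 1 else 0 := by
  rw [litc_codeC]
  split_ifs <;> omega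

theorem codeC_injective {n : ℕ} : Function.Injective (codeC (n := n)) := by
  intro c d h
  have h1 : ∀ i : Fin 3, (c.1.1 i : ℕ) = (d.1.1 i : ℕ) := fun i => by
    rw [← litc_codeC_div, ← litc_codeC_div, h]
  have h2 : ∀ i : Fin 3, c.2 i = d.2 i := fun i => by
    have := litc_codeC_mod c i
    rw [h, litc_codeC_mod] at this
    revert this
    cases c.2 i <;> cases d.2 i <;> simp
  exact Prod.ext (Subtype.ext (funext fun i => Fin.ext (h1 i))) (funext h2)

theorem codeC_mem {n : ℕ} (c : Clause 3 n) : codeC c ∈ clauseCodes n := by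
  unfold clauseCodes
  rw [List.mem_filter, List.mem_range]
  refine ⟨ofD_lt _, ?_⟩
  have h := fun i => litc_codeC_div c i
  have h0 := h 0
  have h1 := h 1
  have h2 := h 2
  simp only [Fin.isValue, Fin.val_zero, Fin.val_one, Fin.val_two] at h0 h1 h2
  simp only [decide_eq_true_eq]
  unfold validc
  rw [h0, h1, h2]
  refine ⟨fun e => ?_, fun e => ?_, fun e => ?_⟩
  · exact absurd (c.1.2 (Fin.ext e)) (by decide)
  · exact absurd (c.1.2 (Fin.ext e)) (by decide)
  · exact absurd (c.1.2 (Fin.ext e)) (by decide)

theorem exists_codeC {n y : ℕ} (hy : y ∈ clauseCodes n) : ∃ c : Clause 3 n, codeC c = y := by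
  unfold clauseCodes at hy
  rw [List.mem_filter, List.mem_range] at hy
  obtain ⟨hy1, hy2⟩ := hy
  simp only [decide_eq_true_eq] at hy2
  obtain ⟨f, rfl⟩ := exists_ofD hy1
  have hl : ∀ i : Fin 3, litc n i (ofD f) = f i := fun i => dig_ofD f i
  have h0 := hl 0
  have h1 := hl 1
  have h2 := hl 2
  simp only [Fin.isValue, Fin.val_zero, Fin.val_one, Fin.val_two] at h0 h1 h2
  unfold validc at hy2
  rw [h0, h1, h2] at hy2
  have hn : ∀ i : Fin 3, (f i : ℕ) / 2 < n := fun i => by
    have := (f i).isLt
    omega
  refine ⟨⟨⟨fun i => ⟨(f i : ℕ) / 2, hn i⟩, ?_⟩, fun i => decide ((f i : ℕ) % 2 = 1)⟩, ?_⟩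
  · intro i j hij
    have hij' : (f i : ℕ) / 2 = (f j : ℕ) / 2 := congrArg Fin.val hij
    fin_cases i <;> fin_cases j <;> first
      | rfl
      | exact absurd hij' hy2.1
      | exact absurd hij' hy2.2.1
      | exact absurd hij' hy2.2.2
      | exact absurd hij'.symm hy2.1
      | exact absurd hij'.symm hy2.2.1
      | exact absurd hij'.symm hy2.2.2
  · unfold codeC
    congr 1
    funext i
    apply Fin.ext
    simp only [decide_eq_true_eq]
    split_ifs <;> omega

/-- sums over clauses -/
theorem sum_clause {n : ℕ} (f : ℕ → ℝ) :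
    ∑ c : Clause 3 n, f (codeC c) = ((clauseCodes n).map f).sum := by
  have hnd : (clauseCodes n).Nodup := (List.nodup_range).filter _
  rw [← List.sum_toFinset f hnd]
  refine Finset.sum_of_injOn codeC codeC_injective.injOn ?_ ?_ ?_
  · intro c _
    simp only [List.coe_toFinset, Set.mem_ofPred_eq]
    exact codeC_mem c
  · intro y hy hy'
    obtain ⟨c, hc⟩ := exists_codeC (List.mem_toFinset.1 hy)
    exact absurd ⟨c, by simp, hc⟩ hy'
  · intro c _
    rfl

theorem card_clause_eq (n : ℕ) : Fintype.card (Clause 3 n) = nCl n := by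
  have h := sum_clause (n := n) (fun _ => 1)
  simp only [sum_const, card_univ, nsmul_eq_mul, mul_one, List.map_const', List.sum_replicate] at h
  exact_mod_cast h

/-- the assignment coded by `s` -/
def bitsA (n s : ℕ) : Fin n → Bool := fun i => decide (dig 2 i s = 1)

theorem clauseSat_iff {n : ℕ} (s : ℕ) (c : Clause 3 n) :
    ClauseSat (bitsA n s) c ↔ satc n (codeC c) s := by
  unfold ClauseSat satc
  have key : ∀ i : Fin 3, bitsA n s (c.1.1 i) = c.2 i ↔
      dig 2 (litc n i (codeC c) / 2) s = litc n i (codeC c) % 2 := by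
    intro i
    rw [litc_codeC_div, litc_codeC_mod]
    unfold bitsA
    have := dig_lt (b := 2) (by norm_num) (c.1.1 i : ℕ) s
    cases c.2 i
    · simp only [decide_eq_false_iff_not, Bool.false_eq_true, if_false]
      omega
    · simp only [decide_eq_true_eq, if_true]
  constructor
  · rintro ⟨i, hi⟩
    rw [key] at hi
    fin_cases i
    · exact Or.inl hi
    · exact Or.inr (Or.inl hi)
    · exact Or.inr (Or.inr hi)
  · rintro (h | h | h)
    · exact ⟨0, (key 0).2 h⟩
    · exact ⟨1, (key 1).2 h⟩
    · exact ⟨2, (key 2).2 h⟩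

theorem exists_bitsA {n : ℕ} (σ : Fin n → Bool) : ∃ s < 2 ^ n, bitsA n s = σ := by
  refine ⟨ofD (b := 2) (fun i => if σ i then 1 else 0), ofD_lt _, ?_⟩
  funext i
  unfold bitsA
  rw [dig_ofD]
  cases σ i <;> simp

open Classical in
theorem lavg_treeSum (n m : ℕ) : ∀ S : List ℕ,
    lavg (Clause 3 n) m (fun L => if ∃ s ∈ S, ∀ c ∈ L, ClauseSat (bitsA n s) c then (1 : ℝ) else 0) =
      (treeSum (nextS n) leafS m S : ℝ) / (nCl n : ℝ) ^ m := by
  induction m with
  | zero =>
    intro S
    simp only [lavg_zero, treeSum, leafS, pow_zero, div_one]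
    cases S with
    | nil => simp
    | cons s S => simp
  | succ m ih =>
    intro S
    rw [lavg_succ]
    have h1 : ∀ c : Clause 3 n, lavg (Clause 3 n) m (fun L =>
        if ∃ s ∈ S, ∀ c' ∈ c :: L, ClauseSat (bitsA n s) c' then (1 : ℝ) else 0) =
        (treeSum (nextS n) leafS m (S.filter fun s => satc n (codeC c) s) : ℝ) /
          (nCl n : ℝ) ^ m := by
      intro c
      rw [← ih]
      refine lavg_congr fun L => ?_
      congr 1
      rw [eq_iff_iff]
      constructor
      · rintro ⟨s, hs, h⟩
        refine ⟨s, ?_, fun c' hc' => h c' (List.mem_cons_of_mem _ hc')⟩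
        rw [List.mem_filter]
        refine ⟨hs, ?_⟩
        have := (clauseSat_iff s c).1 (h c List.mem_cons_self)
        simpa using this
      · rintro ⟨s, hs, h⟩
        rw [List.mem_filter] at hs
        refine ⟨s, hs.1, fun c' hc' => ?_⟩
        rcases List.mem_cons.1 hc' with h2 | h2
        · rw [h2, clauseSat_iff]
          simpa using hs.2
        · exact h c' h2
    rw [avg_congr h1]
    unfold avg
    rw [card_clause_eq, sum_clause (fun y =>
      (treeSum (nextS n) leafS m (S.filter fun s => satc n y s) : ℝ) / (nCl n : ℝ) ^ m)]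
    have h2 : ((clauseCodes n).map fun y =>
        (treeSum (nextS n) leafS m (S.filter fun s => satc n y s) : ℝ) / (nCl n : ℝ) ^ m).sum =
        (treeSum (nextS n) leafS (m + 1) S : ℝ) / (nCl n : ℝ) ^ m := by
      simp only [treeSum, nextS, List.map_map]
      induction clauseCodes n with
      | nil => simp
      | cons y l ihl =>
        simp only [List.map_cons, List.sum_cons, ihl, Function.comp_def]
        push_cast
        ring
    rw [h2, pow_succ, div_div]

theorem satProb_eq_cnt (n m : ℕ) : satProb 3 n m = (cntS n m : ℝ) / (nCl n : ℝ) ^ m := by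
  classical
  rw [satProb_eq, cntS, ← lavg_treeSum]
  refine lavg_congr fun L => ?_
  congr 1
  rw [eq_iff_iff]
  unfold Alive viol
  constructor
  · rintro ⟨σ, hσ⟩
    obtain ⟨s, hs, rfl⟩ := exists_bitsA σ
    refine ⟨s, List.mem_range.2 hs, fun c hc => ?_⟩
    rw [Nat.le_zero, List.countP_eq_zero] at hσ
    have := hσ (toGC c) (List.mem_map_of_mem hc)
    rw [← gsat_toGC]
    simpa using this
  · rintro ⟨s, hs, h⟩
    refine ⟨bitsA n s, ?_⟩
    rw [Nat.le_zero, List.countP_eq_zero]
    intro y hy
    obtain ⟨c, hc, rfl⟩ := List.mem_map.1 hy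
    have := (gsat_toGC (bitsA n s) c).2 (h c hc)
    simpa using this

/-! ### Computability -/

section prim
variable {α : Type*} [Primcodable α]

theorem primrec_litc {n i y : α → ℕ} (hn : Primrec n) (hi : Primrec i) (hy : Primrec y) :
    Primrec fun a => litc (n a) (i a) (y a) := by
  unfold litc
  exact primrec_dig (P.mul (Primrec.const 2) hn) hi hy

theorem primrec_validc {n y : α → ℕ} (hn : Primrec n) (hy : Primrec y) :
    PrimrecPred fun a => validc (n a) (y a) := by
  unfold validc
  have h : ∀ i : ℕ, Primrec fun a => litc (n a) i (y a) / 2 := fun i =>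
    P.div (primrec_litc hn (Primrec.const i) hy) (Primrec.const 2)
  exact P.and (P.not (P.eq (h 0) (h 1))) (P.and (P.not (P.eq (h 0) (h 2))) (P.not (P.eq (h 1) (h 2))))

theorem primrec_satc {n y s : α → ℕ} (hn : Primrec n) (hy : Primrec y) (hs : Primrec s) :
    PrimrecPred fun a => satc (n a) (y a) (s a) := by
  unfold satc
  have h : ∀ i : ℕ, Primrec fun a => litc (n a) i (y a) / 2 := fun i =>
    P.div (primrec_litc hn (Primrec.const i) hy) (Primrec.const 2)
  have h' : ∀ i : ℕ, Primrec fun a => litc (n a) i (y a) % 2 := fun i =>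
    P.mod (primrec_litc hn (Primrec.const i) hy) (Primrec.const 2)
  have k : ∀ i : ℕ, PrimrecPred fun a => dig 2 (litc (n a) i (y a) / 2) (s a) =
      litc (n a) i (y a) % 2 := fun i => P.eq (primrec_dig (Primrec.const 2) (h i) hs) (h' i)
  exact P.or (k 0) (P.or (k 1) (k 2))

/-- filtering with parameters -/
theorem primrec_filter {β : Type*} [Primcodable β] {f : α → List β} {p : α → β → Prop}
    [∀ a b, Decidable (p a b)] (hf : Primrec f) (hp : PrimrecPred fun x : α × β => p x.1 x.2) :
    Primrec fun a => (f a).filter (fun b => p a b) := by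
  have h : Primrec fun a => (f a).flatMap (fun b => if p a b then [b] else []) := by
    refine P.flatMap' hf (P.ite hp ?_ (Primrec.const []))
    exact P.cons Primrec.snd (Primrec.const [])
  refine h.of_eq fun a => ?_
  induction f a with
  | nil => rfl
  | cons b l ih =>
    rw [List.flatMap_cons, ih, List.filter_cons]
    by_cases hb : p a b <;> simp [hb]

theorem primrec_clauseCodes : Primrec clauseCodes := by
  unfold clauseCodes
  refine primrec_filter (by prim) ?_
  exact primrec_validc (by prim) (by prim)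

theorem primrec_nCl : Primrec nCl := Primrec.list_length.comp primrec_clauseCodes

theorem primrec_cntS : Primrec fun x : ℕ × ℕ => cntS x.1 x.2 := by
  unfold cntS
  refine primrec_treeSum (next := fun x : ℕ × ℕ => nextS x.1) (leaf := fun _ => leafS)
    ?_ ?_ Primrec.snd (by prim)
  · unfold nextS
    have h0 : Primrec fun x : (ℕ × ℕ) × List ℕ => x.1.1 := by prim
    refine P.map' (primrec_clauseCodes.comp h0) ?_
    refine primrec_filter (by prim) ?_
    exact primrec_satc (by prim) (by prim) (by prim)
  · unfold leafS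
    prim

end prim

end Crest.Agent.RC
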