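import Crest.Agent.RC.Codes

/-!
# Row 153 (S0218), computability part: the site and edge observables on codes

`K` alphabet size, `R` depth; a path of a family of `L` labels is coded in base `b = K^L`.
Signs: `s < 8^k` codes the required signs of the `k` clauses, `dig 2 i (dig 8 j s)` is the sign of
literal `i` of clause `j` (the site variable is literal `2`).
-/

set_option autoImplicit false

namespace Crest.Agent.RC

open Finset

/-- Table index of label `ℓ` in the path `p`. -/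
def cellIdx (K R b ℓ p : ℕ) : ℕ := ∑ i ∈ range (R + 1), dig K ℓ (dig b i p) * K ^ i

/-- Probability of the spin `e` (`1` = true) at cell `i`. -/
noncomputable def qb (q : ℕ → ℝ) (i e : ℕ) : ℝ := if e = 1 then q i else 1 - q i

/-- Integer version with denominator `U`. -/
def qbN (U : ℕ) (u : ℕ → ℕ) (i e : ℕ) : ℕ := if e = 1 then u i else U - u i

/-- Factor of clause `j` in the site weight, when the site has spin `e`. -/
noncomputable def fac (K R : ℕ) (q : ℕ → ℝ) (t : ℝ) (k s p e j : ℕ) : ℝ :=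
  1 - (1 - t) * (if dig 2 2 (dig 8 j s) = e then 1 else 0) *
    qb q (cellIdx K R (K ^ (2 * k)) (2 * j) p) (dig 2 0 (dig 8 j s)) *
    qb q (cellIdx K R (K ^ (2 * k)) (2 * j + 1) p) (dig 2 1 (dig 8 j s))

def facN (K R U : ℕ) (u : ℕ → ℕ) (T k s p e j : ℕ) : ℕ :=
  T * U ^ 2 - (T - 1) * (if dig 2 2 (dig 8 j s) = e then 1 else 0) *
    qbN U u (cellIdx K R (K ^ (2 * k)) (2 * j) p) (dig 2 0 (dig 8 j s)) *
    qbN U u (cellIdx K R (K ^ (2 * k)) (2 * j + 1) p) (dig 2 1 (dig 8 j s))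

/-- `1 - <site weight>` along the path `p`, for `k` clauses with signs `s`. -/
noncomputable def Ysite (K R : ℕ) (q : ℕ → ℝ) (t : ℝ) (k s p : ℕ) : ℝ :=
  1 - (1 / 2) * t ^ k * ∑ e ∈ range 2, ∏ j ∈ range k, fac K R q t k s p e j

def dsite (U T k : ℕ) : ℕ := 2 * T ^ k * (T * U ^ 2) ^ k

def YsiteN (K R U : ℕ) (u : ℕ → ℕ) (T k s p : ℕ) : ℕ :=
  dsite U T k - ∑ e ∈ range 2, ∏ j ∈ range k, facN K R U u T k s p e j

/-- `1 - <edge weight>` along the path `p`, clause with signs `s < 8`. -/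
noncomputable def Yedge (K R : ℕ) (q : ℕ → ℝ) (t : ℝ) (s p : ℕ) : ℝ :=
  1 - t * (1 - (1 - t) * ∏ i ∈ range 3, qb q (cellIdx K R (K ^ 3) i p) (dig 2 i s))

def dedge (U T : ℕ) : ℕ := T * (T * U ^ 3)

def YedgeN (K R U : ℕ) (u : ℕ → ℕ) (T s p : ℕ) : ℕ :=
  dedge U T - (T * U ^ 3 - (T - 1) * ∏ i ∈ range 3, qbN U u (cellIdx K R (K ^ 3) i p) (dig 2 i s))

/-- Site coefficient (`n + 1` replicas). -/
noncomputable def siteV (K R : ℕ) (c q : ℕ → ℝ) (t : ℝ) (k n : ℕ) : ℝ :=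
  ((8 : ℝ) ^ k)⁻¹ * ∑ s ∈ range (8 ^ k), Ecode (K ^ (2 * k)) R c (Ysite K R q t k s) n

/-- Edge coefficient (`n + 1` replicas). -/
noncomputable def edgeV (K R : ℕ) (c q : ℕ → ℝ) (t : ℝ) (n : ℕ) : ℝ :=
  (8 : ℝ)⁻¹ * ∑ s ∈ range 8, Ecode (K ^ 3) R c (Yedge K R q t s) n

def siteN (K R U : ℕ) (g u : ℕ → ℕ) (T k n : ℕ) : ℕ :=
  ∑ s ∈ range (8 ^ k), EN (K ^ (2 * k)) R g (YsiteN K R U u T k s) n

def edgeN (K R U : ℕ) (g u : ℕ → ℕ) (T n : ℕ) : ℕ :=
  ∑ s ∈ range 8, EN (K ^ 3) R g (YedgeN K R U u T s) n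

section rel
variable {K R U G T : ℕ} {g u : ℕ → ℕ}

theorem qb_eq (hU : 0 < U) (hu : ∀ i, u i ≤ U) (i e : ℕ) :
    qb (fun i => (u i : ℝ) / U) i e = (qbN U u i e : ℝ) / U := by
  have hUR : (U : ℝ) ≠ 0 := by exact_mod_cast hU.ne'
  unfold qb qbN
  split_ifs with h
  · rfl
  · rw [Nat.cast_sub (hu i)]
    field_simp

theorem qbN_le (hu : ∀ i, u i ≤ U) (i e : ℕ) : qbN U u i e ≤ U := by
  unfold qbN
  split_ifs
  · exact hu i
  · exact Nat.sub_le _ _

theorem fac_eq (hU : 0 < U) (hT : 0 < T) (hu : ∀ i, u i ≤ U) (k s p e j : ℕ) :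
    fac K R (fun i => (u i : ℝ) / U) (1 / (T : ℝ)) k s p e j =
      (facN K R U u T k s p e j : ℝ) / ((T * U ^ 2 : ℕ) : ℝ) := by
  have hUR : (U : ℝ) ≠ 0 := by exact_mod_cast hU.ne'
  have hTR : (T : ℝ) ≠ 0 := by exact_mod_cast hT.ne'
  unfold fac facN
  rw [qb_eq hU hu, qb_eq hU hu]
  have h1 := qbN_le hu (cellIdx K R (K ^ (2 * k)) (2 * j) p) (dig 2 0 (dig 8 j s))
  have h2 := qbN_le hu (cellIdx K R (K ^ (2 * k)) (2 * j + 1) p) (dig 2 1 (dig 8 j s))
  generalize qbN U u (cellIdx K R (K ^ (2 * k)) (2 * j) p) (dig 2 0 (dig 8 j s)) = x at *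
  generalize qbN U u (cellIdx K R (K ^ (2 * k)) (2 * j + 1) p) (dig 2 1 (dig 8 j s)) = y at *
  have h3 : (T - 1) * (if dig 2 2 (dig 8 j s) = e then 1 else 0) * x * y ≤ T * U ^ 2 := by
    have e1 : (T - 1) * (if dig 2 2 (dig 8 j s) = e then 1 else 0) ≤ T := by
      split_ifs <;> omega
    calc (T - 1) * (if dig 2 2 (dig 8 j s) = e then 1 else 0) * x * y ≤ T * U * U := by
          gcongr
      _ = T * U ^ 2 := by ring
  rw [Nat.cast_sub h3]
  push_cast [Nat.cast_sub hT]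
  field_simp

theorem facN_le (k s p e j : ℕ) : facN K R U u T k s p e j ≤ T * U ^ 2 := Nat.sub_le _ _

theorem Ysite_eq (hU : 0 < U) (hT : 0 < T) (hu : ∀ i, u i ≤ U) (k s p : ℕ) :
    Ysite K R (fun i => (u i : ℝ) / U) (1 / (T : ℝ)) k s p =
      (YsiteN K R U u T k s p : ℝ) / (dsite U T k : ℝ) := by
  have hUR : (U : ℝ) ≠ 0 := by exact_mod_cast hU.ne'
  have hTR : (T : ℝ) ≠ 0 := by exact_mod_cast hT.ne'
  have h1 : ∀ e, ∏ j ∈ range k, facN K R U u T k s p e j ≤ (T * U ^ 2) ^ k := by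
    intro e
    have := Finset.prod_le_pow_card (range k) (fun j => facN K R U u T k s p e j) (T * U ^ 2)
      (fun j _ => facN_le k s p e j)
    rwa [card_range] at this
  have hTk : 1 ≤ T ^ k := Nat.one_le_pow _ _ hT
  have h2 : ∑ e ∈ range 2, ∏ j ∈ range k, facN K R U u T k s p e j ≤ dsite U T k := by
    unfold dsite
    rw [sum_range_succ, sum_range_one]
    have h0' := h1 0
    have h1' := h1 1
    calc _ ≤ 2 * (T * U ^ 2) ^ k := by omega
      _ = 2 * 1 * (T * U ^ 2) ^ k := by ring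
      _ ≤ 2 * T ^ k * (T * U ^ 2) ^ k := by gcongr
  unfold Ysite YsiteN
  rw [Nat.cast_sub h2]
  simp only [fac_eq hU hT hu, Finset.prod_div_distrib, Finset.prod_const, card_range]
  rw [← Finset.sum_div, one_div (T : ℝ), inv_pow]
  unfold dsite
  push_cast
  have hTk' : (T : ℝ) ^ k ≠ 0 := pow_ne_zero _ hTR
  have hTUk : ((T : ℝ) * (U : ℝ) ^ 2) ^ k ≠ 0 := by positivity
  generalize ((T : ℝ) * (U : ℝ) ^ 2) ^ k = A at *
  generalize (T : ℝ) ^ k = B at *
  field_simp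

theorem Yedge_eq (hU : 0 < U) (hT : 0 < T) (hu : ∀ i, u i ≤ U) (s p : ℕ) :
    Yedge K R (fun i => (u i : ℝ) / U) (1 / (T : ℝ)) s p =
      (YedgeN K R U u T s p : ℝ) / (dedge U T : ℝ) := by
  have hUR : (U : ℝ) ≠ 0 := by exact_mod_cast hU.ne'
  have hTR : (T : ℝ) ≠ 0 := by exact_mod_cast hT.ne'
  unfold Yedge YedgeN
  simp only [qb_eq hU hu, Finset.prod_div_distrib, Finset.prod_const, card_range]
  have h1 : ∏ i ∈ range 3, qbN U u (cellIdx K R (K ^ 3) i p) (dig 2 i s) ≤ U ^ 3 := by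
    have := Finset.prod_le_pow_card (range 3)
      (fun i => qbN U u (cellIdx K R (K ^ 3) i p) (dig 2 i s)) U (fun j _ => qbN_le hu _ _)
    rwa [card_range] at this
  rw [← Nat.cast_prod]
  generalize ∏ i ∈ range 3, qbN U u (cellIdx K R (K ^ 3) i p) (dig 2 i s) = x at *
  have h2 : (T - 1) * x ≤ T * U ^ 3 := Nat.mul_le_mul (Nat.sub_le _ _) h1
  have h3 : T * U ^ 3 - (T - 1) * x ≤ dedge U T := by
    unfold dedge
    refine (Nat.sub_le _ _).trans ?_
    exact Nat.le_mul_of_pos_left _ hT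
  rw [Nat.cast_sub h3, Nat.cast_sub h2]
  unfold dedge
  push_cast [Nat.cast_sub hT]
  field_simp

theorem siteV_eq (hK : 0 < K) (hU : 0 < U) (hT : 0 < T) (hG : 0 < G) (hu : ∀ i, u i ≤ U)
    (k n : ℕ) :
    siteV K R (fun J => (g J : ℝ) / G) (fun i => (u i : ℝ) / U) (1 / (T : ℝ)) k n =
      (siteN K R U g u T k n : ℝ) /
        ((8 ^ k * (n.factorial * G ^ n * ((K ^ (2 * k)) ^ (R + 1)) ^ (n + 1) *
          (dsite U T k) ^ (n + 1)) : ℕ) : ℝ) := by
  have hd : 0 < dsite U T k := by unfold dsite; positivity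
  unfold siteV siteN
  have h1 : ∀ s, Ecode (K ^ (2 * k)) R (fun J => (g J : ℝ) / G)
      (Ysite K R (fun i => (u i : ℝ) / U) (1 / (T : ℝ)) k s) n =
      (EN (K ^ (2 * k)) R g (YsiteN K R U u T k s) n : ℝ) *
        ((n.factorial * G ^ n * ((K ^ (2 * k)) ^ (R + 1)) ^ (n + 1) *
          (dsite U T k) ^ (n + 1) : ℕ) : ℝ)⁻¹ := by
    intro s
    have e1 : Ysite K R (fun i => (u i : ℝ) / U) (1 / (T : ℝ)) k s =
        fun p => (YsiteN K R U u T k s p : ℝ) / (dsite U T k : ℝ) := by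
      funext p
      exact Ysite_eq hU hT hu k s p
    rw [e1, Ecode_eq_EN _ _ (by positivity) _ _ _ _ hG hd, div_eq_mul_inv]
  simp only [h1]
  rw [← Finset.sum_mul]
  push_cast
  rw [div_eq_mul_inv, mul_inv ((8 : ℝ) ^ k)]
  ring

theorem edgeV_eq (hK : 0 < K) (hU : 0 < U) (hT : 0 < T) (hG : 0 < G) (hu : ∀ i, u i ≤ U)
    (n : ℕ) :
    edgeV K R (fun J => (g J : ℝ) / G) (fun i => (u i : ℝ) / U) (1 / (T : ℝ)) n =
      (edgeN K R U g u T n : ℝ) /
        ((8 * (n.factorial * G ^ n * ((K ^ 3) ^ (R + 1)) ^ (n + 1) *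
          (dedge U T) ^ (n + 1)) : ℕ) : ℝ) := by
  have hd : 0 < dedge U T := by unfold dedge; positivity
  unfold edgeV edgeN
  have h1 : ∀ s, Ecode (K ^ 3) R (fun J => (g J : ℝ) / G)
      (Yedge K R (fun i => (u i : ℝ) / U) (1 / (T : ℝ)) s) n =
      (EN (K ^ 3) R g (YedgeN K R U u T s) n : ℝ) *
        ((n.factorial * G ^ n * ((K ^ 3) ^ (R + 1)) ^ (n + 1) *
          (dedge U T) ^ (n + 1) : ℕ) : ℝ)⁻¹ := by
    intro s
    have e1 : Yedge K R (fun i => (u i : ℝ) / U) (1 / (T : ℝ)) s =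
        fun p => (YedgeN K R U u T s p : ℝ) / (dedge U T : ℝ) := by
      funext p
      exact Yedge_eq hU hT hu s p
    rw [e1, Ecode_eq_EN _ _ (by positivity) _ _ _ _ hG hd, div_eq_mul_inv]
  simp only [h1]
  rw [← Finset.sum_mul]
  push_cast
  rw [div_eq_mul_inv, mul_inv (8 : ℝ)]
  ring

end rel

section prim
variable {α : Type*} [Primcodable α]

theorem primrec_cellIdx {K R b l p : α → ℕ} (hK : Primrec K) (hR : Primrec R) (hb : Primrec b)
    (hl : Primrec l) (hp : Primrec p) :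
    Primrec fun a => cellIdx (K a) (R a) (b a) (l a) (p a) := by
  unfold cellIdx
  refine P.sum (by prim) ?_
  have h0 : Primrec fun x : α × ℕ => x.1 := by prim
  have h1 := hK.comp h0
  have h2 := hb.comp h0
  have h3 := hl.comp h0
  have h4 := hp.comp h0
  have h5 : Primrec fun x : α × ℕ => x.2 := by prim
  exact P.mul (primrec_dig h1 h3 (primrec_dig h2 h5 h4)) (P.pow h1 h5)

theorem primrec_qbN {U : α → ℕ} {u : α → ℕ → ℕ} (hU : Primrec U)
    (hu : Primrec fun x : α × ℕ => u x.1 x.2) {i e : α → ℕ} (hi : Primrec i) (he : Primrec e) :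
    Primrec fun a => qbN (U a) (u a) (i a) (e a) := by
  unfold qbN
  have h1 := P.app2 hu (P.id' (α := α)) hi
  have h2 : PrimrecPred fun a => e a = 1 := P.eq he (Primrec.const 1)
  exact P.ite h2 h1 (P.sub hU h1)

theorem primrec_facN {K R U T : α → ℕ} {u : α → ℕ → ℕ} (hK : Primrec K) (hR : Primrec R)
    (hU : Primrec U) (hu : Primrec fun x : α × ℕ => u x.1 x.2) (hT : Primrec T)
    {k s p e j : α → ℕ} (hk : Primrec k) (hs : Primrec s) (hp : Primrec p) (he : Primrec e)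
    (hj : Primrec j) :
    Primrec fun a => facN (K a) (R a) (U a) (u a) (T a) (k a) (s a) (p a) (e a) (j a) := by
  unfold facN
  have c : ∀ n : ℕ, Primrec fun _ : α => n := fun n => Primrec.const n
  have hd := primrec_dig (c 8) hj hs
  have hb : Primrec fun a => K a ^ (2 * k a) := by prim
  have h2j : Primrec fun a => 2 * j a := by prim
  have h2j1 : Primrec fun a => 2 * j a + 1 := by prim
  have h1 := primrec_qbN hU hu (primrec_cellIdx hK hR hb h2j hp) (primrec_dig (c 2) (c 0) hd)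
  have h2 := primrec_qbN hU hu (primrec_cellIdx hK hR hb h2j1 hp) (primrec_dig (c 2) (c 1) hd)
  have h3 : PrimrecPred fun a => dig 2 2 (dig 8 (j a) (s a)) = e a :=
    P.eq (primrec_dig (c 2) (c 2) hd) he
  exact P.sub (P.mul hT (P.pow hU (c 2))) (P.mul (P.mul (P.mul (P.sub hT (c 1))
    (P.ite h3 (c 1) (c 0))) h1) h2)

theorem primrec_dsite {U T k : α → ℕ} (hU : Primrec U) (hT : Primrec T) (hk : Primrec k) :
    Primrec fun a => dsite (U a) (T a) (k a) := by
  unfold dsite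
  prim

theorem primrec_dedge {U T : α → ℕ} (hU : Primrec U) (hT : Primrec T) :
    Primrec fun a => dedge (U a) (T a) := by
  unfold dedge
  prim

theorem primrec_YsiteN {K R U T : α → ℕ} {u : α → ℕ → ℕ} (hK : Primrec K) (hR : Primrec R)
    (hU : Primrec U) (hu : Primrec fun x : α × ℕ => u x.1 x.2) (hT : Primrec T)
    {k s p : α → ℕ} (hk : Primrec k) (hs : Primrec s) (hp : Primrec p) :
    Primrec fun a => YsiteN (K a) (R a) (U a) (u a) (T a) (k a) (s a) (p a) := by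
  unfold YsiteN
  refine P.sub (primrec_dsite hU hT hk) (P.sum (by prim) (P.prod ?_ ?_))
  · have h0 : Primrec fun x : α × ℕ => x.1 := by prim
    exact hk.comp h0
  · have h0 : Primrec fun x : (α × ℕ) × ℕ => x.1.1 := by prim
    have he : Primrec fun x : (α × ℕ) × ℕ => x.1.2 := by prim
    have hj : Primrec fun x : (α × ℕ) × ℕ => x.2 := by prim
    have hu' : Primrec fun x : ((α × ℕ) × ℕ) × ℕ => u x.1.1.1 x.2 :=
      P.app2 hu (by prim) (by prim)
    exact primrec_facN (u := fun x : (α × ℕ) × ℕ => u x.1.1) (hK.comp h0) (hR.comp h0)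
      (hU.comp h0) hu' (hT.comp h0) (hk.comp h0) (hs.comp h0) (hp.comp h0) he hj

theorem primrec_YedgeN {K R U T : α → ℕ} {u : α → ℕ → ℕ} (hK : Primrec K) (hR : Primrec R)
    (hU : Primrec U) (hu : Primrec fun x : α × ℕ => u x.1 x.2) (hT : Primrec T)
    {s p : α → ℕ} (hs : Primrec s) (hp : Primrec p) :
    Primrec fun a => YedgeN (K a) (R a) (U a) (u a) (T a) (s a) (p a) := by
  unfold YedgeN
  have c : ∀ n : ℕ, Primrec fun _ : α => n := fun n => Primrec.const n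
  refine P.sub (primrec_dedge hU hT) (P.sub (by prim) (P.mul (by prim) (P.prod (by prim) ?_)))
  have h0 : Primrec fun x : α × ℕ => x.1 := by prim
  have hi : Primrec fun x : α × ℕ => x.2 := by prim
  have hu' : Primrec fun x : (α × ℕ) × ℕ => u x.1.1 x.2 := P.app2 hu (by prim) (by prim)
  have hb : Primrec fun x : α × ℕ => K x.1 ^ 3 := P.pow (hK.comp h0) (Primrec.const 3)
  exact primrec_qbN (u := fun x : α × ℕ => u x.1) (hU.comp h0) hu'
    (primrec_cellIdx (hK.comp h0) (hR.comp h0) hb hi (hp.comp h0))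
    (primrec_dig (Primrec.const 2) hi (hs.comp h0))

theorem primrec_siteN {K R U T : α → ℕ} {g u : α → ℕ → ℕ} (hK : Primrec K) (hR : Primrec R)
    (hU : Primrec U) (hg : Primrec fun x : α × ℕ => g x.1 x.2)
    (hu : Primrec fun x : α × ℕ => u x.1 x.2) (hT : Primrec T)
    {k n : α → ℕ} (hk : Primrec k) (hn : Primrec n) :
    Primrec fun a => siteN (K a) (R a) (U a) (g a) (u a) (T a) (k a) (n a) := by
  unfold siteN
  refine P.sum (by prim) ?_
  have h0 : Primrec fun x : α × ℕ => x.1 := by prim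
  have hs : Primrec fun x : α × ℕ => x.2 := by prim
  have hg' : Primrec fun x : (α × ℕ) × ℕ => g x.1.1 x.2 := P.app2 hg (by prim) (by prim)
  have hb : Primrec fun x : α × ℕ => K x.1 ^ (2 * k x.1) :=
    P.pow (hK.comp h0) (P.mul (Primrec.const 2) (hk.comp h0))
  refine primrec_EN (g := fun x : α × ℕ => g x.1)
    (y := fun x : α × ℕ => YsiteN (K x.1) (R x.1) (U x.1) (u x.1) (T x.1) (k x.1) x.2)
    hb (hR.comp h0) hg' ?_ (hn.comp h0)
  have h1 : Primrec fun x : (α × ℕ) × ℕ => x.1.1 := by prim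
  have h2 : Primrec fun x : (α × ℕ) × ℕ => x.1.2 := by prim
  have h3 : Primrec fun x : (α × ℕ) × ℕ => x.2 := by prim
  have hu' : Primrec fun x : ((α × ℕ) × ℕ) × ℕ => u x.1.1.1 x.2 := P.app2 hu (by prim) (by prim)
  exact primrec_YsiteN (u := fun x : (α × ℕ) × ℕ => u x.1.1) (hK.comp h1) (hR.comp h1)
    (hU.comp h1) hu' (hT.comp h1) (hk.comp h1) h2 h3

theorem primrec_edgeN {K R U T : α → ℕ} {g u : α → ℕ → ℕ} (hK : Primrec K) (hR : Primrec R)
    (hU : Primrec U) (hg : Primrec fun x : α × ℕ => g x.1 x.2)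
    (hu : Primrec fun x : α × ℕ => u x.1 x.2) (hT : Primrec T)
    {n : α → ℕ} (hn : Primrec n) :
    Primrec fun a => edgeN (K a) (R a) (U a) (g a) (u a) (T a) (n a) := by
  unfold edgeN
  refine P.sum (by prim) ?_
  have h0 : Primrec fun x : α × ℕ => x.1 := by prim
  have hs : Primrec fun x : α × ℕ => x.2 := by prim
  have hg' : Primrec fun x : (α × ℕ) × ℕ => g x.1.1 x.2 := P.app2 hg (by prim) (by prim)
  have hb : Primrec fun x : α × ℕ => K x.1 ^ 3 := P.pow (hK.comp h0) (Primrec.const 3)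
  refine primrec_EN (g := fun x : α × ℕ => g x.1)
    (y := fun x : α × ℕ => YedgeN (K x.1) (R x.1) (U x.1) (u x.1) (T x.1) x.2)
    hb (hR.comp h0) hg' ?_ (hn.comp h0)
  have h1 : Primrec fun x : (α × ℕ) × ℕ => x.1.1 := by prim
  have h2 : Primrec fun x : (α × ℕ) × ℕ => x.1.2 := by prim
  have h3 : Primrec fun x : (α × ℕ) × ℕ => x.2 := by prim
  have hu' : Primrec fun x : ((α × ℕ) × ℕ) × ℕ => u x.1.1.1 x.2 := P.app2 hu (by prim) (by prim)
  exact primrec_YedgeN (u := fun x : (α × ℕ) × ℕ => u x.1.1) (hK.comp h1) (hR.comp h1)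
    (hU.comp h1) hu' (hT.comp h1) h2 h3

end prim

end Crest.Agent.RC
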