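import Crest.Agent.RC.Trunc
import Crest.Agent.RC.ECode
import Crest.Agent.MP.UMom
import Crest.Agent.RH.Defs

/-!
# Row 153 (S0218), computability part: the functional of a finite trial on codes
-/

set_option autoImplicit false

namespace Crest.Agent.RC

open Finset Filter Topology Crest.Agent.MP Crest.Agent.RS Crest.ProbabilityR.Diluted

/-- level weights of a trial -/
noncomputable def tc (t : FinTrial) (J : ℕ) : ℝ := lev t.m (J + 1) - lev t.m J

/-- spin probabilities of a trial -/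
noncomputable def tq (t : FinTrial) (i : ℕ) : ℝ :=
  tilt (t.X (fun j => ⟨dig t.K j i, dig_lt t.hK _ _⟩)) true

/-- the interaction of a clause with required-false pattern `e` -/
noncomputable def thE (τ : ℝ) (e : Fin 3 → Bool) : Inter 3 :=
  fun s => Real.log (1 + (τ - 1) * ∏ ℓ, if s ℓ = e ℓ then (1 : ℝ) else 0)

theorem prod_ind (s e : Fin 3 → Bool) :
    (∏ ℓ, if s ℓ = e ℓ then (1 : ℝ) else 0) = if s = e then 1 else 0 := by
  rw [Finset.prod_ite_zero]
  simp [funext_iff]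

theorem exp_thE {τ : ℝ} (h0 : 0 < τ) (e s : Fin 3 → Bool) :
    Real.exp (thE τ e s) = 1 - (1 - τ) * (if s = e then 1 else 0) := by
  unfold thE
  rw [prod_ind, Real.exp_log]
  · ring
  · split_ifs <;> linarith

theorem supNorm_thE {τ : ℝ} (h0 : 0 < τ) (h1 : τ < 1) (e : Fin 3 → Bool) :
    supNorm (thE τ e) = -Real.log τ := by
  have hlog : Real.log τ < 0 := Real.log_neg h0 h1
  have hv : ∀ s, |thE τ e s| = if s = e then -Real.log τ else 0 := by
    intro s
    unfold thE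
    rw [prod_ind]
    split_ifs with h
    · rw [mul_one, add_sub_cancel, abs_of_neg hlog]
    · simp
  unfold supNorm
  apply le_antisymm
  · refine ciSup_le fun s => ?_
    rw [hv]
    split_ifs <;> linarith
  · have := le_ciSup (f := fun s => |thE τ e s|) (Set.finite_range _).bddAbove e
    rw [hv, if_pos rfl] at this
    exact this

theorem tilt_sum (x : ℝ) : tilt x true + tilt x false = 1 := by
  unfold tilt spinVal
  have h : Real.cosh x = (Real.exp x + Real.exp (-x)) / 2 := Real.cosh_eq x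
  have hp : 0 < Real.cosh x := Real.cosh_pos x
  simp only [if_true, Bool.false_eq_true, if_false, mul_one, mul_neg]
  rw [← add_div, div_eq_one_iff_eq (by positivity), h]
  ring

theorem tilt_nonneg (x : ℝ) (s : Bool) : 0 ≤ tilt x s := by
  unfold tilt
  have : 0 < Real.cosh x := Real.cosh_pos x
  positivity

theorem sum_tilt (x : ℝ) : ∑ s : Bool, tilt x s = 1 := by
  rw [Fintype.sum_bool, tilt_sum]

theorem edge_avg {τ : ℝ} (h0 : 0 < τ) (h1 : τ < 1) (e : Fin 3 → Bool) (x : Fin 3 → ℝ) :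
    ∑ c : Fin 3 → Bool, (∏ ℓ, tilt (x ℓ) (c ℓ)) * edgeψ (thE τ e) c =
      τ * (1 - (1 - τ) * ∏ ℓ, tilt (x ℓ) (e ℓ)) := by
  have h2 : ∀ c : Fin 3 → Bool, edgeψ (thE τ e) c = τ * (1 - (1 - τ) * (if c = e then 1 else 0)) := by
    intro c
    unfold edgeψ
    rw [supNorm_thE h0 h1, sub_neg_eq_add, Real.exp_add, exp_thE h0, Real.exp_log h0, mul_comm]
  have h3 : ∀ c : Fin 3 → Bool, (∏ ℓ, tilt (x ℓ) (c ℓ)) * edgeψ (thE τ e) c =
      τ * ∏ ℓ, tilt (x ℓ) (c ℓ) - (τ * (1 - τ)) * (if c = e then ∏ ℓ, tilt (x ℓ) (c ℓ) else 0) := by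
    intro c
    rw [h2]
    split_ifs <;> ring
  rw [Finset.sum_congr rfl fun c _ => h3 c, Finset.sum_sub_distrib, ← Finset.mul_sum,
    ← Finset.mul_sum, Finset.sum_ite_eq' Finset.univ e, if_pos (Finset.mem_univ _)]
  have h4 : ∑ c : Fin 3 → Bool, ∏ ℓ, tilt (x ℓ) (c ℓ) = 1 := by
    rw [← Fintype.piFinset_univ, ← Finset.prod_univ_sum]
    simp [tilt_sum]
  rw [h4]
  ring

/-- the two first spins of a clause -/
theorem two_avg (x0 x1 : ℝ) (a b : ℝ) (e0 e1 : Bool) :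
    ∑ c : Fin 2 → Bool, (tilt x0 (c 0) * tilt x1 (c 1)) *
      (a * (1 - b * (if c 0 = e0 ∧ c 1 = e1 then 1 else 0))) =
      a * (1 - b * (tilt x0 e0 * tilt x1 e1)) := by
  have h3 : ∀ c : Fin 2 → Bool, (tilt x0 (c 0) * tilt x1 (c 1)) *
      (a * (1 - b * (if c 0 = e0 ∧ c 1 = e1 then 1 else 0))) =
      a * (tilt x0 (c 0) * tilt x1 (c 1)) -
        (a * b) * (if c = ![e0, e1] then tilt x0 (c 0) * tilt x1 (c 1) else 0) := by
    intro c
    have : (c 0 = e0 ∧ c 1 = e1) ↔ c = ![e0, e1] := by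
      constructor
      · rintro ⟨h1, h2⟩
        funext i
        fin_cases i
        · exact h1
        · exact h2
      · rintro rfl
        exact ⟨rfl, rfl⟩
    simp only [this]
    split_ifs <;> ring
  rw [Finset.sum_congr rfl fun c _ => h3 c, Finset.sum_sub_distrib, ← Finset.mul_sum,
    ← Finset.mul_sum, Finset.sum_ite_eq' Finset.univ ![e0, e1], if_pos (Finset.mem_univ _)]
  have h4 : ∑ c : Fin 2 → Bool, tilt x0 (c 0) * tilt x1 (c 1) = 1 := by
    have : ∀ c : Fin 2 → Bool, tilt x0 (c 0) * tilt x1 (c 1) = ∏ i, tilt (![x0, x1] i) (c i) := by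
      intro c
      rw [Fin.prod_univ_two]
      rfl
    simp only [this]
    rw [← Fintype.piFinset_univ, ← Finset.prod_univ_sum]
    simp [tilt_sum]
  rw [h4]
  simp only [Matrix.cons_val_zero, Matrix.cons_val_one]
  ring

theorem site_exp {τ : ℝ} (h0 : 0 < τ) (h1 : τ < 1) {k : ℕ} (es : Fin k → Fin 3 → Bool)
    (c : Fin k × Fin (3 - 1) → Bool) :
    siteψ 0 (fun j => thE τ (es j)) c = (1 / 2) * ∑ ε : Bool, ∏ j : Fin k,
      τ * (1 - ((1 - τ) * (if ε = es j 2 then 1 else 0)) *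
        (if c (j, (0 : Fin 2)) = es j 0 ∧ c (j, (1 : Fin 2)) = es j 1 then 1 else 0)) := by
  unfold siteψ siteC
  congr 1
  refine Finset.sum_congr rfl fun ε _ => ?_
  simp only [supNorm_thE h0 h1, zero_mul, abs_zero, zero_add]
  rw [← Finset.sum_sub_distrib, Real.exp_sum]
  refine Finset.prod_congr rfl fun j _ => ?_
  rw [sub_neg_eq_add, Real.exp_add, exp_thE h0, Real.exp_log h0, mul_comm]
  congr 2
  rw [mul_assoc]
  congr 1
  rw [ite_mul, one_mul, zero_mul, ← ite_and]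
  refine if_congr ?_ rfl rfl
  constructor
  · intro h
    have e0 := congrFun h 0
    have e1 := congrFun h 1
    have e2 := congrFun h 2
    simp at e0 e1 e2
    exact ⟨e2, e0, e1⟩
  · rintro ⟨e2, e0, e1⟩
    funext i
    fin_cases i
    · simpa using e0
    · simpa using e1
    · simpa using e2

theorem site_avg {τ : ℝ} (h0 : 0 < τ) (h1 : τ < 1) {k : ℕ} (es : Fin k → Fin 3 → Bool)
    (x : Fin k × Fin 2 → ℝ) :
    ∑ c : Fin k × Fin (3 - 1) → Bool, (∏ ℓ, tilt (x ℓ) (c ℓ)) *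
      siteψ 0 (fun j => thE τ (es j)) c =
      (1 / 2) * ∑ ε : Bool, ∏ j, τ * (1 - ((1 - τ) * (if ε = es j 2 then 1 else 0)) *
        (tilt (x (j, 0)) (es j 0) * tilt (x (j, 1)) (es j 1))) := by
  simp only [site_exp h0 h1]
  change ∑ c : Fin k × Fin 2 → Bool, (∏ ℓ, tilt (x ℓ) (c ℓ)) * ((1 / 2) * ∑ ε : Bool, ∏ j : Fin k,
      τ * (1 - ((1 - τ) * (if ε = es j 2 then 1 else 0)) *
        (if c (j, (0 : Fin 2)) = es j 0 ∧ c (j, (1 : Fin 2)) = es j 1 then 1 else 0))) = _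
  have e1 : ∀ c : Fin k × Fin 2 → Bool, (∏ ℓ, tilt (x ℓ) (c ℓ)) * ((1 / 2) * ∑ ε : Bool, ∏ j : Fin k,
      τ * (1 - ((1 - τ) * (if ε = es j 2 then 1 else 0)) *
        (if c (j, (0 : Fin 2)) = es j 0 ∧ c (j, (1 : Fin 2)) = es j 1 then 1 else 0))) =
      ∑ ε : Bool, (1 / 2) * ∏ j : Fin k, ((tilt (x (j, 0)) (c (j, 0)) * tilt (x (j, 1)) (c (j, 1))) *
        (τ * (1 - ((1 - τ) * (if ε = es j 2 then 1 else 0)) *
        (if c (j, (0 : Fin 2)) = es j 0 ∧ c (j, (1 : Fin 2)) = es j 1 then 1 else 0)))) := by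
    intro c
    rw [Finset.mul_sum, Finset.mul_sum]
    refine Finset.sum_congr rfl fun ε _ => ?_
    rw [Fintype.prod_prod_type]
    simp only [Fin.prod_univ_two]
    rw [mul_left_comm, ← Finset.prod_mul_distrib]
  rw [Finset.sum_congr rfl fun c _ => e1 c, Finset.sum_comm, Finset.mul_sum]
  refine Finset.sum_congr rfl fun ε _ => ?_
  rw [← Finset.mul_sum]
  congr 1
  rw [← Equiv.sum_comp (Equiv.curry (Fin k) (Fin 2) Bool).symm]
  simp only [Equiv.curry_symm_apply, Function.uncurry_apply_pair]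
  have e2 : ∀ j : Fin k, τ * (1 - ((1 - τ) * (if ε = es j 2 then 1 else 0)) *
        (tilt (x (j, 0)) (es j 0) * tilt (x (j, 1)) (es j 1))) =
      ∑ c : Fin 2 → Bool, (tilt (x (j, 0)) (c 0) * tilt (x (j, 1)) (c 1)) *
        (τ * (1 - ((1 - τ) * (if ε = es j 2 then 1 else 0)) *
          (if c 0 = es j 0 ∧ c 1 = es j 1 then 1 else 0))) := by
    intro j
    rw [two_avg]
  simp only [e2]
  rw [Finset.prod_univ_sum, Fintype.piFinset_univ]


/-! ### Codes of labels and signs -/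

/-- code of the values of all labels -/
def eL {L : Type} {d K : ℕ} (σ : L ≃ Fin d) : (L → Fin K) ≃ Fin (K ^ d) :=
  (Equiv.arrowCongr σ (Equiv.refl _)).trans finFunctionFinEquiv

theorem dig_eL {L : Type} {d K : ℕ} (σ : L ≃ Fin d) (v : L → Fin K) (ℓ : L) :
    dig K (σ ℓ) (eL σ v : ℕ) = v ℓ := by
  have h := dig_ofD (fun i => v (σ.symm i)) (σ ℓ)
  rw [Equiv.symm_apply_apply] at h
  exact h

theorem cellIdx_pcode {L : Type} {d K : ℕ} (σ : L ≃ Fin d) (R : ℕ) (u : ℕ → L → Fin K) (ℓ : L) :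
    cellIdx K R (K ^ d) (σ ℓ) (pcode (eL σ) R u) = ofD (k := R + 1) (fun i => u i ℓ) := by
  unfold cellIdx pcode
  rw [ofD_eq_sum (fun i : Fin (R + 1) => u i ℓ), Finset.sum_range]
  refine Finset.sum_congr rfl fun i _ => ?_
  rw [dig_ofD, dig_eL]

theorem tq_ofD (t : FinTrial) (v : Fin (t.r + 1) → Fin t.K) :
    tq t (ofD v) = tilt (t.X v) true := by
  unfold tq
  congr 2
  funext j
  apply Fin.ext
  exact dig_ofD v j

/-- bit of a Boolean -/
def bt (b : Bool) : ℕ := if b then 1 else 0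

theorem qb_tq (t : FinTrial) (v : Fin (t.r + 1) → Fin t.K) (b : Bool) :
    qb (tq t) (ofD v) (bt b) = tilt (t.X v) b := by
  unfold qb bt
  rw [tq_ofD]
  have := tilt_sum (t.X v)
  cases b
  · simp only [Bool.false_eq_true, if_false, zero_ne_one]
    linarith
  · simp

/-- code of three signs -/
def g8 (e : Fin 3 → Bool) : Fin 8 :=
  ⟨ofD (k := 3) (b := 2) (fun i => if e i then 1 else 0), lt_of_lt_of_eq (ofD_lt _) (by norm_num)⟩

theorem dig_g8 (e : Fin 3 → Bool) (i : Fin 3) : dig 2 i (g8 e : ℕ) = bt (e i) := by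
  unfold g8
  have h := dig_ofD (k := 3) (b := 2) (fun i => if e i then 1 else 0) i
  simp only at h ⊢
  rw [h]
  unfold bt
  split_ifs <;> rfl

theorem g8_injective : Function.Injective g8 := by
  intro e e' h
  funext i
  have h1 := dig_g8 e i
  rw [h, dig_g8] at h1
  unfold bt at h1
  cases h2 : e i <;> cases h3 : e' i <;> simp_all

theorem g8_bijective : Function.Bijective g8 := by
  rw [Fintype.bijective_iff_injective_and_card]
  exact ⟨g8_injective, by simp⟩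

/-- code of the signs of `k` clauses -/
def scode {k : ℕ} (es : Fin k → Fin 3 → Bool) : ℕ := ofD (b := 8) (fun j => g8 (es j))

theorem dig_scode {k : ℕ} (es : Fin k → Fin 3 → Bool) (j : Fin k) (i : Fin 3) :
    dig 2 i (dig 8 j (scode es)) = bt (es j i) := by
  unfold scode
  rw [dig_ofD, dig_g8]

theorem sum_scode {k : ℕ} (F : ℕ → ℝ) :
    ∑ s ∈ range (8 ^ k), F s = ∑ es : Fin k → Fin 3 → Bool, F (scode es) := by
  rw [sum_range_ofD]
  let e : (Fin 3 → Bool) ≃ Fin 8 := Equiv.ofBijective g8 g8_bijective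
  exact (Equiv.sum_comp (Equiv.arrowCongr (Equiv.refl (Fin k)) e)
    (fun f : Fin k → Fin 8 => F (ofD f))).symm

theorem sum_g8 (F : ℕ → ℝ) : ∑ s ∈ range 8, F s = ∑ e : Fin 3 → Bool, F (g8 e) := by
  rw [Finset.sum_range]
  let e : (Fin 3 → Bool) ≃ Fin 8 := Equiv.ofBijective g8 g8_bijective
  exact (Equiv.sum_comp e (fun f : Fin 8 => F f)).symm

/-- index of a site label -/
def σs (k : ℕ) : Fin k × Fin 2 ≃ Fin (2 * k) := finProdFinEquiv.trans (finCongr (mul_comm k 2))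

theorem σs_zero (k : ℕ) (j : Fin k) : ((σs k (j, 0) : Fin (2 * k)) : ℕ) = 2 * j := by
  unfold σs
  simp [finProdFinEquiv]

theorem σs_one (k : ℕ) (j : Fin k) : ((σs k (j, 1) : Fin (2 * k)) : ℕ) = 2 * j + 1 := by
  unfold σs
  simp [finProdFinEquiv]
  ring

theorem Ysite_path (t : FinTrial) {τ : ℝ} (h0 : 0 < τ) (h1 : τ < 1) {k : ℕ}
    (es : Fin k → Fin 3 → Bool) (u : ℕ → (Fin k × Fin (3 - 1)) → Fin t.K) :
    1 - ∑ c : Fin k × Fin (3 - 1) → Bool, (∏ ℓ, tilt (t.X (fun j => u j ℓ)) (c ℓ)) *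
      siteψ 0 (fun j => thE τ (es j)) c =
    Ysite t.K t.r (tq t) τ k (scode es) (pcode (eL (σs k)) t.r u) := by
  rw [site_avg h0 h1 es (fun ℓ => t.X (fun j => u j ℓ))]
  unfold Ysite
  have key : ∀ (ε : Bool), ∏ j ∈ range k, fac t.K t.r (tq t) τ k (scode es)
      (pcode (eL (σs k)) t.r u) (bt ε) j = ∏ j : Fin k, (1 - ((1 - τ) * (if ε = es j 2 then 1 else 0)) *
        (tilt (t.X (fun i => u i (j, 0))) (es j 0) * tilt (t.X (fun i => u i (j, 1))) (es j 1))) := by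
    intro ε
    rw [Finset.prod_range]
    refine Finset.prod_congr rfl fun j _ => ?_
    unfold fac
    have d0 := dig_scode es j 0
    have d1 := dig_scode es j 1
    have d2 := dig_scode es j 2
    simp only [Fin.isValue, Fin.val_zero, Fin.val_one, Fin.val_two] at d0 d1 d2
    rw [d0, d1, d2, ← σs_one, ← σs_zero, cellIdx_pcode, cellIdx_pcode, qb_tq, qb_tq, ← mul_assoc]
    congr 4
    refine if_congr ?_ rfl rfl
    unfold bt
    cases es j 2 <;> cases ε <;> simp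
  rw [sum_range_succ, sum_range_one, Fintype.sum_bool]
  have k0 := key false
  have k1 := key true
  simp only [bt, Bool.false_eq_true, if_false, if_true] at k0 k1
  rw [k0, k1]
  simp only [Finset.prod_mul_distrib, Finset.prod_const, Finset.card_univ, Fintype.card_fin]
  ring

theorem Yedge_path (t : FinTrial) {τ : ℝ} (h0 : 0 < τ) (h1 : τ < 1)
    (e : Fin 3 → Bool) (u : ℕ → Fin 3 → Fin t.K) :
    1 - ∑ c : Fin 3 → Bool, (∏ ℓ, tilt (t.X (fun j => u j ℓ)) (c ℓ)) * edgeψ (thE τ e) c =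
    Yedge t.K t.r (tq t) τ (g8 e) (pcode (eL (Equiv.refl (Fin 3))) t.r u) := by
  rw [edge_avg h0 h1 e (fun ℓ => t.X (fun j => u j ℓ))]
  unfold Yedge
  congr 4
  rw [Finset.prod_range]
  refine Finset.prod_congr rfl fun i _ => ?_
  have h := cellIdx_pcode (Equiv.refl (Fin 3)) t.r u i
  rw [Equiv.refl_apply] at h
  rw [h, dig_g8, qb_tq]


/-! ### The functional -/

theorem Lfun_site (t : FinTrial) {τ : ℝ} (h0 : 0 < τ) (h1 : τ < 1) {k : ℕ}
    (es : Fin k → Fin 3 → Bool) :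
    Lfun (genE (lev t.m) t.r) t.D (Fin k × Fin (3 - 1)) (siteψ 0 (fun j => thE τ (es j))) =
      - ∑' n : ℕ, Ecode (t.K ^ (2 * k)) t.r (tc t) (Ysite t.K t.r (tq t) τ k (scode es)) n /
        ((n : ℝ) + 1) := by
  have hne : Nonempty (Fin t.K) := ⟨⟨0, t.hK⟩⟩
  unfold Lfun
  congr 1
  refine tsum_congr fun n => ?_
  rw [mom_eq_E]
  have h2 : (fun s : ℕ → ℕ → Fin k × Fin (3 - 1) → Fin t.K =>
      ∏ a ∈ range (n + 1), (1 - ∑ c : Fin k × Fin (3 - 1) → Bool,
          (∏ ℓ, tilt (t.X (fun j => s a j ℓ)) (c ℓ)) * siteψ 0 (fun j => thE τ (es j)) c)) =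
      fun s => ∏ a ∈ range (n + 1),
        Ysite t.K t.r (tq t) τ k (scode es) (pcode (eL (σs k)) t.r (s a)) := by
    funext s
    exact Finset.prod_congr rfl fun a _ => Ysite_path t h0 h1 es (s a)
  rw [h2]
  have h3 := E_eq_Ecode (eL (K := t.K) (σs k)) t.r (lev t.m)
    (Ysite t.K t.r (tq t) τ k (scode es)) n
  have h4 : (Fin k × Fin 2 → Fin t.K) = (Fin k × Fin (3 - 1) → Fin t.K) := rfl
  have h5 : Crest.Agent.MP.avg (fun v : Fin k × Fin (3 - 1) → Fin t.K => E (lev t.m) t.r (fun _ => 1) n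
      (fun s => ∏ a ∈ range (n + 1),
        Ysite t.K t.r (tq t) τ k (scode es) (pcode (eL (σs k)) t.r (s a))) (fun _ => v)) =
      Ecode (t.K ^ (2 * k)) t.r (tc t) (Ysite t.K t.r (tq t) τ k (scode es)) n := h3
  rw [h5]
  ring

theorem Lfun_edge (t : FinTrial) {τ : ℝ} (h0 : 0 < τ) (h1 : τ < 1) (e : Fin 3 → Bool) :
    Lfun (genE (lev t.m) t.r) t.D (Fin 3) (edgeψ (thE τ e)) =
      - ∑' n : ℕ, Ecode (t.K ^ 3) t.r (tc t) (Yedge t.K t.r (tq t) τ (g8 e)) n / ((n : ℝ) + 1) := by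
  have hne : Nonempty (Fin t.K) := ⟨⟨0, t.hK⟩⟩
  unfold Lfun
  congr 1
  refine tsum_congr fun n => ?_
  rw [mom_eq_E]
  have h2 : (fun s : ℕ → ℕ → Fin 3 → Fin t.K =>
      ∏ a ∈ range (n + 1), (1 - ∑ c : Fin 3 → Bool,
          (∏ ℓ, tilt (t.X (fun j => s a j ℓ)) (c ℓ)) * edgeψ (thE τ e) c)) =
      fun s => ∏ a ∈ range (n + 1),
        Yedge t.K t.r (tq t) τ (g8 e) (pcode (eL (Equiv.refl (Fin 3))) t.r (s a)) := by
    funext s
    exact Finset.prod_congr rfl fun a _ => Yedge_path t h0 h1 e (s a)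
  rw [h2]
  have h3 := E_eq_Ecode (eL (K := t.K) (Equiv.refl (Fin 3))) t.r (lev t.m)
    (Yedge t.K t.r (tq t) τ (g8 e)) n
  have h5 : Crest.Agent.MP.avg (fun v : Fin 3 → Fin t.K => E (lev t.m) t.r (fun _ => 1) n
      (fun s => ∏ a ∈ range (n + 1),
        Yedge t.K t.r (tq t) τ (g8 e) (pcode (eL (Equiv.refl (Fin 3))) t.r (s a))) (fun _ => v)) =
      Ecode (t.K ^ 3) t.r (tc t) (Yedge t.K t.r (tq t) τ (g8 e)) n := h3
  rw [h5]
  ring

/-- expectation over the clause law -/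
theorem satE {τ : ℝ} (h0 : 0 < τ) (h1 : τ < 1) (f : Inter 3 → ℝ) :
    (satFact τ h0 h1).toLaw.E f = 8⁻¹ * ∑ e : Fin 3 → Bool, f (thE τ e) := by
  unfold FinLaw.E
  change ∑ i : Unit × (Fin 3 → Bool), ((1 : ℝ) * ∏ _ℓ : Fin 3, (1 / 2 : ℝ)) *
    f (fun s => Real.log (1 + (τ - 1) * ∏ ℓ, if s ℓ = i.2 ℓ then (1 : ℝ) else 0)) = _
  rw [Fintype.sum_prod_type]
  simp only [Finset.univ_unique, Finset.sum_singleton, Finset.mul_sum]
  refine Finset.sum_congr rfl fun e _ => ?_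
  have : ((1 : ℝ) * ∏ _ℓ : Fin 3, (1 / 2 : ℝ)) = 8⁻¹ := by
    simp
    norm_num
  rw [this]
  rfl

theorem satEpow {τ : ℝ} (h0 : 0 < τ) (h1 : τ < 1) (k : ℕ) (f : (Fin k → Inter 3) → ℝ) :
    (satFact τ h0 h1).toLaw.Epow k f =
      ((8 : ℝ) ^ k)⁻¹ * ∑ es : Fin k → Fin 3 → Bool, f (fun j => thE τ (es j)) := by
  unfold FinLaw.Epow
  change ∑ j : Fin k → Unit × (Fin 3 → Bool), (∏ _a : Fin k, ((1 : ℝ) * ∏ _ℓ : Fin 3, (1 / 2 : ℝ))) *
    f (fun a s => Real.log (1 + (τ - 1) * ∏ ℓ, if s ℓ = (j a).2 ℓ then (1 : ℝ) else 0)) = _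
  have : ((1 : ℝ) * ∏ _ℓ : Fin 3, (1 / 2 : ℝ)) = 8⁻¹ := by
    simp
    norm_num
  rw [this, Finset.prod_const, Finset.card_univ, Fintype.card_fin, inv_pow, ← Finset.mul_sum]
  congr 1
  exact Equiv.sum_comp (Equiv.arrowCongr (Equiv.refl (Fin k)) (Equiv.uniqueProd (Fin 3 → Bool) Unit))
    (fun es : Fin k → Fin 3 → Bool => f (fun j => thE τ (es j)))

theorem trial_adm (t : FinTrial) : Adm t.K t.r (tc t) (tq t) := by
  refine ⟨t.hK, ?_, ?_, ?_, ?_⟩
  · intro J _
    exact sub_nonneg.2 (ulev_mono t.adm (Nat.le_succ J))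
  · unfold tc
    rw [Finset.sum_range_sub, ulev_top t.m (Nat.lt_succ_self _), ulev_zero, sub_zero]
  · intro i _
    exact tilt_nonneg _ _
  · intro i _
    have h1 := tilt_sum (t.X (fun j => ⟨dig t.K j i, dig_lt t.hK _ _⟩))
    have h2 := tilt_nonneg (t.X (fun j => ⟨dig t.K j i, dig_lt t.hK _ _⟩)) false
    unfold tq
    linarith

theorem site_k (t : FinTrial) {τ : ℝ} (h0 : 0 < τ) (h1 : τ < 1) (k : ℕ) :
    (satFact τ h0 h1).toLaw.Epow k (fun θs => nu0.E (fun h => siteC h θs +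
      Lfun (genE (lev t.m) t.r) t.D (Fin k × Fin (3 - 1)) (siteψ h θs))) =
    k * (-Real.log τ) - ∑' n : ℕ, siteV t.K t.r (tc t) (tq t) τ k n / ((n : ℝ) + 1) := by
  have hnu : ∀ F : ℝ → ℝ, nu0.E F = F 0 := by
    intro F
    unfold FinLaw.E nu0
    simp
  simp only [hnu]
  rw [satEpow h0 h1]
  simp only [Lfun_site t h0 h1]
  have hC : ∀ es : Fin k → Fin 3 → Bool, siteC 0 (fun j => thE τ (es j)) = k * (-Real.log τ) := by
    intro es
    unfold siteC
    simp [supNorm_thE h0 h1]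
  simp only [hC]
  have hadm := trial_adm t
  have hsum : ∀ es : Fin k → Fin 3 → Bool, Summable fun n : ℕ =>
      Ecode (t.K ^ (2 * k)) t.r (tc t) (Ysite t.K t.r (tq t) τ k (scode es)) n / ((n : ℝ) + 1) := by
    intro es
    have hM0 : 0 ≤ 1 - τ ^ (2 * k) := by
      have : τ ^ (2 * k) ≤ 1 := pow_le_one₀ h0.le h1.le
      linarith
    have hM1 : 1 - τ ^ (2 * k) < 1 := by
      have : 0 < τ ^ (2 * k) := by positivity
      linarith
    have hb := fun n => Ecode_bounds (b := t.K ^ (2 * k)) (R := t.r) (pow_pos hadm.K_pos _)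
      (c := tc t) (Y := Ysite t.K t.r (tq t) τ k (scode es)) hM0 hadm.c_nonneg hadm.c_sum
      (fun p => Ysite_nonneg hadm h0 h1.le k _ p) (fun p => Ysite_le hadm h0 h1.le k _ p) n
    refine Summable.of_nonneg_of_le (fun n => div_nonneg (hb n).1 (by positivity)) (fun n => ?_)
      ((summable_geometric_of_lt_one hM0 hM1).mul_left (1 - τ ^ (2 * k)))
    rw [← pow_succ']
    have h2 : (1 : ℝ) ≤ (n : ℝ) + 1 := by
      have := Nat.cast_nonneg (α := ℝ) n
      linarith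
    exact (div_le_self (hb n).1 h2).trans (hb n).2
  unfold siteV
  simp only [sum_scode]
  have e1 : ∀ n : ℕ, (((8 : ℝ) ^ k)⁻¹ * ∑ es : Fin k → Fin 3 → Bool,
      Ecode (t.K ^ (2 * k)) t.r (tc t) (Ysite t.K t.r (tq t) τ k (scode es)) n) / ((n : ℝ) + 1) =
      ((8 : ℝ) ^ k)⁻¹ * ∑ es : Fin k → Fin 3 → Bool,
      Ecode (t.K ^ (2 * k)) t.r (tc t) (Ysite t.K t.r (tq t) τ k (scode es)) n / ((n : ℝ) + 1) := by
    intro n
    rw [mul_div_assoc, Finset.sum_div]
  simp only [e1]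
  rw [tsum_mul_left, Summable.tsum_finsetSum fun es _ => hsum es, Finset.sum_add_distrib,
    Finset.sum_neg_distrib, Finset.sum_const, Finset.card_univ, mul_add]
  have h8 : (Fintype.card (Fin k → Fin 3 → Bool) : ℝ) = 8 ^ k := by
    simp only [Fintype.card_fun, Fintype.card_bool, Fintype.card_fin]
    push_cast
    rfl
  rw [nsmul_eq_mul, h8]
  have : (8 : ℝ) ^ k ≠ 0 := by positivity
  field_simp
  ring

theorem edge_k (t : FinTrial) {τ : ℝ} (h0 : 0 < τ) (h1 : τ < 1) :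
    (satFact τ h0 h1).toLaw.E (fun θ => supNorm θ +
      Lfun (genE (lev t.m) t.r) t.D (Fin 3) (edgeψ θ)) =
    (-Real.log τ) - ∑' n : ℕ, edgeV t.K t.r (tc t) (tq t) τ n / ((n : ℝ) + 1) := by
  rw [satE h0 h1]
  simp only [Lfun_edge t h0 h1, supNorm_thE h0 h1]
  have hadm := trial_adm t
  have hsum : ∀ e : Fin 3 → Bool, Summable fun n : ℕ =>
      Ecode (t.K ^ 3) t.r (tc t) (Yedge t.K t.r (tq t) τ (g8 e)) n / ((n : ℝ) + 1) := by
    intro e
    have hM0 : 0 ≤ 1 - τ ^ 2 := by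
      have : τ ^ 2 ≤ 1 := pow_le_one₀ h0.le h1.le
      linarith
    have hM1 : 1 - τ ^ 2 < 1 := by
      have : 0 < τ ^ 2 := by positivity
      linarith
    have hb := fun n => Ecode_bounds (b := t.K ^ 3) (R := t.r) (pow_pos hadm.K_pos _)
      (c := tc t) (Y := Yedge t.K t.r (tq t) τ (g8 e)) hM0 hadm.c_nonneg hadm.c_sum
      (fun p => Yedge_nonneg hadm h0 h1.le _ p) (fun p => Yedge_le hadm h0 h1.le _ p) n
    refine Summable.of_nonneg_of_le (fun n => div_nonneg (hb n).1 (by positivity)) (fun n => ?_)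
      ((summable_geometric_of_lt_one hM0 hM1).mul_left (1 - τ ^ 2))
    rw [← pow_succ']
    have h2 : (1 : ℝ) ≤ (n : ℝ) + 1 := by
      have := Nat.cast_nonneg (α := ℝ) n
      linarith
    exact (div_le_self (hb n).1 h2).trans (hb n).2
  unfold edgeV
  simp only [sum_g8]
  have e1 : ∀ n : ℕ, ((8 : ℝ)⁻¹ * ∑ e : Fin 3 → Bool,
      Ecode (t.K ^ 3) t.r (tc t) (Yedge t.K t.r (tq t) τ (g8 e)) n) / ((n : ℝ) + 1) =
      (8 : ℝ)⁻¹ * ∑ e : Fin 3 → Bool,
      Ecode (t.K ^ 3) t.r (tc t) (Yedge t.K t.r (tq t) τ (g8 e)) n / ((n : ℝ) + 1) := by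
    intro n
    rw [mul_div_assoc, Finset.sum_div]
  simp only [e1]
  rw [tsum_mul_left, Summable.tsum_finsetSum fun es _ => hsum es, Finset.sum_add_distrib,
    Finset.sum_const, Finset.sum_neg_distrib, Finset.card_univ, mul_add]
  have h8 : (Fintype.card (Fin 3 → Bool) : ℝ) = 8 := by
    simp only [Fintype.card_fun, Fintype.card_bool, Fintype.card_fin]
    norm_num
  rw [nsmul_eq_mul, h8]
  ring

theorem hasSum_poisson_mean (x : ℝ) :
    HasSum (fun k : ℕ => poissonWeight x k * (k : ℝ)) x := by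
  unfold poissonWeight
  have h : HasSum (fun k : ℕ => x ^ k / (k.factorial : ℝ)) (Real.exp x) := by
    have := NormedSpace.expSeries_div_hasSum_exp (𝔸 := ℝ) x
    rwa [← Real.exp_eq_exp_ℝ] at this
  have h2 : HasSum (fun k : ℕ => Real.exp (-x) * x ^ (k + 1) / ((k + 1).factorial : ℝ) *
      ((k + 1 : ℕ) : ℝ)) x := by
    have h3 := h.mul_left (Real.exp (-x) * x)
    have e : Real.exp (-x) * x * Real.exp x = x := by
      have : Real.exp (-x) * Real.exp x = 1 := by rw [← Real.exp_add]; simp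
      linear_combination x * this
    rw [e] at h3
    refine h3.congr_fun fun k => ?_
    rw [Nat.factorial_succ]
    have : ((k : ℝ) + 1) ≠ 0 := by positivity
    have : (k.factorial : ℝ) ≠ 0 := by positivity
    push_cast
    field_simp
    ring
  refine (hasSum_nat_add_iff' (f := fun k : ℕ => Real.exp (-x) * x ^ k / (k.factorial : ℝ) *
    (k : ℝ)) 1).1 ?_
  simp only [sum_range_one, Nat.cast_zero, mul_zero, sub_zero]
  exact h2

theorem A_eq_AR' (t : FinTrial) {cc : ℝ} (hcc : 0 < cc) {τ : ℝ} (h0 : 0 < τ) (h1 : τ < 1) :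
    t.A 3 cc (satFact τ h0 h1).toLaw nu0 = Real.log 2 + cc * (-Real.log τ) -
    Real.exp (-(3 * cc)) * (∑' k : ℕ, (3 * cc) ^ k / (k.factorial : ℝ) *
      ∑' n : ℕ, siteV t.K t.r (tc t) (tq t) τ k n / ((n : ℝ) + 1)) +
    2 * cc * ∑' n : ℕ, edgeV t.K t.r (tc t) (tq t) τ n / ((n : ℝ) + 1) := by
  unfold FinTrial.A Afun
  simp only [site_k t h0 h1, edge_k t h0 h1]
  have hadm := trial_adm t
  have hm := (hasSum_poisson_mean (cc * (3 : ℕ))).mul_right (-Real.log τ)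
  have hs := (summable_site_k hadm h0 h1 hcc).hasSum.mul_left (Real.exp (-(3 * cc)))
  have h2 := hm.sub hs
  have e1 : ∀ k : ℕ, poissonWeight (cc * (3 : ℕ)) k * ((k : ℝ) * (-Real.log τ) -
      ∑' n : ℕ, siteV t.K t.r (tc t) (tq t) τ k n / ((n : ℝ) + 1)) =
      poissonWeight (cc * (3 : ℕ)) k * (k : ℝ) * (-Real.log τ) - Real.exp (-(3 * cc)) *
      ((3 * cc) ^ k / (k.factorial : ℝ) *
        ∑' n : ℕ, siteV t.K t.r (tc t) (tq t) τ k n / ((n : ℝ) + 1)) := by
    intro k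
    have : poissonWeight (cc * (3 : ℕ)) k = Real.exp (-(3 * cc)) *
        ((3 * cc) ^ k / (k.factorial : ℝ)) := by
      unfold poissonWeight
      push_cast
      rw [mul_comm cc 3, mul_div_assoc]
    rw [mul_sub, mul_assoc, this]
    ring
  rw [tsum_congr e1, h2.tsum_eq]
  push_cast
  ring

theorem A_eq_AR (t : FinTrial) {cc : ℝ} (hcc : 0 < cc) (j : ℕ) (h0 : 0 < (1 / 2 : ℝ) ^ (j + 1))
    (h1 : (1 / 2 : ℝ) ^ (j + 1) < 1) :
    t.A 3 cc (satFact ((1 / 2 : ℝ) ^ (j + 1)) h0 h1).toLaw nu0 = AR cc j t.K t.r (tc t) (tq t) := by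
  rw [A_eq_AR' t hcc h0 h1]
  unfold AR
  have e : (1 / ((2 ^ (j + 1) : ℕ) : ℝ)) = (1 / 2 : ℝ) ^ (j + 1) := by
    push_cast
    rw [one_div_pow]
  rw [e]
  have hl : Real.log ((1 / 2 : ℝ) ^ (j + 1)) = -(((j : ℝ) + 1) * Real.log 2) := by
    rw [Real.log_pow, one_div, Real.log_inv]
    push_cast
    ring
  rw [hl]
  ring


theorem tilt_logit {q : ℝ} (h0 : 0 < q) (h1 : q < 1) :
    tilt (1 / 2 * Real.log (q / (1 - q))) true = q := by
  have hp : 0 < q / (1 - q) := div_pos h0 (by linarith)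
  unfold tilt spinVal
  rw [Real.cosh_eq]
  simp only [if_true, mul_one]
  set x := 1 / 2 * Real.log (q / (1 - q)) with hx
  have h2 : Real.exp x * Real.exp x = q / (1 - q) := by
    rw [← Real.exp_add, hx]
    have : 1 / 2 * Real.log (q / (1 - q)) + 1 / 2 * Real.log (q / (1 - q)) = Real.log (q / (1 - q)) := by
      ring
    rw [this, Real.exp_log hp]
  have h3 : Real.exp x * Real.exp (-x) = 1 := by rw [← Real.exp_add]; simp
  have hpos : 0 < Real.exp x := Real.exp_pos x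
  have h4 : Real.exp (-x) = 1 / Real.exp x := by
    field_simp
    linarith
  have hq : (1 - q) ≠ 0 := by linarith
  rw [h4]
  have h5 : Real.exp x * Real.exp x * (1 - q) = q := by rw [h2]; field_simp
  have h6 : 2 * ((Real.exp x + 1 / Real.exp x) / 2) = (Real.exp x * Real.exp x + 1) / Real.exp x := by
    field_simp
  rw [h6, div_div_eq_mul_div, div_eq_iff (by positivity)]
  nlinarith

/-- cumulative weights -/
theorem DT_cum_lt (d : DT) {i : ℕ} (hi : i ≤ d.R) :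
    ((∑ J ∈ range i, d.g J : ℕ) : ℝ) < d.G := by
  have : ∑ J ∈ range i, d.g J < d.G := by
    unfold DT.G
    refine Finset.sum_lt_sum_of_subset (i := d.R) ?_ (by simp) ?_ (Nat.succ_pos _) ?_
    · intro J hJ
      rw [Finset.mem_range] at hJ ⊢
      omega
    · simp only [Finset.mem_range]; omega
    · intro J _ _
      exact Nat.zero_le _
  exact_mod_cast this

/-- exponents of the trial of coded data -/
noncomputable def dm (d : DT) (i : Fin d.R) : ℝ :=
  ((∑ J ∈ range ((i : ℕ) + 1), d.g J : ℕ) : ℝ) / d.G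

theorem dm_adm (d : DT) : AdmissibleExponents (dm d) := by
  have hG : (0 : ℝ) < d.G := by exact_mod_cast d.G_pos
  refine ⟨?_, ?_⟩
  · intro a b hab
    unfold dm
    refine div_lt_div_of_pos_right ?_ hG
    have hab' : (a : ℕ) < b := hab
    have : ∑ J ∈ range ((a : ℕ) + 1), d.g J < ∑ J ∈ range ((b : ℕ) + 1), d.g J := by
      refine Finset.sum_lt_sum_of_subset (i := (b : ℕ)) ?_ (by simp) ?_ (Nat.succ_pos _) ?_
      · intro J hJ
        rw [Finset.mem_range] at hJ ⊢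
        omega
      · simp only [Finset.mem_range]; omega
      · intro J _ _
        exact Nat.zero_le _
    exact_mod_cast this
  · intro i
    unfold dm
    constructor
    · refine div_pos ?_ hG
      have : 0 < ∑ J ∈ range ((i : ℕ) + 1), d.g J :=
        Finset.sum_pos (fun J _ => Nat.succ_pos _) ⟨0, by simp⟩
      exact_mod_cast this
    · rw [div_lt_one hG]
      exact DT_cum_lt d i.isLt

theorem lev_dm (d : DT) (J : ℕ) (hJ : J ≤ d.R + 1) :
    lev (dm d) J = ((∑ i ∈ range J, d.g i : ℕ) : ℝ) / d.G := by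
  have hG : (d.G : ℝ) ≠ 0 := by
    have := d.G_pos
    positivity
  unfold lev
  split_ifs with h0 h1
  · subst h0
    simp
  · unfold dm
    have : J - 1 + 1 = J := by omega
    simp only [this]
  · have : J = d.R + 1 := by omega
    rw [this]
    change (1 : ℝ) = (d.G : ℝ) / d.G
    rw [div_self hG]

/-- Coded rational data give a trial. -/
theorem exists_trial_of_DT (d : DT) : ∃ t : FinTrial, t.K = d.K ∧ t.r = d.R ∧
    (∀ J, J ≤ d.R → tc t J = d.cR J) ∧ (∀ i, i < d.K ^ (d.R + 1) → tq t i = d.qR i) := by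
  have hK : 0 < d.K := Nat.succ_pos _
  refine ⟨⟨d.R, d.K, hK, dm d, dm_adm d,
    fun v => 1 / 2 * Real.log (d.qR (ofD v) / (1 - d.qR (ofD v)))⟩, rfl, rfl, ?_, ?_⟩
  · intro J hJ
    change lev (dm d) (J + 1) - lev (dm d) J = d.cR J
    rw [lev_dm d _ (by omega), lev_dm d _ (by omega), Finset.sum_range_succ]
    unfold DT.cR
    push_cast
    ring
  · intro i hi
    change tilt (1 / 2 * Real.log (d.qR (ofD (fun j : Fin (d.R + 1) =>
      (⟨dig d.K j i, dig_lt hK _ _⟩ : Fin d.K))) / (1 - d.qR (ofD (fun j : Fin (d.R + 1) =>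
      (⟨dig d.K j i, dig_lt hK _ _⟩ : Fin d.K)))))) true = d.qR i
    have h : ofD (fun j : Fin (d.R + 1) => (⟨dig d.K j i, dig_lt hK _ _⟩ : Fin d.K)) = i := by
      refine ext_dig (k := d.R + 1) (b := d.K) (ofD_lt _) hi ?_
      intro l hl
      exact dig_ofD (fun j : Fin (d.R + 1) => (⟨dig d.K j i, dig_lt hK _ _⟩ : Fin d.K)) ⟨l, hl⟩
    rw [h]
    have hU : (0 : ℝ) < d.U := by
      have : 0 < d.U := Nat.succ_pos _
      exact_mod_cast this
    refine tilt_logit ?_ ?_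
    · unfold DT.qR
      have : (0 : ℝ) < d.u i := by exact_mod_cast d.u_pos i
      positivity
    · unfold DT.qR
      rw [div_lt_one hU]
      exact_mod_cast d.u_lt i

end Crest.Agent.RC
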