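import Crest.Agent.RC.Bounds

/-!
# Row 153 (S0218), computability part: truncation of the series
-/

set_option autoImplicit false

namespace Crest.Agent.RC

open Finset Filter Topology

/-- The full series. -/
noncomputable def AR (cc : ℝ) (j K R : ℕ) (c q : ℕ → ℝ) : ℝ :=
  Real.log 2 * (1 + cc * (j + 1)) -
    Real.exp (-(3 * cc)) * (∑' k : ℕ, (3 * cc) ^ k / (k.factorial : ℝ) *
      ∑' n : ℕ, siteV K R c q (1 / ((2 ^ (j + 1) : ℕ) : ℝ)) k n / (n + 1)) +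
    2 * cc * ∑' n : ℕ, edgeV K R c q (1 / ((2 ^ (j + 1) : ℕ) : ℝ)) n / (n + 1)

/-- `Σ (1-t^{2k})^{n+1}/(n+1) = -2k log t` -/
theorem summable_site {K R : ℕ} {c q : ℕ → ℝ} (h : Adm K R c q) {t : ℝ} (ht : 0 < t) (ht1 : t < 1)
    (k : ℕ) : Summable (fun n : ℕ => siteV K R c q t k n / ((n : ℝ) + 1)) ∧
      ∑' n : ℕ, siteV K R c q t k n / ((n : ℝ) + 1) ≤ -(2 * k * Real.log t) := by
  have hp : 0 < t ^ (2 * k) := pow_pos ht _
  have hp1 : t ^ (2 * k) ≤ 1 := pow_le_one₀ ht.le ht1.le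
  have hx : |1 - t ^ (2 * k)| < 1 := by
    rw [abs_of_nonneg (by linarith)]; linarith
  have hs := Real.hasSum_pow_div_log_of_abs_lt_one hx
  have hle : ∀ n : ℕ, siteV K R c q t k n / ((n : ℝ) + 1) ≤
      (1 - t ^ (2 * k)) ^ (n + 1) / ((n : ℝ) + 1) := fun n => by
    have hb := (siteV_bounds h ht ht1.le k n).2
    have hn : (0 : ℝ) < (n : ℝ) + 1 := by positivity
    exact div_le_div_of_nonneg_right hb hn.le
  have h0 : ∀ n : ℕ, 0 ≤ siteV K R c q t k n / ((n : ℝ) + 1) := fun n => by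
    have hb := (siteV_bounds h ht ht1.le k n).1
    have hn : (0 : ℝ) < (n : ℝ) + 1 := by positivity
    exact div_nonneg hb hn.le
  have hsum : Summable (fun n : ℕ => siteV K R c q t k n / ((n : ℝ) + 1)) :=
    Summable.of_nonneg_of_le h0 hle hs.summable
  refine ⟨hsum, ?_⟩
  have h1 := hsum.tsum_le_tsum hle hs.summable
  rw [hs.tsum_eq] at h1
  refine h1.trans (le_of_eq ?_)
  have : (1 : ℝ) - (1 - t ^ (2 * k)) = t ^ (2 * k) := by ring
  rw [this, Real.log_pow]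
  push_cast
  ring

theorem summable_edge {K R : ℕ} {c q : ℕ → ℝ} (h : Adm K R c q) {t : ℝ} (ht : 0 < t) (ht1 : t < 1) :
    Summable (fun n : ℕ => edgeV K R c q t n / ((n : ℝ) + 1)) := by
  have hp : 0 < t ^ 2 := pow_pos ht _
  have hp1 : t ^ 2 ≤ 1 := pow_le_one₀ ht.le ht1.le
  have hx : |1 - t ^ 2| < 1 := by
    rw [abs_of_nonneg (by linarith)]; linarith
  have hs := Real.hasSum_pow_div_log_of_abs_lt_one hx
  refine Summable.of_nonneg_of_le (fun n => ?_) (fun n => ?_) hs.summable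
  · have hb := (edgeV_bounds h ht ht1.le n).1
    have hn : (0 : ℝ) < (n : ℝ) + 1 := by positivity
    exact div_nonneg hb hn.le
  · have hb := (edgeV_bounds h ht ht1.le n).2
    have hn : (0 : ℝ) < (n : ℝ) + 1 := by positivity
    exact div_le_div_of_nonneg_right hb hn.le

theorem summable_site_k {K R : ℕ} {c q : ℕ → ℝ} (h : Adm K R c q) {t : ℝ} (ht : 0 < t) (ht1 : t < 1)
    {cc : ℝ} (hcc : 0 < cc) : Summable (fun k : ℕ => (3 * cc) ^ k / (k.factorial : ℝ) *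
      ∑' n : ℕ, siteV K R c q t k n / ((n : ℝ) + 1)) := by
  have hlog : 0 ≤ -Real.log t := by
    have := Real.log_nonpos ht.le ht1.le
    linarith
  have hS : Summable (fun k : ℕ => (2 * (-Real.log t)) * ((2 * (3 * cc)) ^ k / (k.factorial : ℝ))) :=
    (Real.summable_pow_div_factorial (2 * (3 * cc))).mul_left _
  refine Summable.of_nonneg_of_le (fun k => ?_) (fun k => ?_) hS
  · refine mul_nonneg (by positivity) (tsum_nonneg fun n => ?_)
    have hb := (siteV_bounds h ht ht1.le k n).1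
    have hn : (0 : ℝ) < (n : ℝ) + 1 := by positivity
    exact div_nonneg hb hn.le
  · have h1 := (summable_site h ht ht1 k).2
    have hk : (k : ℝ) ≤ 2 ^ k := by
      have : k < 2 ^ k := Nat.lt_two_pow_self
      exact_mod_cast this.le
    calc (3 * cc) ^ k / (k.factorial : ℝ) * ∑' n : ℕ, siteV K R c q t k n / ((n : ℝ) + 1)
        ≤ (3 * cc) ^ k / (k.factorial : ℝ) * (-(2 * k * Real.log t)) :=
          mul_le_mul_of_nonneg_left h1 (by positivity)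
      _ = (2 * (-Real.log t)) * ((3 * cc) ^ k / (k.factorial : ℝ)) * k := by ring
      _ ≤ (2 * (-Real.log t)) * ((3 * cc) ^ k / (k.factorial : ℝ)) * 2 ^ k :=
          mul_le_mul_of_nonneg_left hk (by positivity)
      _ = (2 * (-Real.log t)) * ((2 * (3 * cc)) ^ k / (k.factorial : ℝ)) := by
          rw [mul_pow 2 (3 * cc) k]; ring

/-- Tail of the edge series: `Σ_{n ≥ N} (1-t²)^{n+1}/(n+1) ≤ (1-t²)^N / t²`. -/
theorem edge_tail {K R : ℕ} {c q : ℕ → ℝ} (h : Adm K R c q) {t : ℝ} (ht : 0 < t) (ht1 : t < 1)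
    (N : ℕ) : ∑' n : ℕ, edgeV K R c q t n / ((n : ℝ) + 1) ≤
      (∑ n ∈ range N, edgeV K R c q t n / ((n : ℝ) + 1)) + (1 - t ^ 2) ^ N * (1 / t) ^ 2 := by
  have hp : 0 < t ^ 2 := pow_pos ht _
  have hp1 : t ^ 2 ≤ 1 := pow_le_one₀ ht.le ht1.le
  have hx0 : 0 ≤ 1 - t ^ 2 := by linarith
  have hx1 : 1 - t ^ 2 < 1 := by linarith
  have hsum := summable_edge h ht ht1
  rw [← hsum.sum_add_tsum_nat_add N]
  refine add_le_add le_rfl ?_
  have hg := (hasSum_geometric_of_lt_one hx0 hx1).mul_left ((1 - t ^ 2) ^ N)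
  have hsum' : Summable (fun n : ℕ => edgeV K R c q t (n + N) / (((n + N : ℕ) : ℝ) + 1)) :=
    (summable_nat_add_iff (f := fun n : ℕ => edgeV K R c q t n / ((n : ℝ) + 1)) N).2 hsum
  have hle : ∀ n : ℕ, edgeV K R c q t (n + N) / (((n + N : ℕ) : ℝ) + 1) ≤
      (1 - t ^ 2) ^ N * (1 - t ^ 2) ^ n := fun n => by
    have hb := (edgeV_bounds h ht ht1.le (n + N)).2
    have hb0 := (edgeV_bounds h ht ht1.le (n + N)).1
    have hn : (1 : ℝ) ≤ ((n + N : ℕ) : ℝ) + 1 := by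
      have : (0 : ℝ) ≤ ((n + N : ℕ) : ℝ) := Nat.cast_nonneg _
      linarith
    calc edgeV K R c q t (n + N) / (((n + N : ℕ) : ℝ) + 1) ≤ edgeV K R c q t (n + N) :=
          div_le_self hb0 hn
      _ ≤ (1 - t ^ 2) ^ (n + N + 1) := hb
      _ ≤ (1 - t ^ 2) ^ (n + N) := pow_le_pow_of_le_one hx0 hx1.le (Nat.le_succ _)
      _ = (1 - t ^ 2) ^ N * (1 - t ^ 2) ^ n := by rw [pow_add]; ring
  have h1 := hsum'.tsum_le_tsum hle hg.summable
  rw [hg.tsum_eq] at h1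
  refine h1.trans (le_of_eq ?_)
  have : (1 : ℝ) - (1 - t ^ 2) = t ^ 2 := by ring
  rw [this, one_div, inv_pow]

theorem tpos (j : ℕ) : (0 : ℝ) < 1 / ((2 ^ (j + 1) : ℕ) : ℝ) := by positivity

theorem tlt (j : ℕ) : (1 : ℝ) / ((2 ^ (j + 1) : ℕ) : ℝ) < 1 := by
  have h2 : (1 : ℝ) < ((2 ^ (j + 1) : ℕ) : ℝ) := by
    have : 1 < 2 ^ (j + 1) := Nat.one_lt_two_pow (Nat.succ_ne_zero j)
    exact_mod_cast this
  rw [div_lt_one (by positivity)]
  exact h2

/-- Soundness of the truncation. -/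
theorem AR_le_PhiR {cc : ℝ} (hcc : 0 < cc) (j : ℕ) {K R : ℕ} {c q : ℕ → ℝ} (h : Adm K R c q)
    {L2 e3 : ℝ} (hL : Real.log 2 ≤ L2) (he0 : 0 ≤ e3) (he : e3 ≤ Real.exp (-(3 * cc)))
    (k0 N0 : ℕ) : AR cc j K R c q ≤ PhiR cc j K R c q L2 e3 k0 N0 := by
  have ht := tpos j
  have ht1 := tlt j
  set t : ℝ := 1 / ((2 ^ (j + 1) : ℕ) : ℝ) with htdef
  have hinv : ((2 ^ (j + 1) : ℕ) : ℝ) = 1 / t := by rw [htdef]; field_simp
  unfold AR PhiR
  rw [← htdef, hinv]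
  have h1 : Real.log 2 * (1 + cc * (j + 1)) ≤ L2 * (1 + cc * (j + 1)) :=
    mul_le_mul_of_nonneg_right hL (by positivity)
  have hterm0 : ∀ k n : ℕ, 0 ≤ siteV K R c q t k n / ((n : ℝ) + 1) := fun k n => by
    have hb := (siteV_bounds h ht ht1.le k n).1
    have hn : (0 : ℝ) < (n : ℝ) + 1 := by positivity
    exact div_nonneg hb hn.le
  have hS : ∑ k ∈ range k0, (3 * cc) ^ k / (k.factorial : ℝ) *
      ∑ n ∈ range N0, siteV K R c q t k n / ((n : ℝ) + 1) ≤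
      ∑' k : ℕ, (3 * cc) ^ k / (k.factorial : ℝ) *
        ∑' n : ℕ, siteV K R c q t k n / ((n : ℝ) + 1) := by
    refine le_trans (Finset.sum_le_sum fun k _ => ?_)
      ((summable_site_k h ht ht1 hcc).sum_le_tsum (range k0) fun k _ => ?_)
    · exact mul_le_mul_of_nonneg_left
        ((summable_site h ht ht1 k).1.sum_le_tsum (range N0) fun n _ => hterm0 k n) (by positivity)
    · exact mul_nonneg (by positivity) (tsum_nonneg fun n => hterm0 k n)
  have hS0 : 0 ≤ ∑ k ∈ range k0, (3 * cc) ^ k / (k.factorial : ℝ) *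
      ∑ n ∈ range N0, siteV K R c q t k n / ((n : ℝ) + 1) :=
    Finset.sum_nonneg fun k _ => mul_nonneg (by positivity) (Finset.sum_nonneg fun n _ => hterm0 k n)
  have h2 : e3 * (∑ k ∈ range k0, (3 * cc) ^ k / (k.factorial : ℝ) *
      ∑ n ∈ range N0, siteV K R c q t k n / ((n : ℝ) + 1)) ≤
      Real.exp (-(3 * cc)) * ∑' k : ℕ, (3 * cc) ^ k / (k.factorial : ℝ) *
        ∑' n : ℕ, siteV K R c q t k n / ((n : ℝ) + 1) :=
    mul_le_mul he hS hS0 (Real.exp_pos _).le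
  have h3 := mul_le_mul_of_nonneg_left (edge_tail h ht ht1 N0)
    (by positivity : (0 : ℝ) ≤ 2 * cc)
  linarith

/-- Completeness of the truncation. -/
theorem exists_PhiR_neg {cc : ℝ} (hcc : 0 < cc) (j : ℕ) {K R : ℕ} {c q : ℕ → ℝ} (h : Adm K R c q)
    (hneg : AR cc j K R c q < 0) :
    ∃ k0 N0 : ℕ, PhiR cc j K R c q (Real.log 2) (Real.exp (-(3 * cc))) k0 N0 < 0 := by
  have ht := tpos j
  have ht1 := tlt j
  set t : ℝ := 1 / ((2 ^ (j + 1) : ℕ) : ℝ) with htdef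
  have hp : 0 < t ^ 2 := pow_pos ht _
  have hp1 : t ^ 2 ≤ 1 := pow_le_one₀ ht.le ht1.le
  have hA := (summable_site_k h ht ht1 hcc).hasSum.tendsto_sum_nat
  have hT : Tendsto (fun k0 : ℕ => Real.log 2 * (1 + cc * (j + 1)) -
      Real.exp (-(3 * cc)) * (∑ k ∈ range k0, (3 * cc) ^ k / (k.factorial : ℝ) *
        ∑' n : ℕ, siteV K R c q t k n / ((n : ℝ) + 1)) +
      2 * cc * ∑' n : ℕ, edgeV K R c q t n / ((n : ℝ) + 1)) atTop (𝓝 (AR cc j K R c q)) := by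
    unfold AR
    exact ((hA.const_mul _).const_sub _).add_const _
  obtain ⟨k0, hk0⟩ := (hT.eventually_lt_const hneg).exists
  have hB : Tendsto (fun N0 : ℕ => ∑ k ∈ range k0, (3 * cc) ^ k / (k.factorial : ℝ) *
      ∑ n ∈ range N0, siteV K R c q t k n / ((n : ℝ) + 1)) atTop
      (𝓝 (∑ k ∈ range k0, (3 * cc) ^ k / (k.factorial : ℝ) *
        ∑' n : ℕ, siteV K R c q t k n / ((n : ℝ) + 1))) :=
    tendsto_finsetSum _ fun k _ =>
      ((summable_site h ht ht1 k).1.hasSum.tendsto_sum_nat).const_mul _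
  have hE := (summable_edge h ht ht1).hasSum.tendsto_sum_nat
  have hG : Tendsto (fun N0 : ℕ => (1 - t ^ 2) ^ N0 * ((2 ^ (j + 1) : ℕ) : ℝ) ^ 2) atTop
      (𝓝 (0 * ((2 ^ (j + 1) : ℕ) : ℝ) ^ 2)) :=
    (tendsto_pow_atTop_nhds_zero_of_lt_one (by linarith) (by linarith)).mul_const _
  have hP : Tendsto (fun N0 : ℕ => PhiR cc j K R c q (Real.log 2) (Real.exp (-(3 * cc))) k0 N0)
      atTop (𝓝 (Real.log 2 * (1 + cc * (j + 1)) -
      Real.exp (-(3 * cc)) * (∑ k ∈ range k0, (3 * cc) ^ k / (k.factorial : ℝ) *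
        ∑' n : ℕ, siteV K R c q t k n / ((n : ℝ) + 1)) +
      2 * cc * ((∑' n : ℕ, edgeV K R c q t n / ((n : ℝ) + 1)) +
        0 * ((2 ^ (j + 1) : ℕ) : ℝ) ^ 2))) := by
    unfold PhiR
    exact ((hB.const_mul _).const_sub _).add ((hE.add hG).const_mul _)
  rw [zero_mul, add_zero] at hP
  obtain ⟨N0, hN0⟩ := (hP.eventually_lt_const hk0).exists
  exact ⟨k0, N0, hN0⟩

end Crest.Agent.RC
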